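import Mathlib

open MeasureTheory Set
open scoped ENNReal Pointwise

namespace Vale.Agent.Lib.P227

/-- One-dimensional Brunn-Minkowski for compact sets with scale factors. -/
lemma bm_compact {A B C : Set ℝ} (hA : IsCompact A) (hB : IsCompact B)
    (hA' : A.Nonempty) (hB' : B.Nonempty) {α β : ℝ} (hα : 0 < α) (hβ : 0 < β)
    (hC : ∀ u ∈ A, ∀ v ∈ B, α * u + β * v ∈ C) :
    ENNReal.ofReal α * volume A + ENNReal.ofReal β * volume B ≤ volume C := by
  obtain ⟨a, ha, hamax⟩ := hA.exists_isGreatest hA'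
  obtain ⟨b, hb, hbmin⟩ := hB.exists_isLeast hB'
  set S : Set ℝ := (fun u => α * u + β * b) '' A with hS
  set T : Set ℝ := (fun v => α * a + β * v) '' B with hT
  have hSc : IsCompact S := hA.image (by fun_prop)
  have hTc : IsCompact T := hB.image (by fun_prop)
  have hSsub : S ⊆ C := by
    rintro x ⟨u, hu, rfl⟩
    exact hC u hu b hb
  have hTsub : T ⊆ C := by
    rintro x ⟨v, hv, rfl⟩
    exact hC a ha v hv
  have hvolS : volume S = ENNReal.ofReal α * volume A := by
    have : S = (fun x => x + β * b) '' (α • A) := by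
      ext x
      simp only [hS, mem_image, mem_smul_set, smul_eq_mul]
      constructor
      · rintro ⟨u, hu, rfl⟩
        exact ⟨α * u, ⟨u, hu, rfl⟩, rfl⟩
      · rintro ⟨_, ⟨u, hu, rfl⟩, rfl⟩
        exact ⟨u, hu, rfl⟩
    rw [this, Set.image_add_right, measure_preimage_add_right, Measure.addHaar_smul]
    simp [abs_of_pos hα]
  have hvolT : volume T = ENNReal.ofReal β * volume B := by
    have : T = (fun x => α * a + x) '' (β • B) := by
      ext x
      simp only [hT, mem_image, mem_smul_set, smul_eq_mul]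
      constructor
      · rintro ⟨u, hu, rfl⟩
        exact ⟨β * u, ⟨u, hu, rfl⟩, rfl⟩
      · rintro ⟨_, ⟨u, hu, rfl⟩, rfl⟩
        exact ⟨u, hu, rfl⟩
    rw [this, Set.image_add_left, measure_preimage_add, Measure.addHaar_smul]
    simp [abs_of_pos hβ]
  have hinter : S ∩ T ⊆ {α * a + β * b} := by
    rintro x ⟨⟨u, hu, rfl⟩, ⟨v, hv, hv'⟩⟩
    have h1 : u ≤ a := hamax hu
    have h2 : b ≤ v := hbmin hv
    have h3 : α * a + β * v = α * u + β * b := hv'
    have h4 : α * (a - u) + β * (v - b) = 0 := by nlinarith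
    have h5 : 0 ≤ α * (a - u) := mul_nonneg hα.le (by linarith)
    have h6 : 0 ≤ β * (v - b) := mul_nonneg hβ.le (by linarith)
    have h7 : α * (a - u) = 0 := by linarith
    have h8 : a - u = 0 := by
      rcases mul_eq_zero.mp h7 with h | h
      · exact absurd h hα.ne'
      · exact h
    have : u = a := by linarith
    simp [this]
  have hnull : volume (S ∩ T) = 0 := by
    apply measure_mono_null hinter
    simp
  have hadd := measure_union_add_inter S hTc.isClosed.measurableSet (μ := volume)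
  rw [hnull, add_zero] at hadd
  rw [← hvolS, ← hvolT, ← hadd]
  exact measure_mono (union_subset hSsub hTsub)

/-- Every measurable nonempty set is the supremum over its nonempty compact subsets. -/
lemma volume_eq_iSup_compact {A : Set ℝ} (hA : MeasurableSet A) (hA' : A.Nonempty) :
    volume A = ⨆ K : {K : Set ℝ // K ⊆ A ∧ IsCompact K ∧ K.Nonempty}, volume K.1 := by
  apply le_antisymm
  · rw [hA.measure_eq_iSup_isCompact]
    refine iSup_le fun K => iSup_le fun hKA => iSup_le fun hK => ?_
    obtain ⟨a, ha⟩ := hA'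
    refine le_trans ?_ (le_iSup (fun K : {K : Set ℝ // K ⊆ A ∧ IsCompact K ∧ K.Nonempty} => volume K.1)
      ⟨K ∪ {a}, union_subset hKA (by simpa using ha), hK.union isCompact_singleton, by simp⟩)
    exact measure_mono subset_union_left
  · exact iSup_le fun K => measure_mono K.2.1

/-- One-dimensional Brunn-Minkowski for measurable sets with scale factors. -/
lemma bm_measurable {A B C : Set ℝ} (hA : MeasurableSet A) (hB : MeasurableSet B)
    (hA' : A.Nonempty) (hB' : B.Nonempty) {α β : ℝ} (hα : 0 < α) (hβ : 0 < β)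
    (hC : ∀ u ∈ A, ∀ v ∈ B, α * u + β * v ∈ C) :
    ENNReal.ofReal α * volume A + ENNReal.ofReal β * volume B ≤ volume C := by
  have : Nonempty {K : Set ℝ // K ⊆ A ∧ IsCompact K ∧ K.Nonempty} := by
    obtain ⟨a, ha⟩ := hA'
    exact ⟨⟨{a}, by simpa using ha, isCompact_singleton, by simp⟩⟩
  have : Nonempty {K : Set ℝ // K ⊆ B ∧ IsCompact K ∧ K.Nonempty} := by
    obtain ⟨a, ha⟩ := hB'
    exact ⟨⟨{a}, by simpa using ha, isCompact_singleton, by simp⟩⟩
  rw [volume_eq_iSup_compact hA hA', volume_eq_iSup_compact hB hB', ENNReal.mul_iSup,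
    ENNReal.mul_iSup, ENNReal.iSup_add]
  refine iSup_le fun K => ?_
  rw [ENNReal.add_iSup]
  refine iSup_le fun K' => ?_
  exact bm_compact K.2.2.1 K'.2.2.1 K.2.2.2 K'.2.2.2 hα hβ
    (fun u hu v hv => hC u (K.2.1 hu) v (K'.2.1 hv))

end Vale.Agent.Lib.P227
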