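import Vale.Agent.Lib.P227.PL

open MeasureTheory Set
open scoped ENNReal Pointwise

namespace Vale.Agent.Lib.P227

/-- The function `u ↦ E (w / u) / u ^ 2` on `u > 0`, zero elsewhere. -/
noncomputable def phi (E : ℝ × ℝ → ℝ) (w : ℝ × ℝ) (u : ℝ) : ℝ :=
  if 0 < u then E (u⁻¹ • w) * (u⁻¹) ^ 2 else 0

/-- The radial integral of `E` along the ray through `w`. -/
noncomputable def radial (E : ℝ × ℝ → ℝ) (w : ℝ × ℝ) : ℝ≥0∞ :=
  ∫⁻ r in Ioi (0:ℝ), ENNReal.ofReal (E (r • w))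

lemma phi_meas {E : ℝ × ℝ → ℝ} (hE : Measurable E) (w : ℝ × ℝ) : Measurable (phi E w) := by
  unfold phi
  refine Measurable.ite (measurableSet_lt measurable_const measurable_id) ?_ measurable_const
  exact (hE.comp (measurable_inv.smul_const w)).mul (measurable_inv.pow_const 2)

lemma phi_nonneg {E : ℝ × ℝ → ℝ} (E0 : ∀ x, 0 ≤ E x) (w : ℝ × ℝ) (u : ℝ) : 0 ≤ phi E w u := by
  unfold phi
  split_ifs
  · exact mul_nonneg (E0 _) (by positivity)
  · exact le_rfl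

lemma lint_phi (E : ℝ × ℝ → ℝ) (w : ℝ × ℝ) :
    ∫⁻ u, ENNReal.ofReal (phi E w u) = radial E w := by
  have h1 : ∫⁻ u, ENNReal.ofReal (phi E w u)
      = ∫⁻ u in Ioi (0:ℝ), ENNReal.ofReal (E (u⁻¹ • w) * (u⁻¹) ^ 2) := by
    rw [← lintegral_indicator measurableSet_Ioi]
    apply lintegral_congr
    intro u
    by_cases hu : 0 < u
    · simp [phi, hu]
    · simp [phi, hu]
  rw [h1]
  have him : Inv.inv '' Ioi (0:ℝ) = Ioi (0:ℝ) := by
    rw [image_inv_eq_inv]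
    ext x
    simp
  have := lintegral_image_eq_lintegral_abs_deriv_mul (s := Ioi (0:ℝ)) (f := Inv.inv)
    (f' := fun x => -(x ^ 2)⁻¹) measurableSet_Ioi
    (fun x hx => (hasDerivAt_inv (ne_of_gt hx)).hasDerivWithinAt)
    (fun x _ y _ hxy => inv_injective hxy)
    (fun r => ENNReal.ofReal (E (r • w)))
  rw [him] at this
  unfold radial
  rw [this]
  apply setLIntegral_congr_fun measurableSet_Ioi
  intro u hu
  have hu' : 0 < u := hu
  simp only
  rw [abs_neg, abs_of_pos (by positivity), ← ENNReal.ofReal_mul (by positivity), mul_comm,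
    inv_pow]

/-- The elementary inequality behind Busemann's theorem. -/
lemma key_ineq {F1 F2 μ : ℝ} (h1 : 0 < F1) (h2 : 0 < F2) (m0 : 0 < μ) (m1 : μ < 1) :
    (((Real.sqrt F1)⁻¹ + (Real.sqrt F2)⁻¹) ^ 2)⁻¹
      ≤ F1 ^ (1 - μ) * F2 ^ μ * (((1 - μ) ^ 2) ^ (1 - μ) * (μ ^ 2) ^ μ) := by
  have h1m : 0 < 1 - μ := by linarith
  set X := (Real.sqrt F1)⁻¹ with hX
  set Y := (Real.sqrt F2)⁻¹ with hY
  have hXp : 0 < X := inv_pos.2 (Real.sqrt_pos.2 h1)
  have hYp : 0 < Y := inv_pos.2 (Real.sqrt_pos.2 h2)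
  have hX2 : X ^ 2 = F1⁻¹ := by
    rw [hX, inv_pow, Real.sq_sqrt h1.le]
  have hY2 : Y ^ 2 = F2⁻¹ := by
    rw [hY, inv_pow, Real.sq_sqrt h2.le]
  set A := X / (1 - μ) with hA
  set B := Y / μ with hB
  have hAp : 0 < A := div_pos hXp h1m
  have hBp : 0 < B := div_pos hYp m0
  have am := Real.geom_mean_le_arith_mean2_weighted h1m.le m0.le hAp.le hBp.le (by ring)
  have e : (1 - μ) * A + μ * B = X + Y := by
    rw [hA, hB]
    field_simp
  rw [e] at am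
  have gp : 0 < A ^ (1 - μ) * B ^ μ := by positivity
  have step : ((X + Y) ^ 2)⁻¹ ≤ ((A ^ (1 - μ) * B ^ μ) ^ 2)⁻¹ := by
    apply inv_anti₀ (by positivity)
    exact pow_le_pow_left₀ gp.le am 2
  refine le_trans step (le_of_eq ?_)
  have e1 : (A ^ (1 - μ)) ^ 2 = (A ^ 2) ^ (1 - μ) := by
    rw [← Real.rpow_natCast, ← Real.rpow_natCast, ← Real.rpow_mul hAp.le, ← Real.rpow_mul (by positivity),
      mul_comm]
  have e2 : (B ^ μ) ^ 2 = (B ^ 2) ^ μ := by
    rw [← Real.rpow_natCast, ← Real.rpow_natCast, ← Real.rpow_mul hBp.le, ← Real.rpow_mul (by positivity),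
      mul_comm]
  have e3 : A ^ 2 = (F1 * (1 - μ) ^ 2)⁻¹ := by
    rw [hA, div_pow, hX2, mul_inv]
    rfl
  have e4 : B ^ 2 = (F2 * μ ^ 2)⁻¹ := by
    rw [hB, div_pow, hY2, mul_inv]
    rfl
  rw [mul_pow, e1, e2, e3, e4, mul_inv, Real.inv_rpow (by positivity), Real.inv_rpow (by positivity),
    inv_inv, inv_inv, Real.mul_rpow h1.le (by positivity), Real.mul_rpow h2.le (by positivity)]
  ring

/-- Scaling inside a lower integral. -/
lemma lint_div {p : ℝ → ℝ} {c : ℝ} (hc : 0 < c) (hp : Measurable p) :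
    ∫⁻ x, ENNReal.ofReal (p x / c) = ENNReal.ofReal c⁻¹ * ∫⁻ x, ENNReal.ofReal (p x) := by
  rw [← lintegral_const_mul _ hp.ennreal_ofReal]
  apply lintegral_congr
  intro x
  rw [← ENNReal.ofReal_mul (inv_nonneg.2 hc.le), div_eq_inv_mul]

/-- A normalised function has least upper bound one. -/
lemma isLUB_div {p : ℝ → ℝ} {F : ℝ} (hF : 0 < F) (hl : IsLUB (range p) F) :
    IsLUB (range fun x => p x / F) 1 := by
  constructor
  · rintro _ ⟨x, rfl⟩
    have := hl.1 ⟨x, rfl⟩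
    exact (div_le_one hF).2 this
  · intro b hb
    by_contra hlt
    push Not at hlt
    have hb' : ∀ x, p x ≤ b * F := fun x => by
      have : p x / F ≤ b := hb ⟨x, rfl⟩
      exact (div_le_iff₀ hF).1 this
    have := hl.2 (show b * F ∈ upperBounds (range p) by rintro _ ⟨x, rfl⟩; exact hb' x)
    nlinarith

/-- Busemann's inequality for the radial integrals of a log-concave function on the plane. -/
theorem busemann_radial {E : ℝ × ℝ → ℝ} (hE : Measurable E) (E0 : ∀ x, 0 ≤ E x)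
    (logc : ∀ (x y : ℝ × ℝ) (μ : ℝ), 0 < μ → μ < 1 →
      E x ^ (1 - μ) * E y ^ μ ≤ E ((1 - μ) • x + μ • y))
    {w1 w2 : ℝ × ℝ} (b1 : BddAbove (range (phi E w1))) (b2 : BddAbove (range (phi E w2)))
    (f1 : radial E w1 ≠ ⊤) (f2 : radial E w2 ≠ ⊤) :
    radial E w1 * radial E w2 ≤ radial E (w1 + w2) * (radial E w1 + radial E w2) := by
  set φ1 := phi E w1 with hφ1
  set φ2 := phi E w2 with hφ2
  set θ := phi E (w1 + w2) with hθ
  have m1 : Measurable φ1 := phi_meas hE w1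
  have m2 : Measurable φ2 := phi_meas hE w2
  have m3 : Measurable θ := phi_meas hE (w1 + w2)
  have n1 : ∀ u, 0 ≤ φ1 u := phi_nonneg E0 w1
  have n2 : ∀ u, 0 ≤ φ2 u := phi_nonneg E0 w2
  have n3 : ∀ u, 0 ≤ θ u := phi_nonneg E0 (w1 + w2)
  set F1 := sSup (range φ1) with hF1
  set F2 := sSup (range φ2) with hF2
  have l1 : IsLUB (range φ1) F1 := isLUB_csSup (range_nonempty φ1) b1
  have l2 : IsLUB (range φ2) F2 := isLUB_csSup (range_nonempty φ2) b2
  have F10 : 0 ≤ F1 := le_trans (n1 0) (l1.1 ⟨0, rfl⟩)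
  have F20 : 0 ≤ F2 := le_trans (n2 0) (l2.1 ⟨0, rfl⟩)
  have R1 : ∫⁻ u, ENNReal.ofReal (φ1 u) = radial E w1 := lint_phi E w1
  have R2 : ∫⁻ u, ENNReal.ofReal (φ2 u) = radial E w2 := lint_phi E w2
  have R3 : ∫⁻ u, ENNReal.ofReal (θ u) = radial E (w1 + w2) := lint_phi E (w1 + w2)
  rcases F10.eq_or_lt with hz | F1p
  · have : ∀ x, φ1 x = 0 := fun x => le_antisymm (by rw [hz]; exact l1.1 ⟨x, rfl⟩) (n1 x)
    have : radial E w1 = 0 := by
      rw [← R1]
      simp [this]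
    simp [this]
  rcases F20.eq_or_lt with hz | F2p
  · have : ∀ x, φ2 x = 0 := fun x => le_antisymm (by rw [hz]; exact l2.1 ⟨x, rfl⟩) (n2 x)
    have : radial E w2 = 0 := by
      rw [← R2]
      simp [this]
    simp [this]
  set X := (Real.sqrt F1)⁻¹ with hX
  set Y := (Real.sqrt F2)⁻¹ with hY
  have hXp : 0 < X := inv_pos.2 (Real.sqrt_pos.2 F1p)
  have hYp : 0 < Y := inv_pos.2 (Real.sqrt_pos.2 F2p)
  have hX2 : F1⁻¹ = X ^ 2 := by
    rw [hX, inv_pow, Real.sq_sqrt F1p.le]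
  have hY2 : F2⁻¹ = Y ^ 2 := by
    rw [hY, inv_pow, Real.sq_sqrt F2p.le]
  set w0 := ((X + Y) ^ 2)⁻¹ with hw0
  have w0p : 0 < w0 := by positivity
  have main : ∀ u v, min (φ1 u / F1) (φ2 v / F2) ≤ θ (1 * u + 1 * v) / w0 := by
    intro u v
    have hthn : 0 ≤ θ (1 * u + 1 * v) / w0 := div_nonneg (n3 _) w0p.le
    by_cases hu : 0 < u
    swap
    · have : φ1 u = 0 := by simp [hφ1, phi, hu]
      simp only [this, zero_div]
      exact le_trans (min_le_left _ _) hthn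
    by_cases hv : 0 < v
    swap
    · have : φ2 v = 0 := by simp [hφ2, phi, hv]
      simp only [this, zero_div]
      exact le_trans (min_le_right _ _) hthn
    set τ := min (φ1 u / F1) (φ2 v / F2) with hτ
    have τ0 : 0 ≤ τ := le_min (div_nonneg (n1 u) F1p.le) (div_nonneg (n2 v) F2p.le)
    rcases τ0.eq_or_lt with hτz | τp
    · rw [← hτz]
      exact hthn
    have huv : 0 < u + v := add_pos hu hv
    set μ := v / (u + v) with hμ
    have μ0 : 0 < μ := div_pos hv huv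
    have μ1 : μ < 1 := by
      rw [hμ, div_lt_one huv]
      linarith
    have hm1 : 1 - μ = u / (u + v) := by
      rw [hμ]
      field_simp
      ring
    have h1m : 0 < 1 - μ := by linarith
    have hcomb : (1 - μ) • (u⁻¹ • w1) + μ • (v⁻¹ • w2) = (u + v)⁻¹ • (w1 + w2) := by
      rw [hm1, hμ, smul_smul, smul_smul, smul_add]
      congr 2
      · field_simp
      · field_simp
    have lc := logc (u⁻¹ • w1) (v⁻¹ • w2) μ μ0 μ1
    rw [hcomb] at lc
    have e1 : τ * F1 * u ^ 2 ≤ E (u⁻¹ • w1) := by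
      have : τ ≤ φ1 u / F1 := min_le_left _ _
      have h2 : τ * F1 ≤ φ1 u := (le_div_iff₀ F1p).1 this
      have h3 : φ1 u = E (u⁻¹ • w1) * (u⁻¹) ^ 2 := by simp [hφ1, phi, hu]
      rw [h3] at h2
      have h4 : E (u⁻¹ • w1) * (u⁻¹) ^ 2 * u ^ 2 = E (u⁻¹ • w1) := by
        field_simp
      calc τ * F1 * u ^ 2 ≤ E (u⁻¹ • w1) * (u⁻¹) ^ 2 * u ^ 2 := by gcongr
        _ = E (u⁻¹ • w1) := h4
    have e2 : τ * F2 * v ^ 2 ≤ E (v⁻¹ • w2) := by
      have : τ ≤ φ2 v / F2 := min_le_right _ _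
      have h2 : τ * F2 ≤ φ2 v := (le_div_iff₀ F2p).1 this
      have h3 : φ2 v = E (v⁻¹ • w2) * (v⁻¹) ^ 2 := by simp [hφ2, phi, hv]
      rw [h3] at h2
      have h4 : E (v⁻¹ • w2) * (v⁻¹) ^ 2 * v ^ 2 = E (v⁻¹ • w2) := by
        field_simp
      calc τ * F2 * v ^ 2 ≤ E (v⁻¹ • w2) * (v⁻¹) ^ 2 * v ^ 2 := by gcongr
        _ = E (v⁻¹ • w2) := h4
    have e3 : (τ * F1 * u ^ 2) ^ (1 - μ) * (τ * F2 * v ^ 2) ^ μ ≤ E ((u + v)⁻¹ • (w1 + w2)) := by
      refine le_trans ?_ lc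
      exact mul_le_mul (Real.rpow_le_rpow (by positivity) e1 h1m.le)
        (Real.rpow_le_rpow (by positivity) e2 μ0.le) (by positivity) (Real.rpow_nonneg (E0 _) _)
    have hk := key_ineq F1p F2p μ0 μ1
    have hth : θ (1 * u + 1 * v) = E ((u + v)⁻¹ • (w1 + w2)) * ((u + v)⁻¹) ^ 2 := by
      simp [hθ, phi, huv]
    rw [le_div_iff₀ w0p, hth]
    have c0 : 0 < ((u + v)⁻¹) ^ 2 := by positivity
    have iden : (τ * F1 * u ^ 2) ^ (1 - μ) * (τ * F2 * v ^ 2) ^ μ * ((u + v)⁻¹) ^ 2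
        = τ * (F1 ^ (1 - μ) * F2 ^ μ * (((1 - μ) ^ 2) ^ (1 - μ) * (μ ^ 2) ^ μ)) := by
      have a1 : (1 - μ) ^ 2 = u ^ 2 * ((u + v)⁻¹) ^ 2 := by
        rw [hm1]
        field_simp
      have a2 : μ ^ 2 = v ^ 2 * ((u + v)⁻¹) ^ 2 := by
        rw [hμ]
        field_simp
      rw [a1, a2, Real.mul_rpow (by positivity) (by positivity),
        Real.mul_rpow (by positivity) (by positivity),
        Real.mul_rpow (by positivity) (by positivity),
        Real.mul_rpow (by positivity) (by positivity),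
        Real.mul_rpow (by positivity) (by positivity),
        Real.mul_rpow (by positivity) (by positivity)]
      have a3 : τ ^ (1 - μ) * τ ^ μ = τ := by
        rw [← Real.rpow_add τp]
        simp
      have a4 : (((u + v)⁻¹) ^ 2) ^ (1 - μ) * (((u + v)⁻¹) ^ 2) ^ μ = ((u + v)⁻¹) ^ 2 := by
        rw [← Real.rpow_add c0]
        simp
      calc τ ^ (1 - μ) * F1 ^ (1 - μ) * (u ^ 2) ^ (1 - μ) * (τ ^ μ * F2 ^ μ * (v ^ 2) ^ μ) * ((u + v)⁻¹) ^ 2
          = (τ ^ (1 - μ) * τ ^ μ) * (F1 ^ (1 - μ) * F2 ^ μ * ((u ^ 2) ^ (1 - μ) * (v ^ 2) ^ μ)) * ((u + v)⁻¹) ^ 2 := by ring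
        _ = τ * (F1 ^ (1 - μ) * F2 ^ μ * ((u ^ 2) ^ (1 - μ) * (v ^ 2) ^ μ)) * (((u + v)⁻¹) ^ 2) ^ (1 - μ) * (((u + v)⁻¹) ^ 2) ^ μ := by
            rw [a3, mul_assoc _ _ (((u + v)⁻¹) ^ 2), mul_assoc _ (((((u + v)⁻¹) ^ 2)) ^ (1 - μ)), a4, mul_assoc]
            ring
        _ = _ := by ring
    calc τ * w0 ≤ τ * (F1 ^ (1 - μ) * F2 ^ μ * (((1 - μ) ^ 2) ^ (1 - μ) * (μ ^ 2) ^ μ)) := by
          gcongr
      _ = (τ * F1 * u ^ 2) ^ (1 - μ) * (τ * F2 * v ^ 2) ^ μ * ((u + v)⁻¹) ^ 2 := iden.symm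
      _ ≤ E ((u + v)⁻¹ • (w1 + w2)) * ((u + v)⁻¹) ^ 2 := by gcongr
  have key := min_pl (f := fun x => φ1 x / F1) (g := fun x => φ2 x / F2) (h := fun x => θ x / w0)
    (m1.div_const F1) (m2.div_const F2) (m3.div_const w0)
    (fun x => div_nonneg (n1 x) F1p.le) (fun x => div_nonneg (n2 x) F2p.le)
    (fun x => div_nonneg (n3 x) w0p.le) (isLUB_div F1p l1) (isLUB_div F2p l2)
    one_pos one_pos main
  rw [lint_div F1p m1, lint_div F2p m2, lint_div w0p m3, R1, R2, R3, ENNReal.ofReal_one, one_mul,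
    one_mul, hX2, hY2, hw0, inv_inv] at key
  set a := radial E w1 with ha
  set b := radial E w2 with hb
  set c := radial E (w1 + w2) with hc
  -- Cauchy-Schwarz
  set ra := a.toReal with hra
  set rb := b.toReal with hrb
  have hane : ENNReal.ofReal ra = a := ENNReal.ofReal_toReal f1
  have hbne : ENNReal.ofReal rb = b := ENNReal.ofReal_toReal f2
  have a0 : 0 ≤ ra := ENNReal.toReal_nonneg
  have b0 : 0 ≤ rb := ENNReal.toReal_nonneg
  have cs : ENNReal.ofReal ((X + Y) ^ 2) * (a * b)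
      ≤ (ENNReal.ofReal (X ^ 2) * a + ENNReal.ofReal (Y ^ 2) * b) * (a + b) := by
    rw [← hane, ← hbne]
    rw [← ENNReal.ofReal_mul a0, ← ENNReal.ofReal_mul (by positivity),
      ← ENNReal.ofReal_mul (by positivity), ← ENNReal.ofReal_mul (by positivity),
      ← ENNReal.ofReal_add (by positivity) (by positivity),
      ← ENNReal.ofReal_add a0 b0, ← ENNReal.ofReal_mul (by positivity)]
    apply ENNReal.ofReal_le_ofReal
    nlinarith [sq_nonneg (X * ra - Y * rb)]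
  have hne0 : ENNReal.ofReal ((X + Y) ^ 2) ≠ 0 := by
    simp only [ne_eq, ENNReal.ofReal_eq_zero, not_le]
    positivity
  have hnet : ENNReal.ofReal ((X + Y) ^ 2) ≠ ⊤ := ENNReal.ofReal_ne_top
  refine (ENNReal.mul_le_mul_iff_right hne0 hnet).1 ?_
  calc ENNReal.ofReal ((X + Y) ^ 2) * (a * b)
      ≤ (ENNReal.ofReal (X ^ 2) * a + ENNReal.ofReal (Y ^ 2) * b) * (a + b) := cs
    _ ≤ (ENNReal.ofReal ((X + Y) ^ 2) * c) * (a + b) := by gcongr
    _ = ENNReal.ofReal ((X + Y) ^ 2) * (c * (a + b)) := by ring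

end Vale.Agent.Lib.P227
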