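import Vale.Agent.Lib.P227.Defs

open MeasureTheory Set

namespace Vale.Agent.Lib.P227

set_option linter.unusedSectionVars false

variable {n : ℕ} {ι : Type*} [Fintype ι]

lemma eq_zero_of_span {a : ι → EuclideanSpace ℝ (Fin n)}
    (hspan : Submodule.span ℝ (range a) = ⊤) {x : EuclideanSpace ℝ (Fin n)}
    (h : ∀ i, inner ℝ (a i) x = (0 : ℝ)) : x = 0 := by
  have key : ∀ y ∈ Submodule.span ℝ (range a), inner ℝ y x = (0 : ℝ) := by
    intro y hy
    induction hy using Submodule.span_induction with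
    | mem y hy =>
      obtain ⟨i, rfl⟩ := hy
      exact h i
    | zero => simp
    | add y₁ y₂ _ _ h1 h2 => rw [inner_add_left, h1, h2, add_zero]
    | smul c y _ h1 => rw [real_inner_smul_left, h1, mul_zero]
  have hx : x ∈ Submodule.span ℝ (range a) := by rw [hspan]; trivial
  exact inner_self_eq_zero.mp (key x hx)

/-- The linear map `x ↦ (⟪a i, x⟫ / z i)_i`. -/
noncomputable def slabMap (a : ι → EuclideanSpace ℝ (Fin n)) (z : ι → ℝ) :
    EuclideanSpace ℝ (Fin n) →ₗ[ℝ] (ι → ℝ) :=
  LinearMap.pi fun i => (z i)⁻¹ • (innerₛₗ ℝ (a i))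

lemma slabMap_apply (a : ι → EuclideanSpace ℝ (Fin n)) (z : ι → ℝ)
    (x : EuclideanSpace ℝ (Fin n)) (i : ι) :
    slabMap a z x i = (z i)⁻¹ * inner ℝ (a i) x := by
  simp [slabMap]

lemma mem_slab_of_norm_le {a : ι → EuclideanSpace ℝ (Fin n)} {z : ι → ℝ} (hz : ∀ i, 0 < z i)
    {x : EuclideanSpace ℝ (Fin n)} (h : ‖slabMap a z x‖ ≤ 1) : x ∈ slabPolytope a z := by
  intro i
  have := (norm_le_pi_norm (slabMap a z x) i).trans h
  rw [slabMap_apply, Real.norm_eq_abs, abs_mul, abs_inv, abs_of_pos (hz i)] at this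
  rw [inv_mul_le_iff₀ (hz i)] at this
  linarith

/-- Hahn-Banach dual certificate for a functional bounded on a slab polytope. -/
lemma dual_cert {a : ι → EuclideanSpace ℝ (Fin n)}
    (hspan : Submodule.span ℝ (range a) = ⊤) {z : ι → ℝ} (hz : ∀ i, 0 < z i)
    (u : EuclideanSpace ℝ (Fin n)) {H : ℝ} (hH : ∀ x ∈ slabPolytope a z, inner ℝ x u ≤ H) :
    ∃ c : ι → ℝ, u = ∑ i, c i • a i ∧ ∑ i, |c i| * z i ≤ H := by
  classical
  set T := slabMap a z with hT
  have hinj : Function.Injective T := by
    rw [← LinearMap.ker_eq_bot, LinearMap.ker_eq_bot']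
    intro x hx
    apply eq_zero_of_span hspan
    intro i
    have := congrFun hx i
    rw [hT, slabMap_apply] at this
    simp only [Pi.zero_apply, mul_eq_zero, inv_eq_zero] at this
    rcases this with h | h
    · exact absurd h (hz i).ne'
    · exact h
  have hH0 : 0 ≤ H := by
    have h0 : (0 : EuclideanSpace ℝ (Fin n)) ∈ slabPolytope a z := by
      intro i
      simpa using (hz i).le
    simpa using hH 0 h0
  -- the bound on the range
  have bound : ∀ x, inner ℝ x u ≤ H * ‖T x‖ := by
    intro x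
    by_cases hx : T x = 0
    · have : x = 0 := by
        apply hinj
        rw [hx, map_zero]
      simp [this]
    · have hr : 0 < ‖T x‖ := norm_pos_iff.mpr hx
      have hmem : (‖T x‖)⁻¹ • x ∈ slabPolytope a z := by
        apply mem_slab_of_norm_le hz
        rw [map_smul, norm_smul, norm_inv, norm_norm]
        exact (inv_mul_cancel₀ hr.ne').le
      have := hH _ hmem
      rw [real_inner_smul_left, inv_mul_le_iff₀ hr] at this
      linarith
  -- the functional on the range
  let f₀ : LinearMap.range T →ₗ[ℝ] ℝ :=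
    (innerₛₗ ℝ u) ∘ₗ (LinearEquiv.ofInjective T hinj).symm.toLinearMap
  have hf₀ : ∀ x, f₀ ⟨T x, LinearMap.mem_range_self T x⟩ = inner ℝ u x := by
    intro x
    have : (LinearEquiv.ofInjective T hinj).symm ⟨T x, LinearMap.mem_range_self T x⟩ = x := by
      apply (LinearEquiv.ofInjective T hinj).injective
      rw [LinearEquiv.apply_symm_apply]
      rfl
    simp only [f₀, LinearMap.comp_apply, LinearEquiv.coe_coe, this]
    rfl
  have hbound : ∀ y : LinearMap.range T, ‖f₀ y‖ ≤ H * ‖y‖ := by
    rintro ⟨y, x, rfl⟩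
    rw [hf₀, Real.norm_eq_abs, abs_le]
    constructor
    · have := bound (-x)
      rw [map_neg, norm_neg, inner_neg_left, real_inner_comm] at this
      have h2 : ‖(⟨T x, LinearMap.mem_range_self T x⟩ : LinearMap.range T)‖ = ‖T x‖ := rfl
      rw [h2]
      linarith
    · have := bound x
      rw [real_inner_comm] at this
      exact this
  let f : StrongDual ℝ (LinearMap.range T) := LinearMap.mkContinuous f₀ H hbound
  obtain ⟨g, hg, hgn⟩ := exists_extension_norm_eq (LinearMap.range T) f
  have hgn' : ‖g‖ ≤ H := by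
    rw [hgn]
    exact LinearMap.mkContinuous_norm_le f₀ hH0 hbound
  have hgT : ∀ x, g (T x) = inner ℝ u x := by
    intro x
    have := hg ⟨T x, LinearMap.mem_range_self T x⟩
    simpa [f, LinearMap.mkContinuous_apply, hf₀] using this
  let e : ι → (ι → ℝ) := fun i j => if i = j then 1 else 0
  have hexp : ∀ y : ι → ℝ, g y = ∑ i, y i * g (e i) := by
    intro y
    have := LinearMap.pi_apply_eq_sum_univ (g : (ι → ℝ) →ₗ[ℝ] ℝ) y
    simpa [e, smul_eq_mul] using this
  refine ⟨fun i => g (e i) / z i, ?_, ?_⟩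
  · apply ext_inner_right ℝ
    intro x
    rw [← hgT, hexp, sum_inner]
    apply Finset.sum_congr rfl
    intro i _
    rw [hT, slabMap_apply, real_inner_smul_left]
    have := (hz i).ne'
    field_simp
  · -- the sign vector
    let σ : ι → ℝ := fun i => if 0 ≤ g (e i) then 1 else -1
    have hσ : ‖σ‖ ≤ 1 := by
      rw [pi_norm_le_iff_of_nonneg zero_le_one]
      intro i
      simp only [σ]
      split_ifs <;> simp
    have h1 : ∑ i, |g (e i) / z i| * z i = g σ := by
      rw [hexp]
      apply Finset.sum_congr rfl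
      intro i _
      rw [abs_div, abs_of_pos (hz i), div_mul_cancel₀ _ (hz i).ne']
      simp only [σ]
      split_ifs with h
      · rw [abs_of_nonneg h, one_mul]
      · rw [abs_of_neg (not_le.mp h)]
        ring
    rw [h1]
    calc g σ ≤ ‖g σ‖ := Real.le_norm_self _
      _ ≤ ‖g‖ * ‖σ‖ := g.le_opNorm σ
      _ ≤ ‖g‖ * 1 := by gcongr
      _ ≤ H := by linarith

end Vale.Agent.Lib.P227
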