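import Vale.Agent.Lib.P227.Plane6

open MeasureTheory Set Filter Topology
open scoped Pointwise ENNReal

namespace Vale.Agent.Lib.P227

noncomputable section

set_option linter.unusedSectionVars false

variable {n : ℕ}

/-- Appending a last coordinate. -/
def glue (x : EuclideanSpace ℝ (Fin n)) (τ : ℝ) : EuclideanSpace ℝ (Fin (n + 1)) :=
  WithLp.toLp 2 (Fin.snoc (α := fun _ => ℝ) (WithLp.ofLp x) τ)

/-- Dropping the last coordinate. -/
def cut (w : EuclideanSpace ℝ (Fin (n + 1))) : EuclideanSpace ℝ (Fin n) :=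
  WithLp.toLp 2 (Fin.init (α := fun _ => ℝ) (WithLp.ofLp w))

@[simp] lemma glue_castSucc (x : EuclideanSpace ℝ (Fin n)) (τ : ℝ) (i : Fin n) :
    glue x τ i.castSucc = x i := by
  simp [glue]

@[simp] lemma glue_last (x : EuclideanSpace ℝ (Fin n)) (τ : ℝ) :
    glue x τ (Fin.last n) = τ := by
  simp [glue]

@[simp] lemma cut_apply (w : EuclideanSpace ℝ (Fin (n + 1))) (i : Fin n) :
    cut w i = w i.castSucc := by
  simp [cut, Fin.init]

lemma glue_cut (w : EuclideanSpace ℝ (Fin (n + 1))) : glue (cut w) (w (Fin.last n)) = w := by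
  ext i
  refine Fin.lastCases ?_ (fun j => ?_) i
  · simp
  · simp

lemma inner_glue (x u : EuclideanSpace ℝ (Fin n)) (τ v : ℝ) :
    inner ℝ (glue x τ) (glue u v) = inner ℝ x u + τ * v := by
  simp only [PiLp.inner_apply, Fin.sum_univ_castSucc]
  simp only [glue_castSucc, glue_last]
  simp
  ring

lemma neg_glue (x : EuclideanSpace ℝ (Fin n)) (τ : ℝ) : -glue x τ = glue (-x) (-τ) := by
  ext i
  refine Fin.lastCases ?_ (fun j => ?_) i
  · simp
  · simp

lemma flip_glue (x : EuclideanSpace ℝ (Fin n)) (τ : ℝ) :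
    flipCoord (Fin.last n) (glue x τ) = glue x (-τ) := by
  ext i
  refine Fin.lastCases ?_ (fun j => ?_) i
  · simp [flipCoord]
  · simp [flipCoord]

lemma flip_castSucc (i : Fin n) (x : EuclideanSpace ℝ (Fin n)) (τ : ℝ) :
    flipCoord i.castSucc (glue x τ) = glue (flipCoord i x) τ := by
  ext k
  refine Fin.lastCases ?_ (fun j => ?_) k
  · have : Fin.last n ≠ i.castSucc := (Fin.castSucc_ne_last i).symm
    simp [flipCoord, Function.update_of_ne this]
  · by_cases h : j = i
    · subst h
      simp [flipCoord]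
    · have h2 : j.castSucc ≠ i.castSucc := fun h' => h (Fin.castSucc_injective _ h')
      simp [flipCoord, Function.update_of_ne h2, Function.update_of_ne h]

lemma glue_continuous (τ : ℝ) : Continuous fun x : EuclideanSpace ℝ (Fin n) => glue x τ := by
  unfold glue
  apply (PiLp.continuous_toLp 2 _).comp
  apply continuous_pi
  intro i
  refine Fin.lastCases ?_ (fun j => ?_) i
  · simpa using continuous_const
  · simp only [Fin.snoc_castSucc]
    exact (PiLp.continuous_ofLp 2 _ |>.comp continuous_id) |> (continuous_apply j).comp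

lemma cut_continuous : Continuous (cut : EuclideanSpace ℝ (Fin (n + 1)) → EuclideanSpace ℝ (Fin n)) := by
  unfold cut
  apply (PiLp.continuous_toLp 2 _).comp
  apply continuous_pi
  intro i
  simp only [Fin.init]
  exact (PiLp.continuous_ofLp 2 _ |>.comp continuous_id) |> (continuous_apply i.castSucc).comp

/-- The section of a set in the last coordinate. -/
def slice (K : Set (EuclideanSpace ℝ (Fin (n + 1)))) (τ : ℝ) : Set (EuclideanSpace ℝ (Fin n)) :=
  {x | glue x τ ∈ K}

lemma slice_compact {K : Set (EuclideanSpace ℝ (Fin (n + 1)))} (hK : IsCompact K) (τ : ℝ) :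
    IsCompact (slice K τ) := by
  have : slice K τ = cut '' (K ∩ {w | w (Fin.last n) = τ}) := by
    ext x
    constructor
    · intro hx
      refine ⟨glue x τ, ⟨hx, by simp⟩, ?_⟩
      ext i
      simp
    · rintro ⟨w, ⟨hw, hτ⟩, rfl⟩
      have hτ' : w (Fin.last n) = τ := hτ
      change glue (cut w) τ ∈ K
      rw [← hτ', glue_cut]
      exact hw
  rw [this]
  apply IsCompact.image _ cut_continuous
  apply hK.inter_right
  apply isClosed_eq _ continuous_const
  exact (PiLp.continuous_apply 2 _ (Fin.last n))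

/-- Fubini along the last coordinate, with measurability of the sections. -/
lemma vol_slice {X : Set (EuclideanSpace ℝ (Fin (n + 1)))} (hX : MeasurableSet X) :
    volume X = ∫⁻ τ : ℝ, volume (slice X τ) := by
  have mp1 := PiLp.volume_preserving_toLp (Fin (n + 1))
  have mp2 := (volume_preserving_piFinSuccAbove (fun _ : Fin (n + 1) => ℝ) (Fin.last n)).symm
  have mp := mp1.comp mp2
  have hpre := mp.measure_preimage hX.nullMeasurableSet
  rw [← hpre, Measure.volume_eq_prod, Measure.prod_apply (mp.measurable hX)]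
  apply lintegral_congr
  intro τ
  have mp3 := PiLp.volume_preserving_toLp (Fin n)
  have hsm : MeasurableSet (slice X τ) := by
    have hmeas : Measurable fun x : EuclideanSpace ℝ (Fin n) => glue x τ :=
      (glue_continuous τ).measurable
    exact hmeas hX
  rw [← mp3.measure_preimage hsm.nullMeasurableSet]
  congr 1
  ext y
  simp only [mem_preimage, slice, mem_ofPred_eq]
  have : (WithLp.toLp 2 ∘ ⇑(MeasurableEquiv.piFinSuccAbove (fun _ => ℝ) (Fin.last n)).symm) (τ, y)
      = glue (WithLp.toLp 2 y) τ := by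
    ext i
    refine Fin.lastCases ?_ (fun j => ?_) i
    · simp [MeasurableEquiv.piFinSuccAbove]
    · simp [MeasurableEquiv.piFinSuccAbove]
  rw [this]

lemma slice_measurable {X : Set (EuclideanSpace ℝ (Fin (n + 1)))} (hX : MeasurableSet X) :
    Measurable fun τ : ℝ => volume (slice X τ) := by
  have mp1 := PiLp.volume_preserving_toLp (Fin (n + 1))
  have mp2 := (volume_preserving_piFinSuccAbove (fun _ : Fin (n + 1) => ℝ) (Fin.last n)).symm
  have mp := mp1.comp mp2
  have h1 : Measurable fun τ : ℝ => volume (Prod.mk τ ⁻¹'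
      (WithLp.toLp 2 ∘ ⇑(MeasurableEquiv.piFinSuccAbove (fun _ => ℝ) (Fin.last n)).symm ⁻¹' X)) :=
    measurable_measure_prodMk_left (mp.measurable hX)
  convert h1 using 2 with τ
  have mp3 := PiLp.volume_preserving_toLp (Fin n)
  have hsm : MeasurableSet (slice X τ) := by
    have hmeas : Measurable fun x : EuclideanSpace ℝ (Fin n) => glue x τ :=
      (glue_continuous τ).measurable
    exact hmeas hX
  rw [← mp3.measure_preimage hsm.nullMeasurableSet]
  congr 1
  ext y
  simp only [mem_preimage, slice, mem_ofPred_eq]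
  have : (WithLp.toLp 2 ∘ ⇑(MeasurableEquiv.piFinSuccAbove (fun _ => ℝ) (Fin.last n)).symm) (τ, y)
      = glue (WithLp.toLp 2 y) τ := by
    ext i
    refine Fin.lastCases ?_ (fun j => ?_) i
    · simp [MeasurableEquiv.piFinSuccAbove]
    · simp [MeasurableEquiv.piFinSuccAbove]
  rw [this]

/-- Integration of an even function on the line in logarithmic coordinates. -/
lemma lintegral_even {φ : ℝ → ℝ≥0∞} (hφ : Measurable φ) (heven : ∀ τ, φ (-τ) = φ τ) :
    ∫⁻ τ, φ τ = 2 * ∫⁻ y, ENNReal.ofReal (Real.exp y) * φ (Real.exp y) := by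
  have h1 : ∫⁻ τ in Ioi (0 : ℝ), φ τ = ∫⁻ y, ENNReal.ofReal (Real.exp y) * φ (Real.exp y) := by
    have himg : Real.exp '' univ = Ioi 0 := by
      rw [image_univ, Real.range_exp]
    rw [← himg, lintegral_image_eq_lintegral_abs_deriv_mul MeasurableSet.univ
      (fun x _ => (Real.hasDerivAt_exp x).hasDerivWithinAt) Real.exp_injective.injOn]
    simp [abs_of_pos (Real.exp_pos _)]
  have h2 : ∫⁻ τ in Iio (0 : ℝ), φ τ = ∫⁻ τ in Ioi (0 : ℝ), φ τ := by
    have mpneg : MeasurePreserving (Neg.neg : ℝ → ℝ) volume volume :=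
      Measure.measurePreserving_neg volume
    have h3 := mpneg.setLIntegral_comp_preimage (s := Ioi (0 : ℝ)) measurableSet_Ioi hφ
    have h4 : (Neg.neg : ℝ → ℝ) ⁻¹' Ioi (0 : ℝ) = Iio 0 := by
      ext x
      simp
    rw [h4] at h3
    rw [← h3]
    apply lintegral_congr
    intro a
    rw [heven]
  have h5 : ∫⁻ τ, φ τ = (∫⁻ τ in Iio (0 : ℝ), φ τ) + (∫⁻ τ in Ioi (0 : ℝ), φ τ) := by
    have h6 : (univ : Set ℝ) =ᵐ[volume] (Iio (0 : ℝ) ∪ Ioi (0 : ℝ) : Set ℝ) := by
      rw [Iio_union_Ioi]
      filter_upwards [compl_mem_ae_iff.mpr (measure_singleton (0 : ℝ))] with x hx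
      exact propext ⟨fun _ => hx, fun _ => mem_univ x⟩
    rw [← setLIntegral_univ, setLIntegral_congr h6,
      lintegral_union measurableSet_Ioi (by
        rw [Set.disjoint_left]
        intro x hx hy
        exact lt_asymm (mem_Iio.mp hx) (mem_Ioi.mp hy))]
  rw [h5, h2, h1, two_mul]

end

end Vale.Agent.Lib.P227
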