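import Vale.Agent.Lib.P227.Flip1

open MeasureTheory Set Filter Topology
open scoped Pointwise ENNReal

namespace Vale.Agent.Lib.P227

noncomputable section

set_option linter.unusedSectionVars false

variable {n : ℕ}

/-- Two-term Hölder inequality. -/
lemma holder2 {a b c d t : ℝ} (ha : 0 ≤ a) (hb : 0 ≤ b) (hc : 0 ≤ c) (hd : 0 ≤ d)
    (t0 : 0 < t) (t1 : t < 1) :
    a ^ (1 - t) * c ^ t + b ^ (1 - t) * d ^ t ≤ (a + b) ^ (1 - t) * (c + d) ^ t := by
  have h1t : 0 < 1 - t := by linarith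
  rcases (add_nonneg ha hb).eq_or_lt with hab | hab
  · have ha0 : a = 0 := by linarith
    have hb0 : b = 0 := by linarith
    simp [ha0, hb0, Real.zero_rpow h1t.ne']
  rcases (add_nonneg hc hd).eq_or_lt with hcd | hcd
  · have hc0 : c = 0 := by linarith
    have hd0 : d = 0 := by linarith
    simp [hc0, hd0, Real.zero_rpow t0.ne']
  set A := a + b with hA
  set C := c + d with hC
  have key : ∀ x y : ℝ, 0 ≤ x → 0 ≤ y → x ^ (1 - t) * y ^ t
      ≤ A ^ (1 - t) * C ^ t * ((1 - t) * (x / A) + t * (y / C)) := by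
    intro x y hx hy
    have hx' : 0 ≤ x / A := div_nonneg hx hab.le
    have hy' : 0 ≤ y / C := div_nonneg hy hcd.le
    have amgm := Real.geom_mean_le_arith_mean2_weighted h1t.le t0.le hx' hy' (by ring)
    have hx2 : x ^ (1 - t) = A ^ (1 - t) * (x / A) ^ (1 - t) := by
      rw [← Real.mul_rpow hab.le hx', mul_div_cancel₀ _ hab.ne']
    have hy2 : y ^ t = C ^ t * (y / C) ^ t := by
      rw [← Real.mul_rpow hcd.le hy', mul_div_cancel₀ _ hcd.ne']
    have hAC : 0 ≤ A ^ (1 - t) * C ^ t := by positivity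
    calc x ^ (1 - t) * y ^ t = A ^ (1 - t) * C ^ t * ((x / A) ^ (1 - t) * (y / C) ^ t) := by
          rw [hx2, hy2]; ring
      _ ≤ _ := mul_le_mul_of_nonneg_left amgm hAC
  have h1 := key a c ha hc
  have h2 := key b d hb hd
  have hAC : 0 ≤ A ^ (1 - t) * C ^ t := by positivity
  have h3 : (1 - t) * (a / A) + t * (c / C) + ((1 - t) * (b / A) + t * (d / C)) = 1 := by
    have e1 : a / A + b / A = 1 := by rw [← add_div, div_self hab.ne']
    have e2 : c / C + d / C = 1 := by rw [← add_div, div_self hcd.ne']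
    calc _ = (1 - t) * (a / A + b / A) + t * (c / C + d / C) := by ring
      _ = 1 := by rw [e1, e2]; ring
  calc a ^ (1 - t) * c ^ t + b ^ (1 - t) * d ^ t
      ≤ A ^ (1 - t) * C ^ t * ((1 - t) * (a / A) + t * (c / C))
        + A ^ (1 - t) * C ^ t * ((1 - t) * (b / A) + t * (d / C)) := add_le_add h1 h2
    _ = A ^ (1 - t) * C ^ t * ((1 - t) * (a / A) + t * (c / C) + ((1 - t) * (b / A) + t * (d / C))) := by
        ring
    _ = _ := by rw [h3, mul_one]

/-- Sections of a flip-invariant symmetric set are symmetric. -/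
lemma slice_symm {K : Set (EuclideanSpace ℝ (Fin (n + 1)))} (hs : ∀ x ∈ K, -x ∈ K)
    (hf : ∀ x ∈ K, flipCoord (Fin.last n) x ∈ K) (τ : ℝ) : ∀ x ∈ slice K τ, -x ∈ slice K τ := by
  intro x hx
  have h1 := hf _ (hs _ hx)
  rw [neg_glue, flip_glue, neg_neg] at h1
  exact h1

lemma slice_symBody {K : Set (EuclideanSpace ℝ (Fin (n + 1)))} (hK : IsSymBody K)
    (hf : ∀ x ∈ K, flipCoord (Fin.last n) x ∈ K) {τ : ℝ} (hpos : volume (slice K τ) ≠ 0) :
    IsSymBody (slice K τ) :=
  ⟨slice_compact hK.1 τ, slice_symm hK.2.1 hf τ, pos_iff_ne_zero.mpr hpos⟩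

/-- Extension of the bound on the sphere to all vectors. -/
lemma inner_le_of_mem_logCombination {A B : Set (EuclideanSpace ℝ (Fin n))} (hA : IsSymBody A)
    (hB : IsSymBody B) {t : ℝ} (t0 : 0 < t) (t1 : t < 1)
    {x : EuclideanSpace ℝ (Fin n)} (hx : x ∈ logCombination A B t) (u : EuclideanSpace ℝ (Fin n)) :
    inner ℝ x u ≤ supportFn A u ^ (1 - t) * supportFn B u ^ t := by
  have h1t : 0 < 1 - t := by linarith
  by_cases hu : u = 0
  · subst hu
    rw [supportFn_zero hA.nonempty.some_mem]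
    simp [Real.zero_rpow h1t.ne']
  have hr : 0 < ‖u‖ := norm_pos_iff.mpr hu
  set û := ‖u‖⁻¹ • u with hû
  have hû1 : û ∈ Metric.sphere (0 : EuclideanSpace ℝ (Fin n)) 1 := by
    rw [mem_sphere_zero_iff_norm, hû, norm_smul, norm_inv, norm_norm, inv_mul_cancel₀ hr.ne']
  have hu2 : u = ‖u‖ • û := by
    rw [hû, smul_smul, mul_inv_cancel₀ hr.ne', one_smul]
  simp only [logCombination, wulff, mem_iInter] at hx
  have h2 : inner ℝ x û ≤ supportFn A û ^ (1 - t) * supportFn B û ^ t := hx û hû1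
  have h3 : ∀ C : Set (EuclideanSpace ℝ (Fin n)), IsSymBody C →
      supportFn C u = ‖u‖ * supportFn C û := by
    intro C hC
    conv_lhs => rw [hu2]
    rw [supportFn_smul hC.1 hC.nonempty hC.2.1, abs_of_pos hr]
  have hAp : 0 ≤ supportFn A û := (supportFn_pos_of_volume hA.1 hA.2.1 hA.2.2
    (by
      intro h
      rw [h, mem_sphere_zero_iff_norm, norm_zero] at hû1
      exact zero_ne_one hû1)).le
  have hBp : 0 ≤ supportFn B û := (supportFn_pos_of_volume hB.1 hB.2.1 hB.2.2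
    (by
      intro h
      rw [h, mem_sphere_zero_iff_norm, norm_zero] at hû1
      exact zero_ne_one hû1)).le
  rw [h3 A hA, h3 B hB, Real.mul_rpow hr.le hAp, Real.mul_rpow hr.le hBp]
  have h4 : ‖u‖ ^ (1 - t) * ‖u‖ ^ t = ‖u‖ := by
    rw [← Real.rpow_add hr]
    simp
  calc inner ℝ x u = ‖u‖ * inner ℝ x û := by
        conv_lhs => rw [hu2]
        rw [real_inner_smul_right]
    _ ≤ ‖u‖ * (supportFn A û ^ (1 - t) * supportFn B û ^ t) := by gcongr
    _ = (‖u‖ ^ (1 - t) * ‖u‖ ^ t) * (supportFn A û ^ (1 - t) * supportFn B û ^ t) := by rw [h4]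
    _ = _ := by ring

/-- Lower bound for the support function by the sections. -/
lemma supportFn_ge_slice {K : Set (EuclideanSpace ℝ (Fin (n + 1)))} (hK : IsCompact K)
    (hf : ∀ x ∈ K, flipCoord (Fin.last n) x ∈ K) {τ : ℝ} (hτ : 0 ≤ τ)
    (hne : (slice K τ).Nonempty) (u : EuclideanSpace ℝ (Fin n)) (v : ℝ) :
    supportFn (slice K τ) u + τ * |v| ≤ supportFn K (glue u v) := by
  obtain ⟨y, hy, hmax⟩ := exists_max (slice_compact hK τ) hne u
  rw [supportFn_eq_of_max hy hmax]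
  rcases le_total 0 v with hv | hv
  · have h1 := le_supportFn hK hy (glue u v)
    rw [inner_glue] at h1
    rw [abs_of_nonneg hv]
    exact h1
  · have h1 := le_supportFn hK (hf _ hy) (glue u v)
    rw [flip_glue, inner_glue] at h1
    rw [abs_of_nonpos hv]
    linarith

/-- The key inclusion of sections. -/
lemma logCombination_slice {K L : Set (EuclideanSpace ℝ (Fin (n + 1)))} (hK : IsCompact K)
    (hL : IsCompact L) (hKf : ∀ x ∈ K, flipCoord (Fin.last n) x ∈ K)
    (hLf : ∀ x ∈ L, flipCoord (Fin.last n) x ∈ L) {τ₁ τ₂ t : ℝ} (h1 : 0 < τ₁) (h2 : 0 < τ₂)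
    (t0 : 0 < t) (t1 : t < 1) (hA : IsSymBody (slice K τ₁)) (hB : IsSymBody (slice L τ₂)) :
    logCombination (slice K τ₁) (slice L τ₂) t
      ⊆ slice (logCombination K L t) (τ₁ ^ (1 - t) * τ₂ ^ t) := by
  intro x hx
  simp only [slice, logCombination, wulff, mem_ofPred_eq, mem_iInter]
  intro w _
  have hw : w = glue (cut w) (w (Fin.last n)) := (glue_cut w).symm
  set u := cut w with hu
  set v := w (Fin.last n) with hv
  rw [hw, inner_glue]
  have hx1 := inner_le_of_mem_logCombination hA hB t0 t1 hx u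
  set a := supportFn (slice K τ₁) u with ha
  set c := supportFn (slice L τ₂) u with hc
  have ha0 : 0 ≤ a := by
    rcases eq_or_ne u 0 with hu0 | hu0
    · rw [ha, hu0, supportFn_zero hA.nonempty.some_mem]
    · exact (supportFn_pos_of_volume hA.1 hA.2.1 hA.2.2 hu0).le
  have hc0 : 0 ≤ c := by
    rcases eq_or_ne u 0 with hu0 | hu0
    · rw [hc, hu0, supportFn_zero hB.nonempty.some_mem]
    · exact (supportFn_pos_of_volume hB.1 hB.2.1 hB.2.2 hu0).le
  have hK1 := supportFn_ge_slice hK hKf h1.le hA.nonempty u v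
  have hL1 := supportFn_ge_slice hL hLf h2.le hB.nonempty u v
  have h1t : 0 < 1 - t := by linarith
  have hb : 0 ≤ τ₁ * |v| := by positivity
  have hd : 0 ≤ τ₂ * |v| := by positivity
  have hhol := holder2 ha0 hb hc0 hd t0 t1
  have hprod : (τ₁ * |v|) ^ (1 - t) * (τ₂ * |v|) ^ t = τ₁ ^ (1 - t) * τ₂ ^ t * |v| := by
    rw [Real.mul_rpow h1.le (abs_nonneg v), Real.mul_rpow h2.le (abs_nonneg v)]
    have : |v| ^ (1 - t) * |v| ^ t = |v| := by
      rcases (abs_nonneg v).eq_or_lt with h0 | h0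
      · rw [← h0, Real.zero_rpow h1t.ne', zero_mul]
      · rw [← Real.rpow_add h0]
        simp
    calc _ = τ₁ ^ (1 - t) * τ₂ ^ t * (|v| ^ (1 - t) * |v| ^ t) := by ring
      _ = _ := by rw [this]
  rw [hprod] at hhol
  have hτ : 0 ≤ τ₁ ^ (1 - t) * τ₂ ^ t := by positivity
  have hsv : τ₁ ^ (1 - t) * τ₂ ^ t * v ≤ τ₁ ^ (1 - t) * τ₂ ^ t * |v| :=
    mul_le_mul_of_nonneg_left (le_abs_self v) hτ
  have hmono : (a + τ₁ * |v|) ^ (1 - t) * (c + τ₂ * |v|) ^ t
      ≤ supportFn K (glue u v) ^ (1 - t) * supportFn L (glue u v) ^ t := by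
    have e1 : 0 ≤ a + τ₁ * |v| := by positivity
    have e2 : 0 ≤ c + τ₂ * |v| := by positivity
    apply mul_le_mul
    · exact Real.rpow_le_rpow e1 hK1 h1t.le
    · exact Real.rpow_le_rpow e2 hL1 t0.le
    · positivity
    · exact Real.rpow_nonneg (e1.trans hK1) _
  change inner ℝ x u + τ₁ ^ (1 - t) * τ₂ ^ t * v ≤ _
  linarith

end

end Vale.Agent.Lib.P227
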