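import Vale.Agent.Lib.P227.Flip2

open MeasureTheory Set Filter Topology
open scoped Pointwise ENNReal

namespace Vale.Agent.Lib.P227

noncomputable section

set_option linter.unusedSectionVars false

variable {n : ℕ}

lemma wulff_closed (f : EuclideanSpace ℝ (Fin n) → ℝ) : IsClosed (wulff f) := by
  unfold wulff
  apply isClosed_biInter
  intro u _
  apply isClosed_le _ continuous_const
  fun_prop

lemma flip_inner (w : EuclideanSpace ℝ (Fin (n + 1))) (x : EuclideanSpace ℝ (Fin n)) (τ : ℝ) :
    inner ℝ (glue x (-τ)) w = inner ℝ (glue x τ) (flipCoord (Fin.last n) w) := by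
  conv_lhs => rw [← glue_cut w]
  conv_rhs => rw [← glue_cut w, flip_glue]
  rw [inner_glue, inner_glue]
  ring

lemma supportFn_flip {K : Set (EuclideanSpace ℝ (Fin (n + 1)))}
    (hf : ∀ x ∈ K, flipCoord (Fin.last n) x ∈ K) (w : EuclideanSpace ℝ (Fin (n + 1))) :
    supportFn K (flipCoord (Fin.last n) w) = supportFn K w := by
  have hinv : ∀ y : EuclideanSpace ℝ (Fin (n + 1)),
      flipCoord (Fin.last n) (flipCoord (Fin.last n) y) = y := by
    intro y
    conv_lhs => rw [← glue_cut y, flip_glue, flip_glue, neg_neg]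
    exact glue_cut y
  have hin : ∀ x y : EuclideanSpace ℝ (Fin (n + 1)),
      inner ℝ x (flipCoord (Fin.last n) y) = inner ℝ (flipCoord (Fin.last n) x) y := by
    intro x y
    conv_lhs => rw [← glue_cut x, ← glue_cut y, flip_glue, inner_glue]
    conv_rhs => rw [← glue_cut x, ← glue_cut y, flip_glue, inner_glue]
    ring
  unfold supportFn
  congr 1
  ext c
  constructor
  · rintro ⟨y, hy, rfl⟩
    exact ⟨_, hf y hy, (hin y w).symm⟩
  · rintro ⟨y, hy, rfl⟩
    refine ⟨_, hf y hy, ?_⟩
    simp only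
    rw [hin, hinv]

lemma flip_sphere {w : EuclideanSpace ℝ (Fin (n + 1))}
    (hw : w ∈ Metric.sphere (0 : EuclideanSpace ℝ (Fin (n + 1))) 1) :
    flipCoord (Fin.last n) w ∈ Metric.sphere (0 : EuclideanSpace ℝ (Fin (n + 1))) 1 := by
  rw [mem_sphere_zero_iff_norm] at hw ⊢
  have h1 : inner ℝ (flipCoord (Fin.last n) w) (flipCoord (Fin.last n) w) = (inner ℝ w w : ℝ) := by
    conv_lhs => rw [← glue_cut w, flip_glue, inner_glue]
    conv_rhs => rw [← glue_cut w, inner_glue]
    ring
  rw [real_inner_self_eq_norm_sq, real_inner_self_eq_norm_sq, hw] at h1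
  have h2 : 0 ≤ ‖flipCoord (Fin.last n) w‖ := norm_nonneg _
  nlinarith

/-- The log-combination inherits the flip. -/
lemma slice_logCombination_even {K L : Set (EuclideanSpace ℝ (Fin (n + 1)))}
    (hKf : ∀ x ∈ K, flipCoord (Fin.last n) x ∈ K) (hLf : ∀ x ∈ L, flipCoord (Fin.last n) x ∈ L)
    (t τ : ℝ) : slice (logCombination K L t) (-τ) = slice (logCombination K L t) τ := by
  have key : ∀ τ : ℝ, slice (logCombination K L t) τ ⊆ slice (logCombination K L t) (-τ) := by
    intro τ x hx
    simp only [slice, logCombination, wulff, mem_ofPred_eq, mem_iInter] at hx ⊢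
    intro w hw
    rw [flip_inner]
    have := hx _ (flip_sphere hw)
    rw [supportFn_flip hKf, supportFn_flip hLf] at this
    exact this
  apply Subset.antisymm
  · have := key (-τ)
    rwa [neg_neg] at this
  · exact key τ

lemma slice_even {K : Set (EuclideanSpace ℝ (Fin (n + 1)))}
    (hKf : ∀ x ∈ K, flipCoord (Fin.last n) x ∈ K) (τ : ℝ) : slice K (-τ) = slice K τ := by
  have key : ∀ τ : ℝ, slice K τ ⊆ slice K (-τ) := by
    intro τ x hx
    have := hKf _ hx
    rwa [flip_glue] at this
  apply Subset.antisymm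
  · have := key (-τ)
    rwa [neg_neg] at this
  · exact key τ

lemma subset_logCombination_zero {K L : Set (EuclideanSpace ℝ (Fin n))} (hK : IsCompact K) :
    K ⊆ logCombination K L 0 := by
  intro x hx
  simp only [logCombination, wulff, mem_iInter]
  intro u _
  change inner ℝ x u ≤ supportFn K u ^ ((1 : ℝ) - 0) * supportFn L u ^ (0 : ℝ)
  simp only [sub_zero, Real.rpow_one, Real.rpow_zero, mul_one]
  exact le_supportFn hK hx u

lemma subset_logCombination_one {K L : Set (EuclideanSpace ℝ (Fin n))} (hL : IsCompact L) :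
    L ⊆ logCombination K L 1 := by
  intro x hx
  simp only [logCombination, wulff, mem_iInter]
  intro u _
  change inner ℝ x u ≤ supportFn K u ^ ((1 : ℝ) - 1) * supportFn L u ^ (1 : ℝ)
  simp only [sub_self, Real.rpow_one, Real.rpow_zero, one_mul]
  exact le_supportFn hL hx u

/-- **The reflection step.** -/
theorem flip_step {C : Set (EuclideanSpace ℝ (Fin n)) → Prop} (hQ : LogBMFor C) :
    LogBMFor (n := n + 1) (fun K => (∀ x ∈ K, flipCoord (Fin.last n) x ∈ K) ∧
      ∀ τ, C (slice K τ)) := by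
  intro K L hK hL hCK hCL t t0 t1
  rcases t0.eq_or_lt with rfl | t0
  · simp only [sub_zero, ENNReal.rpow_one, ENNReal.rpow_zero, mul_one]
    exact measure_mono (subset_logCombination_zero hK.1)
  rcases t1.eq_or_lt with rfl | t1
  · simp only [sub_self, ENNReal.rpow_one, ENNReal.rpow_zero, one_mul]
    exact measure_mono (subset_logCombination_one hL.1)
  have h1t : 0 < 1 - t := by linarith
  set W := logCombination K L t with hW
  have hWm : MeasurableSet W := (wulff_closed _).measurableSet
  have hKm := hK.1.measurableSet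
  have hLm := hL.1.measurableSet
  have hvolK := vol_slice hKm
  have hvolL := vol_slice hLm
  have hvolW := vol_slice hWm
  rw [lintegral_even (slice_measurable hKm) (fun τ => by rw [slice_even hCK.1])] at hvolK
  rw [lintegral_even (slice_measurable hLm) (fun τ => by rw [slice_even hCL.1])] at hvolL
  rw [lintegral_even (slice_measurable hWm)
    (fun τ => by rw [hW, slice_logCombination_even hCK.1 hCL.1])] at hvolW
  have hmeasF : ∀ {X : Set (EuclideanSpace ℝ (Fin (n + 1)))}, MeasurableSet X →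
      Measurable fun y : ℝ => ENNReal.ofReal (Real.exp y) * volume (slice X (Real.exp y)) := by
    intro X hX
    exact (ENNReal.measurable_ofReal.comp Real.measurable_exp).mul
      ((slice_measurable hX).comp Real.measurable_exp)
  have hPL := pl_one (hmeasF hKm) (hmeasF hLm) (hmeasF hWm) t0 t1 (by
    intro u v
    set τ₁ := Real.exp u with hτ₁
    set τ₂ := Real.exp v with hτ₂
    have hτ₁0 : 0 < τ₁ := Real.exp_pos u
    have hτ₂0 : 0 < τ₂ := Real.exp_pos v
    have hexp : Real.exp ((1 - t) * u + t * v) = τ₁ ^ (1 - t) * τ₂ ^ t := by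
      rw [Real.exp_add, mul_comm (1 - t), mul_comm t, Real.exp_mul, Real.exp_mul]
    rw [hexp, ENNReal.mul_rpow_of_nonneg _ _ h1t.le, ENNReal.mul_rpow_of_nonneg _ _ t0.le,
      ENNReal.ofReal_rpow_of_nonneg hτ₁0.le h1t.le, ENNReal.ofReal_rpow_of_nonneg hτ₂0.le t0.le,
      ENNReal.ofReal_mul (by positivity)]
    calc ENNReal.ofReal (τ₁ ^ (1 - t)) * volume (slice K τ₁) ^ (1 - t)
          * (ENNReal.ofReal (τ₂ ^ t) * volume (slice L τ₂) ^ t)
        = ENNReal.ofReal (τ₁ ^ (1 - t)) * ENNReal.ofReal (τ₂ ^ t)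
          * (volume (slice K τ₁) ^ (1 - t) * volume (slice L τ₂) ^ t) := by ring
      _ ≤ _ := by
        gcongr
        by_cases hA : volume (slice K τ₁) = 0
        · rw [hA, ENNReal.zero_rpow_of_pos h1t, zero_mul]
          exact zero_le
        by_cases hB : volume (slice L τ₂) = 0
        · rw [hB, ENNReal.zero_rpow_of_pos t0, mul_zero]
          exact zero_le
        have hA' := slice_symBody hK hCK.1 hA
        have hB' := slice_symBody hL hCL.1 hB
        have h3 := hQ _ _ hA' hB' (hCK.2 τ₁) (hCL.2 τ₂) t t0.le t1.le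
        exact h3.trans (measure_mono (logCombination_slice hK.1 hL.1 hCK.1 hCL.1 hτ₁0 hτ₂0 t0 t1 hA' hB')))
  rw [hvolK, hvolL, hvolW, ENNReal.mul_rpow_of_nonneg _ _ h1t.le,
    ENNReal.mul_rpow_of_nonneg _ _ t0.le]
  have h22 : (2 : ℝ≥0∞) ^ (1 - t) * (2 : ℝ≥0∞) ^ t = 2 := by
    rw [← ENNReal.rpow_add _ _ (by norm_num) (by norm_num)]
    simp
  generalize (∫⁻ y, ENNReal.ofReal (Real.exp y) * volume (slice K (Real.exp y))) = A at hPL ⊢
  generalize (∫⁻ y, ENNReal.ofReal (Real.exp y) * volume (slice L (Real.exp y))) = B at hPL ⊢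
  generalize (∫⁻ y, ENNReal.ofReal (Real.exp y) * volume (slice W (Real.exp y))) = D at hPL ⊢
  calc (2 : ℝ≥0∞) ^ (1 - t) * A ^ (1 - t) * ((2 : ℝ≥0∞) ^ t * B ^ t)
      = ((2 : ℝ≥0∞) ^ (1 - t) * (2 : ℝ≥0∞) ^ t) * (A ^ (1 - t) * B ^ t) := by ring
    _ = 2 * (A ^ (1 - t) * B ^ t) := by rw [h22]
    _ ≤ 2 * D := by gcongr

lemma LogBMFor.mono {C C' : Set (EuclideanSpace ℝ (Fin n)) → Prop} (h : LogBMFor C)
    (hC : ∀ K, C' K → C K) : LogBMFor C' :=
  fun K L hK hL hCK hCL => h K L hK hL (hC K hCK) (hC L hCL)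

/-- **Reduction**: logarithmic Brunn-Minkowski in dimension `d` implies it in dimension `d + r`
for pairs invariant under the reflections of the last `r` coordinates. -/
theorem flips_logBM (d : ℕ) (hbase : LogBMFor (n := d) fun _ => True) (r : ℕ) :
    LogBMFor (n := d + r) (FlipsFrom d) := by
  induction r with
  | zero => exact hbase.mono fun _ _ => trivial
  | succ r ih =>
    refine (flip_step ih).mono ?_
    intro K hK
    refine ⟨hK (Fin.last _) (by simp), ?_⟩
    intro τ i hi x hx
    change glue (flipCoord i x) τ ∈ K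
    rw [← flip_castSucc]
    exact hK i.castSucc (by simpa using hi) _ hx

/-- **Logarithmic Brunn-Minkowski for pairs invariant under `n - 2` coordinate reflections.** -/
theorem flips_logBM_two (r : ℕ) : LogBMFor (n := 2 + r) (FlipsFrom 2) :=
  flips_logBM 2 (fun _ _ hK hL _ _ _ t0 t1 => plane_Q1 hK hL t0 t1) r

end

end Vale.Agent.Lib.P227
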