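import Vale.Agent.Lib.P227.Wulff

open MeasureTheory Set Filter Topology
open scoped Pointwise

namespace Vale.Agent.Lib.P227

set_option linter.unusedSectionVars false

variable {n : ℕ} {ι : Type*} [Fintype ι]

lemma hyperplane_null {b : EuclideanSpace ℝ (Fin n)} (hb : b ≠ 0) :
    volume {x : EuclideanSpace ℝ (Fin n) | inner ℝ b x = (0 : ℝ)} = 0 := by
  have h1 : {x : EuclideanSpace ℝ (Fin n) | inner ℝ b x = (0 : ℝ)}
      = (LinearMap.ker (innerₛₗ ℝ b) : Submodule ℝ (EuclideanSpace ℝ (Fin n))) := by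
    ext x
    simp
  rw [h1]
  apply Measure.addHaar_submodule
  intro htop
  have : b ∈ LinearMap.ker (innerₛₗ ℝ b) := by rw [htop]; trivial
  rw [LinearMap.mem_ker, innerₛₗ_apply_apply, inner_self_eq_zero] at this
  exact hb this

lemma conePart_closed (a : ι → EuclideanSpace ℝ (Fin n)) (z : ι → ℝ) (i : ι) :
    IsClosed (conePart a z i) := by
  have : conePart a z i = slabPolytope a z ∩
      ⋂ j, {x | |inner ℝ (a j) x| / z j ≤ |inner ℝ (a i) x| / z i} := by
    ext x
    simp [conePart]
  rw [this]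
  apply (slab_closed a z).inter
  apply isClosed_iInter
  intro j
  apply isClosed_le <;> fun_prop

lemma conePart_subset (a : ι → EuclideanSpace ℝ (Fin n)) (z : ι → ℝ) (i : ι) :
    conePart a z i ⊆ slabPolytope a z := fun _ hx => hx.1

lemma slab_pos_volume (a : ι → EuclideanSpace ℝ (Fin n)) {z : ι → ℝ} (hz : ∀ i, 0 < z i) :
    0 < volume (slabPolytope a z) := by
  apply Measure.measure_pos_of_mem_nhds volume (x := 0)
  have : ∀ᶠ x in 𝓝 (0 : EuclideanSpace ℝ (Fin n)), ∀ i, |inner ℝ (a i) x| ≤ z i := by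
    rw [eventually_all]
    intro i
    have hcont : Continuous fun x : EuclideanSpace ℝ (Fin n) => |inner ℝ (a i) x| := by fun_prop
    have h0 : |inner ℝ (a i) (0 : EuclideanSpace ℝ (Fin n))| < z i := by simpa using hz i
    exact (hcont.tendsto 0).eventually_le_const h0
  exact this

lemma slab_finite_volume {a : ι → EuclideanSpace ℝ (Fin n)}
    (hspan : Submodule.span ℝ (range a) = ⊤) {z : ι → ℝ} (hz : ∀ i, 0 < z i) :
    volume (slabPolytope a z) < ⊤ :=
  (slab_compact hspan hz).measure_lt_top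

/-- For `i ≠ j`, two of the cone parts overlap in a null set. -/
lemma conePart_aedisjoint {a : ι → EuclideanSpace ℝ (Fin n)} {z : ι → ℝ} (hz : ∀ i, 0 < z i)
    (hpar : ∀ i j, i ≠ j → ∀ r : ℝ, a i ≠ r • a j) {i j : ι} (hij : i ≠ j) :
    volume (conePart a z i ∩ conePart a z j) = 0 := by
  have hb1 : (z i)⁻¹ • a i - (z j)⁻¹ • a j ≠ 0 := by
    intro h
    apply hpar i j hij (z i * (z j)⁻¹)
    have h2 : (z i)⁻¹ • a i = (z j)⁻¹ • a j := sub_eq_zero.mp h
    have h3 := congrArg (fun y => z i • y) h2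
    simp only [smul_smul, mul_inv_cancel₀ (hz i).ne', one_smul] at h3
    exact h3
  have hb2 : (z i)⁻¹ • a i + (z j)⁻¹ • a j ≠ 0 := by
    intro h
    apply hpar i j hij (-(z i * (z j)⁻¹))
    have h2 : (z i)⁻¹ • a i = -((z j)⁻¹ • a j) := eq_neg_of_add_eq_zero_left h
    have h3 := congrArg (fun y => z i • y) h2
    simp only [smul_smul, smul_neg, mul_inv_cancel₀ (hz i).ne', one_smul] at h3
    rw [neg_smul]
    exact h3
  refine measure_mono_null ?_ (measure_union_null (hyperplane_null hb1) (hyperplane_null hb2))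
  rintro x ⟨hi, hj⟩
  have h1 := hi.2 j
  have h2 := hj.2 i
  have heq : |inner ℝ (a i) x| / z i = |inner ℝ (a j) x| / z j := le_antisymm h2 h1
  have hzi := hz i
  have hzj := hz j
  have habs : |(z i)⁻¹ * inner ℝ (a i) x| = |(z j)⁻¹ * inner ℝ (a j) x| := by
    rw [abs_mul, abs_mul, abs_inv, abs_inv, abs_of_pos hzi, abs_of_pos hzj]
    rw [inv_mul_eq_div, inv_mul_eq_div]
    exact heq
  rcases abs_eq_abs.mp habs with h | h
  · left
    simp only [mem_ofPred_eq, inner_sub_left, real_inner_smul_left]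
    linarith
  · right
    simp only [mem_ofPred_eq, inner_add_left, real_inner_smul_left]
    linarith

/-- The cone parts cover the polytope and overlap in null sets. -/
lemma sum_conePart {a : ι → EuclideanSpace ℝ (Fin n)} [Nonempty ι] {z : ι → ℝ} (hz : ∀ i, 0 < z i)
    (hpar : ∀ i j, i ≠ j → ∀ r : ℝ, a i ≠ r • a j) :
    ∑ i, volume (conePart a z i) = volume (slabPolytope a z) := by
  classical
  have hU : slabPolytope a z = ⋃ i, conePart a z i := by
    ext x
    simp only [mem_iUnion]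
    constructor
    · intro hx
      obtain ⟨i, -, hi⟩ := Finset.exists_max_image Finset.univ
        (fun j => |inner ℝ (a j) x| / z j) Finset.univ_nonempty
      exact ⟨i, hx, fun j => hi j (Finset.mem_univ j)⟩
    · rintro ⟨i, hx⟩
      exact hx.1
  rw [hU, measure_iUnion₀ _ (fun i => (conePart_closed a z i).measurableSet.nullMeasurableSet),
    tsum_fintype]
  intro i j hij
  exact conePart_aedisjoint hz hpar hij

/-- Covering of a larger slab polytope by dilates of the cone parts. -/
lemma slab_subset_dilates {a : ι → EuclideanSpace ℝ (Fin n)} [Nonempty ι] {z : ι → ℝ}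
    (hz : ∀ i, 0 < z i) {r : ι → ℝ} (hr : ∀ i, 0 < r i) :
    slabPolytope a (fun i => z i * r i) ⊆ ⋃ i, r i • conePart a z i := by
  classical
  intro x hx
  obtain ⟨i, -, hi⟩ := Finset.exists_max_image Finset.univ
    (fun j => |inner ℝ (a j) x| / z j) Finset.univ_nonempty
  have hi' : ∀ j, |inner ℝ (a j) x| / z j ≤ |inner ℝ (a i) x| / z i :=
    fun j => hi j (Finset.mem_univ j)
  simp only [mem_iUnion]
  refine ⟨i, ?_⟩
  rw [mem_smul_set_iff_inv_smul_mem₀ (hr i).ne']
  have hscale : ∀ j, |inner ℝ (a j) ((r i)⁻¹ • x)| = (r i)⁻¹ * |inner ℝ (a j) x| := by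
    intro j
    rw [inner_smul_right, abs_mul, abs_of_pos (inv_pos.mpr (hr i))]
  have hrinv : 0 < (r i)⁻¹ := inv_pos.mpr (hr i)
  constructor
  · intro j
    rw [hscale]
    have h1 := hi' j
    have h2 : |inner ℝ (a i) x| ≤ z i * r i := hx i
    rw [div_le_div_iff₀ (hz j) (hz i)] at h1
    rw [inv_mul_le_iff₀ (hr i)]
    have hzi := hz i
    have hzj := hz j
    have h3 : |inner ℝ (a j) x| * z i ≤ (r i * z j) * z i := by
      calc |inner ℝ (a j) x| * z i ≤ |inner ℝ (a i) x| * z j := h1
        _ ≤ (z i * r i) * z j := by gcongr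
        _ = _ := by ring
    exact le_of_mul_le_mul_right h3 hzi
  · intro j
    rw [hscale, hscale, mul_div_assoc, mul_div_assoc]
    exact mul_le_mul_of_nonneg_left (hi' j) hrinv.le

lemma volume_dilate (r : ℝ) (hr : 0 < r) (S : Set (EuclideanSpace ℝ (Fin n))) :
    volume (r • S) = ENNReal.ofReal (r ^ n) * volume S := by
  rw [Measure.addHaar_smul, finrank_euclideanSpace_fin, abs_of_pos (pow_pos hr n)]

end Vale.Agent.Lib.P227
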