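import Vale.Agent.Lib.P227.LogMink

open MeasureTheory Set Filter Topology
open scoped Pointwise

namespace Vale.Agent.Lib.P227

set_option linter.unusedSectionVars false

variable {n : ℕ} {ι : Type*} [Fintype ι]

lemma supportFn_pos_of_volume {K : Set (EuclideanSpace ℝ (Fin n))} (hK : IsCompact K)
    (hsym : ∀ x ∈ K, -x ∈ K) (hpos : 0 < volume K) {b : EuclideanSpace ℝ (Fin n)} (hb : b ≠ 0) :
    0 < supportFn K b := by
  have hne : K.Nonempty := nonempty_of_measure_ne_zero hpos.ne'
  obtain ⟨x0, hx0, hmax⟩ := exists_max hK hne b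
  rw [supportFn_eq_of_max hx0 hmax]
  by_contra hcon
  have hle : inner ℝ x0 b ≤ (0 : ℝ) := not_lt.mp hcon
  have hsub : K ⊆ {x | inner ℝ b x = (0 : ℝ)} := by
    intro y hy
    have h1 := hmax y hy
    have h2 := hmax (-y) (hsym y hy)
    rw [inner_neg_left] at h2
    change inner ℝ b y = (0 : ℝ)
    rw [real_inner_comm]
    linarith
  have := measure_mono_null hsub (hyperplane_null hb)
  exact hpos.ne' this

lemma subset_slab_support {K : Set (EuclideanSpace ℝ (Fin n))} (hK : IsCompact K)
    (hsym : ∀ x ∈ K, -x ∈ K) (a : ι → EuclideanSpace ℝ (Fin n)) :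
    K ⊆ slabPolytope a (fun i => supportFn K (a i)) := by
  intro x hx i
  have h1 := le_supportFn hK hx (a i)
  have h2 := le_supportFn hK (hsym x hx) (a i)
  rw [inner_neg_left] at h2
  rw [real_inner_comm] at h1 h2
  rw [abs_le]
  constructor <;> linarith

/-- Discrete logarithmic Brunn-Minkowski inequality for arbitrary symmetric compact sets. -/
theorem discrete_log_bm {a : Fin (n + 1) → EuclideanSpace ℝ (Fin n)}
    (hspan : Submodule.span ℝ (range a) = ⊤) (ha0 : ∀ i, a i ≠ 0)
    {K L : Set (EuclideanSpace ℝ (Fin n))} (hK : IsCompact K) (hL : IsCompact L)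
    (hKs : ∀ x ∈ K, -x ∈ K) (hLs : ∀ x ∈ L, -x ∈ L) (hKp : 0 < volume K) (hLp : 0 < volume L)
    {t : ℝ} (t0 : 0 ≤ t) (t1 : t ≤ 1) :
    volume K ^ (1 - t) * volume L ^ t
      ≤ volume (slabPolytope a fun i => supportFn K (a i) ^ (1 - t) * supportFn L (a i) ^ t) := by
  have key := slab_log_bm a hspan
    (z := fun i => supportFn K (a i)) (w := fun i => supportFn L (a i))
    (fun i => supportFn_pos_of_volume hK hKs hKp (ha0 i))
    (fun i => supportFn_pos_of_volume hL hLs hLp (ha0 i)) t0 t1
  refine le_trans ?_ key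
  have h1t : 0 ≤ 1 - t := by linarith
  have h1 := measure_mono (μ := volume) (subset_slab_support hK hKs a)
  have h2 := measure_mono (μ := volume) (subset_slab_support hL hLs a)
  gcongr

/-- Volume comparison underlying the logarithmic Minkowski inequality. -/
lemma key_real {a : Fin (n + 1) → EuclideanSpace ℝ (Fin n)}
    (hspan : Submodule.span ℝ (range a) = ⊤) {z z' : Fin (n + 1) → ℝ}
    (hz : ∀ i, 0 < z i) (hz' : ∀ i, 0 < z' i) {s : ℝ} (s0 : 0 ≤ s) (s1 : s ≤ 1) :
    (volume (slabPolytope a z)).toReal ^ (1 - s) * (volume (slabPolytope a z')).toReal ^ s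
      ≤ ∑ i, Real.exp (n * (s * Real.log (z' i / z i))) * (volume (conePart a z i)).toReal := by
  have hrpos : ∀ i, 0 < Real.exp (s * Real.log (z' i / z i)) := fun i => Real.exp_pos _
  have hpow : ∀ i, z i ^ (1 - s) * z' i ^ s = z i * Real.exp (s * Real.log (z' i / z i)) := by
    intro i
    rw [Real.rpow_def_of_pos (hz i), Real.rpow_def_of_pos (hz' i), Real.log_div (hz' i).ne' (hz i).ne',
      ← Real.exp_add]
    conv_rhs => rw [← Real.exp_log (hz i), ← Real.exp_add]
    rw [Real.exp_log (hz i)]
    congr 1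
    ring
  have h1 := slab_log_bm a hspan hz hz' s0 s1
  simp only [hpow] at h1
  have h2 := (measure_mono (μ := volume) (slab_subset_dilates (a := a) hz hrpos)).trans
    (measure_iUnion_fintype_le volume _)
  simp only [volume_dilate _ (hrpos _)] at h2
  have h3 := h1.trans h2
  have hfin : ∀ i, volume (conePart a z i) ≠ ⊤ := fun i =>
    ((measure_mono (conePart_subset a z i)).trans_lt (slab_finite_volume hspan hz)).ne
  have hfinr : ∑ i, ENNReal.ofReal (Real.exp (s * Real.log (z' i / z i)) ^ n)
      * volume (conePart a z i) ≠ ⊤ := by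
    apply ENNReal.sum_ne_top.mpr
    intro i _
    exact ENNReal.mul_ne_top ENNReal.ofReal_ne_top (hfin i)
  have h4 := ENNReal.toReal_mono hfinr h3
  rw [ENNReal.toReal_mul, ← ENNReal.toReal_rpow, ← ENNReal.toReal_rpow, ENNReal.toReal_sum] at h4
  · refine h4.trans (le_of_eq ?_)
    apply Finset.sum_congr rfl
    intro i _
    rw [ENNReal.toReal_mul, ENNReal.toReal_ofReal (by positivity), ← Real.exp_nat_mul]
  · intro i _
    exact ENNReal.mul_ne_top ENNReal.ofReal_ne_top (hfin i)

/-- **Global logarithmic Minkowski inequality** at a polytope with `n + 1` facet-normal lines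
against every symmetric compact set of positive volume. -/
theorem log_minkowski {a : Fin (n + 1) → EuclideanSpace ℝ (Fin n)}
    (hspan : Submodule.span ℝ (range a) = ⊤) (ha0 : ∀ i, a i ≠ 0)
    (hpar : ∀ i j, i ≠ j → ∀ r : ℝ, a i ≠ r • a j) (hn : 0 < n) {z : Fin (n + 1) → ℝ}
    (hz : ∀ i, 0 < z i) {L : Set (EuclideanSpace ℝ (Fin n))} (hL : IsCompact L)
    (hLs : ∀ x ∈ L, -x ∈ L) (hLp : 0 < volume L) :
    (1 / (n : ℝ)) * Real.log ((volume L).toReal / (volume (slabPolytope a z)).toReal)
      ≤ ∑ i, (volume (conePart a z i)).toReal / (volume (slabPolytope a z)).toReal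
          * Real.log (supportFn L (a i) / z i) := by
  set z' : Fin (n + 1) → ℝ := fun i => supportFn L (a i) with hz'def
  have hz' : ∀ i, 0 < z' i := fun i => supportFn_pos_of_volume hL hLs hLp (ha0 i)
  set V := (volume (slabPolytope a z)).toReal with hV
  set V' := (volume (slabPolytope a z')).toReal with hV'
  have hVpos : 0 < V := ENNReal.toReal_pos (slab_pos_volume a hz).ne'
    (slab_finite_volume hspan hz).ne
  have hV'pos : 0 < V' := ENNReal.toReal_pos (slab_pos_volume a hz').ne'
    (slab_finite_volume hspan hz').ne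
  have hLV : (volume L).toReal ≤ V' :=
    ENNReal.toReal_mono (slab_finite_volume hspan hz').ne
      (measure_mono (subset_slab_support hL hLs a))
  have hLpos : 0 < (volume L).toReal := ENNReal.toReal_pos hLp.ne' hL.measure_lt_top.ne
  set v : Fin (n + 1) → ℝ := fun i => Real.log (z' i / z i) with hv
  set c : Fin (n + 1) → ℝ := fun i => (volume (conePart a z i)).toReal / V with hc
  -- the sum of the cone parts
  have hcsum : ∑ i, c i = 1 := by
    have hfin : ∀ i, volume (conePart a z i) ≠ ⊤ := fun i =>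
      ((measure_mono (conePart_subset a z i)).trans_lt (slab_finite_volume hspan hz)).ne
    rw [← Finset.sum_div, ← ENNReal.toReal_sum (fun i _ => hfin i), sum_conePart hz hpar,
      div_self hVpos.ne']
  set G : ℝ → ℝ := fun s => ∑ i, c i * Real.exp (n * (s * v i)) with hG
  have hG0 : G 0 = 1 := by
    simp [hG, hcsum]
  set Δ := Real.log V' - Real.log V with hΔ
  have hmain : ∀ s : ℝ, 0 < s → s < 1 → s⁻¹ • (G (0 + s) - G 0) ≥ Δ := by
    intro s s0 s1
    have h1 := key_real hspan hz hz' s0.le s1.le
    have h2 : V ^ (1 - s) * V' ^ s = V * Real.exp (s * Δ) := by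
      rw [Real.rpow_def_of_pos hVpos, Real.rpow_def_of_pos hV'pos, ← Real.exp_add]
      conv_rhs => rw [← Real.exp_log hVpos, ← Real.exp_add]
      rw [hΔ]
      congr 1
      ring
    rw [h2] at h1
    have h3 : Real.exp (s * Δ) ≤ G s := by
      change Real.exp (s * Δ) ≤ ∑ i, c i * Real.exp (n * (s * v i))
      have h4 : ∑ i, c i * Real.exp (n * (s * v i))
          = (∑ i, Real.exp (n * (s * v i)) * (volume (conePart a z i)).toReal) / V := by
        rw [Finset.sum_div]
        apply Finset.sum_congr rfl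
        intro i _
        rw [hc]
        ring
      rw [h4, le_div_iff₀ hVpos, mul_comm]
      exact h1
    have h5 : s * Δ + 1 ≤ Real.exp (s * Δ) := Real.add_one_le_exp _
    rw [zero_add, hG0, smul_eq_mul, ge_iff_le, le_inv_mul_iff₀ s0]
    linarith
  have hderiv : HasDerivAt G (∑ i, c i * (n * v i)) 0 := by
    have : ∀ i, HasDerivAt (fun s => c i * Real.exp (n * (s * v i))) (c i * (n * v i)) 0 := by
      intro i
      have h1 : HasDerivAt (fun s : ℝ => (n : ℝ) * (s * v i)) (n * (1 * v i)) 0 :=
        ((hasDerivAt_id 0).mul_const (v i)).const_mul (n : ℝ)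
      have h2 := (h1.exp).const_mul (c i)
      simpa using h2
    have h3 := HasDerivAt.fun_sum (u := Finset.univ) (fun i _ => this i)
    exact h3
  have hlim := hderiv.tendsto_slope_zero_right
  have hΔle : Δ ≤ ∑ i, c i * (n * v i) := by
    apply ge_of_tendsto hlim
    filter_upwards [Ioo_mem_nhdsGT (show (0 : ℝ) < 1 from zero_lt_one)] with s hs
    exact hmain s hs.1 hs.2
  have hlogL : Real.log ((volume L).toReal / V) ≤ Δ := by
    rw [Real.log_div hLpos.ne' hVpos.ne', hΔ]
    have := Real.log_le_log hLpos hLV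
    linarith
  have hnpos : (0 : ℝ) < n := by exact_mod_cast hn
  have hfinal : Real.log ((volume L).toReal / V) ≤ n * ∑ i, c i * v i := by
    refine hlogL.trans (hΔle.trans (le_of_eq ?_))
    rw [Finset.mul_sum]
    apply Finset.sum_congr rfl
    intro i _
    ring
  rw [one_div, inv_mul_le_iff₀ hnpos]
  exact hfinal

end Vale.Agent.Lib.P227
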