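import Vale.Agent.Lib.P227.Section

open MeasureTheory Set
open scoped ENNReal Pointwise

namespace Vale.Agent.Lib.P227

/-- The Busemann gauge. -/
noncomputable def N {n : ℕ} (Q : Set (ℝ × (Fin n → ℝ))) (a0 : ℝ) (a : Fin n → ℝ) : ℝ :=
  |a0| / (volume (sec Q a0 a)).toReal

/-- real version of the fibre volume -/
noncomputable def Ereal {m : ℕ} (Q : Set (ℝ × (Fin (m + 1) → ℝ))) (j : Fin (m + 1))
    (ρ0 ρj : (Fin m → ℝ) →ₗ[ℝ] ℝ) (x : ℝ × ℝ) : ℝ := (Eenn Q j ρ0 ρj x).toReal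

lemma lint_even {g : ℝ → ℝ≥0∞} (he : ∀ x, g (-x) = g x) :
    ∫⁻ x, g x = 2 * ∫⁻ x in Ioi (0:ℝ), g x := by
  have h1 : ∫⁻ x in Iic (0:ℝ), g x = ∫⁻ x in Ioi (0:ℝ), g x := by
    rw [← lintegral_indicator measurableSet_Iic, ← lintegral_neg_eq_self,
      setLIntegral_congr Ioi_ae_eq_Ici, ← lintegral_indicator measurableSet_Ici]
    apply lintegral_congr
    intro x
    by_cases hx : 0 ≤ x
    · simp [hx, he]
    · simp [hx]
  have h2 := lintegral_add_compl (μ := volume) g (measurableSet_Iic (a := (0:ℝ)))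
  rw [compl_Iic, h1] at h2
  rw [← h2, two_mul]

section Tri

variable {m : ℕ} {Q : Set (ℝ × (Fin (m + 1) → ℝ))} (hB : Body Q) (j : Fin (m + 1))
  (ρ0 ρj : (Fin m → ℝ) →ₗ[ℝ] ℝ)

include hB

lemma ofReal_Ereal (x : ℝ × ℝ) : ENNReal.ofReal (Ereal Q j ρ0 ρj x) = Eenn Q j ρ0 ρj x := by
  obtain ⟨M, hM, hb⟩ := Eenn_bound hB j ρ0 ρj
  exact ENNReal.ofReal_toReal (ne_of_lt (lt_of_le_of_lt (hb x) (lt_top_iff_ne_top.2 hM)))

lemma Ereal_logc (x y : ℝ × ℝ) (μ : ℝ) (μ0 : 0 < μ) (μ1 : μ < 1) :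
    Ereal Q j ρ0 ρj x ^ (1 - μ) * Ereal Q j ρ0 ρj y ^ μ
      ≤ Ereal Q j ρ0 ρj ((1 - μ) • x + μ • y) := by
  obtain ⟨M, hM, hb⟩ := Eenn_bound hB j ρ0 ρj
  have h1μ : 0 < 1 - μ := by linarith
  simp only [Ereal]
  rw [ENNReal.toReal_rpow, ENNReal.toReal_rpow, ← ENNReal.toReal_mul]
  exact ENNReal.toReal_mono (ne_of_lt (lt_of_le_of_lt (hb _) (lt_top_iff_ne_top.2 hM)))
    (Eenn_logc hB j ρ0 ρj x y μ0 μ1)

lemma radial_eq (w : ℝ × ℝ) :
    2 * radial (Ereal Q j ρ0 ρj) w = ∫⁻ ρ : ℝ, Eenn Q j ρ0 ρj (ρ • w) := by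
  rw [lint_even (fun x => by rw [neg_smul, Eenn_neg hB])]
  congr 1
  unfold radial
  apply lintegral_congr
  intro r
  exact ofReal_Ereal hB j ρ0 ρj _

lemma phi_bdd {w : ℝ × ℝ} (hw : w.2 ≠ 0) : BddAbove (range (phi (Ereal Q j ρ0 ρj) w)) := by
  obtain ⟨M, hM, hb⟩ := Eenn_bound hB j ρ0 ρj
  obtain ⟨R', hR', hs⟩ := Eenn_support hB j ρ0 ρj
  have hwp : 0 < |w.2| := abs_pos.2 hw
  refine ⟨M.toReal * (R' / |w.2|) ^ 2, ?_⟩
  rintro _ ⟨u, rfl⟩
  have hM0 : 0 ≤ M.toReal := ENNReal.toReal_nonneg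
  unfold phi
  split_ifs with hu
  · have hE : Ereal Q j ρ0 ρj (u⁻¹ • w) ≤ M.toReal := ENNReal.toReal_mono hM (hb _)
    have hE0 : 0 ≤ Ereal Q j ρ0 ρj (u⁻¹ • w) := ENNReal.toReal_nonneg
    by_cases hz : Eenn Q j ρ0 ρj (u⁻¹ • w) = 0
    · have : Ereal Q j ρ0 ρj (u⁻¹ • w) = 0 := by simp [Ereal, hz]
      rw [this, zero_mul]
      positivity
    · have h1 := hs _ hz
      simp only [Prod.smul_snd, smul_eq_mul, abs_mul, abs_inv, abs_of_pos hu] at h1
      have h2 : u⁻¹ ≤ R' / |w.2| := by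
        rw [le_div_iff₀ hwp]
        exact h1
      have h3 : (u⁻¹) ^ 2 ≤ (R' / |w.2|) ^ 2 := pow_le_pow_left₀ (by positivity) h2 2
      exact mul_le_mul hE h3 (by positivity) hM0
  · positivity

end Tri

/-- The triangle inequality when the two functionals are independent in coordinates `0, j`. -/
theorem tri_indep {m : ℕ} {Q : Set (ℝ × (Fin (m + 1) → ℝ))} (hB : Body Q) (j : Fin (m + 1))
    {a0 b0 : ℝ} {a b : Fin (m + 1) → ℝ} (hΔ : a0 * b j - a j * b0 ≠ 0) (ha0 : a0 ≠ 0) (hb0 : b0 ≠ 0)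
    (hab0 : a0 + b0 ≠ 0) : N Q (a0 + b0) (a + b) ≤ N Q a0 a + N Q b0 b := by
  set Δ := a0 * b j - a j * b0 with hΔd
  let A : (Fin m → ℝ) →ₗ[ℝ] ℝ := ∑ k, a (j.succAbove k) • (LinearMap.proj k : (Fin m → ℝ) →ₗ[ℝ] ℝ)
  let B : (Fin m → ℝ) →ₗ[ℝ] ℝ := ∑ k, b (j.succAbove k) • (LinearMap.proj k : (Fin m → ℝ) →ₗ[ℝ] ℝ)
  have hA : ∀ w, A w = ∑ k, a (j.succAbove k) * w k := by
    intro w
    simp [A, LinearMap.sum_apply]
  have hB' : ∀ w, B w = ∑ k, b (j.succAbove k) * w k := by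
    intro w
    simp [B, LinearMap.sum_apply]
  let ρ0 : (Fin m → ℝ) →ₗ[ℝ] ℝ := (Δ⁻¹ * b j) • A - (Δ⁻¹ * a j) • B
  let ρj : (Fin m → ℝ) →ₗ[ℝ] ℝ := (Δ⁻¹ * a0) • B - (Δ⁻¹ * b0) • A
  have h0 : ∀ w, ρ0 w = Δ⁻¹ * (b j * A w - a j * B w) := by
    intro w
    simp [ρ0]
    ring
  have hj : ∀ w, ρj w = Δ⁻¹ * (a0 * B w - b0 * A w) := by
    intro w
    simp [ρj]
    ring
  have hCa : ∀ w, a0 * ρ0 w + a j * ρj w = ∑ k, a (j.succAbove k) * w k := by
    intro w
    rw [← hA, h0, hj]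
    have e : a0 * (Δ⁻¹ * (b j * A w - a j * B w)) + a j * (Δ⁻¹ * (a0 * B w - b0 * A w))
        = Δ⁻¹ * ((a0 * b j - a j * b0) * A w) := by ring
    rw [e, ← hΔd]
    field_simp
  have hCb : ∀ w, b0 * ρ0 w + b j * ρj w = ∑ k, b (j.succAbove k) * w k := by
    intro w
    rw [← hB', h0, hj]
    have e : b0 * (Δ⁻¹ * (b j * A w - a j * B w)) + b j * (Δ⁻¹ * (a0 * B w - b0 * A w))
        = Δ⁻¹ * ((a0 * b j - a j * b0) * B w) := by ring
    rw [e, ← hΔd]
    field_simp
  have hCab : ∀ w, (a0 + b0) * ρ0 w + (a + b) j * ρj w = ∑ k, (a + b) (j.succAbove k) * w k := by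
    intro w
    have : ∑ k, (a + b) (j.succAbove k) * w k
        = ∑ k, a (j.succAbove k) * w k + ∑ k, b (j.succAbove k) * w k := by
      rw [← Finset.sum_add_distrib]
      apply Finset.sum_congr rfl
      intro k _
      simp only [Pi.add_apply]
      ring
    rw [this, ← hCa, ← hCb]
    simp only [Pi.add_apply]
    ring
  set w1 : ℝ × ℝ := (-a j, a0) with hw1
  set w2 : ℝ × ℝ := (-b j, b0) with hw2
  have hw12 : w1 + w2 = (-(a + b) j, a0 + b0) := by
    simp only [hw1, hw2, Prod.mk_add_mk, Pi.add_apply, neg_add_rev]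
    ext <;> simp
    ring
  have l1 := line_integral hB j ρ0 ρj ha0 a hCa
  have l2 := line_integral hB j ρ0 ρj hb0 b hCb
  have l3 := line_integral hB j ρ0 ρj hab0 (a + b) hCab
  rw [← hw1, ← radial_eq hB] at l1
  rw [← hw2, ← radial_eq hB] at l2
  rw [← hw12, ← radial_eq hB] at l3
  set E := Ereal Q j ρ0 ρj with hE
  -- real values
  set Ua := (volume (sec Q a0 a)).toReal with hUa
  set Ub := (volume (sec Q b0 b)).toReal with hUb
  set Uc := (volume (sec Q (a0 + b0) (a + b))).toReal with hUc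
  have Ua_eq : volume (sec Q a0 a) = ENNReal.ofReal Ua := (ENNReal.ofReal_toReal (sec_fin hB _ _)).symm
  have Ub_eq : volume (sec Q b0 b) = ENNReal.ofReal Ub := (ENNReal.ofReal_toReal (sec_fin hB _ _)).symm
  have Uc_eq : volume (sec Q (a0 + b0) (a + b)) = ENNReal.ofReal Uc :=
    (ENNReal.ofReal_toReal (sec_fin hB _ _)).symm
  have Uap : 0 < Ua := ENNReal.toReal_pos (sec_pos hB ha0 a).ne' (sec_fin hB _ _)
  have Ubp : 0 < Ub := ENNReal.toReal_pos (sec_pos hB hb0 b).ne' (sec_fin hB _ _)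
  have Ucp : 0 < Uc := ENNReal.toReal_pos (sec_pos hB hab0 _).ne' (sec_fin hB _ _)
  have conv : ∀ {w : ℝ × ℝ} {c U : ℝ}, 0 < |c| → 0 < U →
      2 * radial E w = ENNReal.ofReal |c⁻¹| * ENNReal.ofReal U →
      radial E w = ENNReal.ofReal (|c|⁻¹ * U / 2) := by
    intro w c U hc hU h
    have h2 : (2:ℝ≥0∞) * radial E w = 2 * ENNReal.ofReal (|c|⁻¹ * U / 2) := by
      rw [h, abs_inv, ← ENNReal.ofReal_mul (by positivity)]
      have : (2:ℝ≥0∞) = ENNReal.ofReal 2 := by simp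
      rw [this, ← ENNReal.ofReal_mul (by norm_num)]
      congr 1
      ring
    exact (ENNReal.mul_right_inj (by norm_num) (by norm_num)).1 h2
  have ha0' : 0 < |a0| := abs_pos.2 ha0
  have hb0' : 0 < |b0| := abs_pos.2 hb0
  have hab0' : 0 < |a0 + b0| := abs_pos.2 hab0
  rw [Ua_eq] at l1
  rw [Ub_eq] at l2
  rw [Uc_eq] at l3
  have r1 := conv ha0' Uap l1
  have r2 := conv hb0' Ubp l2
  have r3 := conv hab0' Ucp l3
  have bus := busemann_radial (E := E) (Eenn_meas hB j ρ0 ρj).ennreal_toReal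
    (fun x => ENNReal.toReal_nonneg) (Ereal_logc hB j ρ0 ρj)
    (w1 := w1) (w2 := w2) (phi_bdd hB j ρ0 ρj ha0) (phi_bdd hB j ρ0 ρj hb0)
    (by rw [r1]; exact ENNReal.ofReal_ne_top) (by rw [r2]; exact ENNReal.ofReal_ne_top)
  rw [r3, r1, r2] at bus
  set x := |a0|⁻¹ * Ua / 2 with hx
  set y := |b0|⁻¹ * Ub / 2 with hy
  set z := |a0 + b0|⁻¹ * Uc / 2 with hz
  have xp : 0 < x := by positivity
  have yp : 0 < y := by positivity
  have zp : 0 < z := by positivity
  rw [← ENNReal.ofReal_mul xp.le, ← ENNReal.ofReal_add xp.le yp.le,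
    ← ENNReal.ofReal_mul zp.le, ENNReal.ofReal_le_ofReal_iff (by positivity)] at bus
  have e1 : N Q a0 a = (2 * x)⁻¹ := by
    change |a0| / Ua = _
    rw [hx]
    field_simp
  have e2 : N Q b0 b = (2 * y)⁻¹ := by
    change |b0| / Ub = _
    rw [hy]
    field_simp
  have e3 : N Q (a0 + b0) (a + b) = (2 * z)⁻¹ := by
    change |a0 + b0| / Uc = _
    rw [hz]
    field_simp
  rw [e1, e2, e3, mul_inv, mul_inv, mul_inv, ← mul_add]
  have : z⁻¹ ≤ x⁻¹ + y⁻¹ := by
    rw [inv_add_inv xp.ne' yp.ne', inv_le_comm₀ zp (by positivity), inv_div]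
    rw [div_le_iff₀ (by positivity)]
    linarith
  linarith

section Gauge

variable {n : ℕ} {Q : Set (ℝ × (Fin n → ℝ))}

lemma sec_smul {s : ℝ} (hs : s ≠ 0) (a0 : ℝ) (a : Fin n → ℝ) :
    sec Q (s * a0) (s • a) = sec Q a0 a := by
  ext y
  change ((-(∑ i, (s • a) i * y i) / (s * a0), y) : ℝ × (Fin n → ℝ)) ∈ Q ↔
    ((-(∑ i, a i * y i) / a0, y) : ℝ × (Fin n → ℝ)) ∈ Q
  have : ∑ i, (s • a) i * y i = s * ∑ i, a i * y i := by
    rw [Finset.mul_sum]
    apply Finset.sum_congr rfl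
    intro i _
    simp only [Pi.smul_apply, smul_eq_mul]
    ring
  rw [this]
  by_cases h0 : a0 = 0
  · simp [h0]
  · have : -(s * ∑ i, a i * y i) / (s * a0) = -(∑ i, a i * y i) / a0 := by
      field_simp
    rw [this]

lemma N_smul {s : ℝ} (hs : s ≠ 0) (a0 : ℝ) (a : Fin n → ℝ) :
    N Q (s * a0) (s • a) = |s| * N Q a0 a := by
  simp only [N, sec_smul hs, abs_mul]
  ring

lemma N_nonneg (a0 : ℝ) (a : Fin n → ℝ) : 0 ≤ N Q a0 a :=
  div_nonneg (abs_nonneg _) ENNReal.toReal_nonneg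

lemma N_pos (hB : Body Q) {a0 : ℝ} (ha0 : a0 ≠ 0) (a : Fin n → ℝ) : 0 < N Q a0 a :=
  div_pos (abs_pos.2 ha0) (ENNReal.toReal_pos (sec_pos hB ha0 a).ne' (sec_fin hB _ _))

lemma sec_neg0 (hB : Body Q) (a0 : ℝ) (a : Fin n → ℝ) : sec Q (-a0) a = sec Q a0 a := by
  ext y
  change ((-(∑ i, a i * y i) / (-a0), y) : ℝ × (Fin n → ℝ)) ∈ Q ↔
    ((-(∑ i, a i * y i) / a0, y) : ℝ × (Fin n → ℝ)) ∈ Q
  constructor
  · intro h
    have := hB.flip0 _ h
    simpa [neg_div, div_neg] using this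
  · intro h
    have := hB.flip0 _ h
    simpa [neg_div, div_neg] using this

lemma N_neg0 (hB : Body Q) (a0 : ℝ) (a : Fin n → ℝ) : N Q (-a0) a = N Q a0 a := by
  simp only [N, sec_neg0 hB, abs_neg]

/-- Flip of one coordinate. -/
def flp (i : Fin n) (y : Fin n → ℝ) : Fin n → ℝ := Function.update y i (-y i)

lemma flp_apply_same (i : Fin n) (y : Fin n → ℝ) : flp i y i = -y i := by
  simp [flp]

lemma flp_apply_ne {i k : Fin n} (h : k ≠ i) (y : Fin n → ℝ) : flp i y k = y k := by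
  simp [flp, h]

lemma flp_flp (i : Fin n) (y : Fin n → ℝ) : flp i (flp i y) = y := by
  funext k
  by_cases h : k = i
  · subst h
    simp [flp_apply_same]
  · simp [flp_apply_ne h]

lemma flp_mp (i : Fin n) : MeasurePreserving (flp i) volume volume := by
  have h : MeasurePreserving (fun (y : Fin n → ℝ) (k : Fin n) =>
      (fun k' : Fin n => if k' = i then (Neg.neg : ℝ → ℝ) else id) k (y k)) volume volume := by
    apply volume_preserving_pi
    intro k
    by_cases hk : k = i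
    · simp only [hk, if_true]
      exact Measure.measurePreserving_neg volume
    · simp only [hk, if_false]
      exact MeasurePreserving.id _
  convert h using 1
  funext y k
  by_cases hk : k = i
  · subst hk
    simp [flp_apply_same]
  · simp [flp_apply_ne hk, hk]

lemma sum_flp (i : Fin n) (a y : Fin n → ℝ) : ∑ k, flp i a k * y k = ∑ k, a k * flp i y k := by
  apply Finset.sum_congr rfl
  intro k _
  by_cases hk : k = i
  · subst hk
    simp [flp_apply_same]
  · simp [flp_apply_ne hk]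

lemma sec_flp (hB : Body Q) (i : Fin n) (a0 : ℝ) (a : Fin n → ℝ) :
    sec Q a0 (flp i a) = flp i ⁻¹' sec Q a0 a := by
  ext y
  change ((-(∑ k, flp i a k * y k) / a0, y) : ℝ × (Fin n → ℝ)) ∈ Q ↔
    ((-(∑ k, a k * flp i y k) / a0, flp i y) : ℝ × (Fin n → ℝ)) ∈ Q
  rw [sum_flp]
  constructor
  · intro h
    exact hB.flipi i _ h
  · intro h
    have := hB.flipi i _ h
    have e : Function.update (flp i y) i (-(flp i y) i) = y := flp_flp i y
    simp only at this
    rwa [e] at this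

lemma N_flp (hB : Body Q) (i : Fin n) (a0 : ℝ) (a : Fin n → ℝ) :
    N Q a0 (flp i a) = N Q a0 a := by
  simp only [N, sec_flp hB]
  rw [(flp_mp i).measure_preimage (sec_meas hB a0 a).nullMeasurableSet]

/-- The triangle inequality for the Busemann gauge. -/
theorem tri (hB : Body Q) {a0 b0 : ℝ} {a b : Fin n → ℝ} (ha0 : a0 ≠ 0) (hb0 : b0 ≠ 0)
    (hab0 : a0 + b0 ≠ 0) : N Q (a0 + b0) (a + b) ≤ N Q a0 a + N Q b0 b := by
  by_cases h : ∃ j, a0 * b j - a j * b0 ≠ 0
  · obtain ⟨j, hj⟩ := h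
    cases n with
    | zero => exact j.elim0
    | succ m => exact tri_indep hB j hj ha0 hb0 hab0
  · push Not at h
    set s := b0 / a0 with hs
    have hs0 : s ≠ 0 := div_ne_zero hb0 ha0
    have e1 : b0 = s * a0 := by
      rw [hs]
      field_simp
    have e2 : b = s • a := by
      funext j
      have := h j
      simp only [Pi.smul_apply, smul_eq_mul, hs]
      field_simp
      linarith
    have hs1 : 1 + s ≠ 0 := by
      intro h1
      apply hab0
      rw [e1]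
      have : a0 + s * a0 = (1 + s) * a0 := by ring
      rw [this, h1, zero_mul]
    have e3 : a0 + b0 = (1 + s) * a0 := by
      rw [e1]
      ring
    have e4 : a + b = (1 + s) • a := by
      rw [e2, add_smul, one_smul]
    rw [e3, e4, N_smul hs1, e1, e2, N_smul hs0]
    have := N_nonneg (Q := Q) a0 a
    have habs : |1 + s| ≤ 1 + |s| := by
      calc |1 + s| ≤ |(1:ℝ)| + |s| := abs_add_le _ _
        _ = 1 + |s| := by simp
    nlinarith

/-- Monotonicity in one of the coordinates of `a`. -/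
lemma mono_one (hB : Body Q) {a0 : ℝ} (ha0 : a0 ≠ 0) (a : Fin n → ℝ) (i : Fin n) {θ : ℝ}
    (hθ : |θ| ≤ 1) : N Q a0 (Function.update a i (θ * a i)) ≤ N Q a0 a := by
  have hθ' := abs_le.1 hθ
  rcases eq_or_lt_of_le hθ'.2 with h1 | h1
  · subst h1
    simp
  rcases eq_or_lt_of_le hθ'.1 with h2 | h2
  · rw [← h2]
    have : Function.update a i (-1 * a i) = flp i a := by
      simp [flp]
    rw [this, N_flp hB]
  set p := (1 + θ) / 2 with hp
  set q := (1 - θ) / 2 with hq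
  have hp0 : p ≠ 0 := by
    rw [hp]
    intro h
    linarith
  have hq0 : q ≠ 0 := by
    rw [hq]
    intro h
    linarith
  have hpp : 0 < p := by
    rw [hp]
    linarith
  have hqp : 0 < q := by
    rw [hq]
    linarith
  have hpq : p + q = 1 := by
    rw [hp, hq]
    ring
  have e1 : p * a0 + q * a0 = a0 := by
    rw [← add_mul, hpq, one_mul]
  have e2 : p • a + q • flp i a = Function.update a i (θ * a i) := by
    funext k
    by_cases hk : k = i
    · subst hk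
      simp only [Pi.add_apply, Pi.smul_apply, smul_eq_mul, flp_apply_same, Function.update_self]
      rw [hp, hq]
      ring
    · simp only [Pi.add_apply, Pi.smul_apply, smul_eq_mul, flp_apply_ne hk, Function.update_of_ne hk]
      rw [← add_mul, hpq, one_mul]
  have key := tri hB (a0 := p * a0) (b0 := q * a0) (a := p • a) (b := q • flp i a)
    (mul_ne_zero hp0 ha0) (mul_ne_zero hq0 ha0) (by rw [e1]; exact ha0)
  rw [e1, e2, N_smul hp0, N_smul hq0, N_flp hB, abs_of_pos hpp, abs_of_pos hqp, ← add_mul, hpq,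
    one_mul] at key
  exact key

/-- Monotonicity in `a0`. -/
lemma mono_zero (hB : Body Q) {a0 : ℝ} (ha0 : a0 ≠ 0) (a : Fin n → ℝ) {θ : ℝ}
    (hθ : |θ| ≤ 1) (hθ0 : θ ≠ 0) : N Q (θ * a0) a ≤ N Q a0 a := by
  have hθ' := abs_le.1 hθ
  rcases eq_or_lt_of_le hθ'.2 with h1 | h1
  · subst h1
    simp
  rcases eq_or_lt_of_le hθ'.1 with h2 | h2
  · rw [← h2]
    simp only [neg_mul, one_mul]
    rw [N_neg0 hB]
  set p := (1 + θ) / 2 with hp
  set q := (1 - θ) / 2 with hq
  have hpp : 0 < p := by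
    rw [hp]
    linarith
  have hqp : 0 < q := by
    rw [hq]
    linarith
  have hpq : p + q = 1 := by
    rw [hp, hq]
    ring
  have e1 : p * a0 + q * (-a0) = θ * a0 := by
    rw [hp, hq]
    ring
  have e2 : p • a + q • a = a := by
    rw [← add_smul, hpq, one_smul]
  have key := tri hB (a0 := p * a0) (b0 := q * (-a0)) (a := p • a) (b := q • a)
    (mul_ne_zero hpp.ne' ha0) (mul_ne_zero hqp.ne' (neg_ne_zero.2 ha0))
    (by rw [e1]; exact mul_ne_zero hθ0 ha0)
  rw [e1, e2, N_smul hpp.ne', N_smul hqp.ne', N_neg0 hB, abs_of_pos hpp, abs_of_pos hqp, ← add_mul,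
    hpq, one_mul] at key
  exact key

/-- Monotonicity in all the coordinates. -/
lemma mono_all (hB : Body Q) {a0 : ℝ} (ha0 : a0 ≠ 0) (a : Fin n → ℝ) (θ : Fin n → ℝ)
    (hθ : ∀ i, |θ i| ≤ 1) : N Q a0 (fun i => θ i * a i) ≤ N Q a0 a := by
  classical
  have key : ∀ S : Finset (Fin n),
      N Q a0 (fun i => if i ∈ S then θ i * a i else a i) ≤ N Q a0 a := by
    intro S
    induction S using Finset.induction_on with
    | empty => simp
    | insert i S hi ih =>
      refine le_trans ?_ ih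
      have : (fun k => if k ∈ insert i S then θ k * a k else a k)
          = Function.update (fun k => if k ∈ S then θ k * a k else a k) i
              (θ i * (fun k => if k ∈ S then θ k * a k else a k) i) := by
        funext k
        by_cases hk : k = i
        · subst hk
          simp [hi]
        · simp [hk]
      rw [this]
      exact mono_one hB ha0 _ i (hθ i)
  have := key Finset.univ
  simpa using this

/-- The gauge is monotone with respect to the absolute values of the coefficients. -/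
theorem mono (hB : Body Q) {a0 b0 : ℝ} (ha0 : a0 ≠ 0) (hb0 : b0 ≠ 0) (h0 : |b0| ≤ |a0|)
    {a b : Fin n → ℝ} (h : ∀ i, |b i| ≤ |a i|) : N Q b0 b ≤ N Q a0 a := by
  have ha0' : 0 < |a0| := abs_pos.2 ha0
  set τ := b0 / a0 with hτ
  have hτ0 : τ ≠ 0 := div_ne_zero hb0 ha0
  have hτ1 : |τ| ≤ 1 := by
    rw [hτ, abs_div, div_le_one ha0']
    exact h0
  have e0 : b0 = τ * a0 := by
    rw [hτ]
    field_simp
  have step1 : N Q (τ * a0) a ≤ N Q a0 a := mono_zero hB ha0 a hτ1 hτ0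
  set θ : Fin n → ℝ := fun i => if a i = 0 then 0 else b i / a i with hθ
  have hθ1 : ∀ i, |θ i| ≤ 1 := by
    intro i
    by_cases hi : a i = 0
    · simp [hθ, hi]
    · simp only [hθ, hi, if_false, abs_div]
      exact (div_le_one (abs_pos.2 hi)).2 (h i)
  have e1 : (fun i => θ i * a i) = b := by
    funext i
    by_cases hi : a i = 0
    · have : b i = 0 := by
        have := h i
        rw [hi, abs_zero] at this
        exact abs_eq_zero.1 (le_antisymm this (abs_nonneg _))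
      simp [hθ, hi, this]
    · simp only [hθ, hi, if_false]
      field_simp
  have step2 := mono_all hB (a0 := τ * a0) (mul_ne_zero hτ0 ha0) a θ hθ1
  rw [e1, ← e0] at step2
  rw [e0] at step2 ⊢
  exact le_trans step2 step1

/-- The lattice property of the Busemann gauge. -/
theorem lattice (hB : Body Q) {a0 b0 : ℝ} (ha0 : 0 < a0) (hb0 : 0 < b0) {a b c : Fin n → ℝ}
    {t : ℝ} (t0 : 0 < t) (t1 : t < 1) (hab : ∀ i, 0 ≤ a i * b i)
    (hc : ∀ i, |c i| ≤ |a i| ^ (1 - t) * |b i| ^ t) :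
    N Q (a0 ^ (1 - t) * b0 ^ t) c ≤ N Q a0 a ^ (1 - t) * N Q b0 b ^ t := by
  have h1t : 0 < 1 - t := by linarith
  set N1 := N Q a0 a with hN1
  set N2 := N Q b0 b with hN2
  have N1p : 0 < N1 := N_pos hB ha0.ne' a
  have N2p : 0 < N2 := N_pos hB hb0.ne' b
  set τ := N1 / N2 with hτ
  have τp : 0 < τ := div_pos N1p N2p
  set α := (1 - t) * τ ^ (-t) with hα
  set β := t * τ ^ (1 - t) with hβ
  have αp : 0 < α := by positivity
  have βp : 0 < β := by positivity
  have young : ∀ {x y : ℝ}, 0 ≤ x → 0 ≤ y → x ^ (1 - t) * y ^ t ≤ α * x + β * y := by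
    intro x y hx hy
    have am := Real.geom_mean_le_arith_mean2_weighted h1t.le t0.le
      (p₁ := τ ^ (-t) * x) (p₂ := τ ^ (1 - t) * y) (by positivity) (by positivity) (by ring)
    have e : (τ ^ (-t) * x) ^ (1 - t) * (τ ^ (1 - t) * y) ^ t = x ^ (1 - t) * y ^ t := by
      rw [Real.mul_rpow (by positivity) hx, Real.mul_rpow (by positivity) hy,
        ← Real.rpow_mul τp.le, ← Real.rpow_mul τp.le]
      have : τ ^ (-t * (1 - t)) * x ^ (1 - t) * (τ ^ ((1 - t) * t) * y ^ t)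
          = (τ ^ (-t * (1 - t)) * τ ^ ((1 - t) * t)) * (x ^ (1 - t) * y ^ t) := by ring
      rw [this, ← Real.rpow_add τp]
      have h3 : -t * (1 - t) + (1 - t) * t = 0 := by ring
      rw [h3, Real.rpow_zero, one_mul]
    rw [e] at am
    calc x ^ (1 - t) * y ^ t ≤ (1 - t) * (τ ^ (-t) * x) + t * (τ ^ (1 - t) * y) := am
      _ = α * x + β * y := by
        rw [hα, hβ]
        ring
  have hA0 : a0 ^ (1 - t) * b0 ^ t ≤ α * a0 + β * b0 := young ha0.le hb0.le
  have hA0p : 0 < α * a0 + β * b0 := by positivity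
  have hgp : 0 < a0 ^ (1 - t) * b0 ^ t := by positivity
  have hcA : ∀ i, |c i| ≤ |(α • a + β • b) i| := by
    intro i
    refine le_trans (hc i) ?_
    refine le_trans (young (abs_nonneg _) (abs_nonneg _)) (le_of_eq ?_)
    simp only [Pi.add_apply, Pi.smul_apply, smul_eq_mul]
    have := hab i
    by_cases ha : 0 ≤ a i
    · by_cases hb : 0 ≤ b i
      · rw [abs_of_nonneg ha, abs_of_nonneg hb, abs_of_nonneg (by positivity)]
      · push Not at hb
        have ha' : a i = 0 := by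
          by_contra hne
          have : 0 < a i := lt_of_le_of_ne ha (Ne.symm hne)
          nlinarith
        rw [ha']
        simp [abs_mul, abs_of_pos βp]
    · push Not at ha
      by_cases hb : b i ≤ 0
      · rw [abs_of_neg ha, abs_of_nonpos hb, abs_of_nonpos (by nlinarith)]
        ring
      · push Not at hb
        nlinarith
  have s1 := mono hB (a0 := α * a0 + β * b0) (b0 := a0 ^ (1 - t) * b0 ^ t) hA0p.ne' hgp.ne'
    (by rw [abs_of_pos hA0p, abs_of_pos hgp]; exact hA0) hcA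
  have s2 := tri hB (a0 := α * a0) (b0 := β * b0) (a := α • a) (b := β • b)
    (by positivity) (by positivity) hA0p.ne'
  rw [N_smul αp.ne', N_smul βp.ne', abs_of_pos αp, abs_of_pos βp] at s2
  have e1 : τ ^ (-t) * N1 = N1 ^ (1 - t) * N2 ^ t := by
    rw [hτ, Real.rpow_neg (by positivity), Real.div_rpow N1p.le N2p.le, Real.rpow_sub N1p]
    simp only [Real.rpow_one]
    field_simp
  have e2 : τ ^ (1 - t) * N2 = N1 ^ (1 - t) * N2 ^ t := by
    rw [hτ, Real.div_rpow N1p.le N2p.le, Real.rpow_sub N2p 1 t, Real.rpow_one]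
    field_simp
  calc N Q (a0 ^ (1 - t) * b0 ^ t) c ≤ N Q (α * a0 + β * b0) (α • a + β • b) := s1
    _ ≤ α * N1 + β * N2 := s2
    _ = (1 - t) * (τ ^ (-t) * N1) + t * (τ ^ (1 - t) * N2) := by
        rw [hα, hβ]
        ring
    _ = N1 ^ (1 - t) * N2 ^ t := by
        rw [e1, e2]
        ring

/-- The log-concavity of the volume of sections. -/
theorem sec_log_concave (hB : Body Q) {a0 b0 : ℝ} (ha0 : 0 < a0) (hb0 : 0 < b0) {a b c : Fin n → ℝ}
    {t : ℝ} (t0 : 0 < t) (t1 : t < 1) (hab : ∀ i, 0 ≤ a i * b i)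
    (hc : ∀ i, |c i| ≤ |a i| ^ (1 - t) * |b i| ^ t) :
    (volume (sec Q a0 a)).toReal ^ (1 - t) * (volume (sec Q b0 b)).toReal ^ t
      ≤ (volume (sec Q (a0 ^ (1 - t) * b0 ^ t) c)).toReal := by
  have h1t : 0 < 1 - t := by linarith
  have key := lattice hB ha0 hb0 t0 t1 hab hc
  have hgp : 0 < a0 ^ (1 - t) * b0 ^ t := by positivity
  set Ua := (volume (sec Q a0 a)).toReal with hUa
  set Ub := (volume (sec Q b0 b)).toReal with hUb
  set Uc := (volume (sec Q (a0 ^ (1 - t) * b0 ^ t) c)).toReal with hUc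
  have Uap : 0 < Ua := ENNReal.toReal_pos (sec_pos hB ha0.ne' a).ne' (sec_fin hB _ _)
  have Ubp : 0 < Ub := ENNReal.toReal_pos (sec_pos hB hb0.ne' b).ne' (sec_fin hB _ _)
  have Ucp : 0 < Uc := ENNReal.toReal_pos (sec_pos hB hgp.ne' c).ne' (sec_fin hB _ _)
  have e1 : N Q (a0 ^ (1 - t) * b0 ^ t) c = a0 ^ (1 - t) * b0 ^ t / Uc := by
    change |a0 ^ (1 - t) * b0 ^ t| / Uc = _
    rw [abs_of_pos hgp]
  have e2 : N Q a0 a = a0 / Ua := by
    change |a0| / Ua = _
    rw [abs_of_pos ha0]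
  have e3 : N Q b0 b = b0 / Ub := by
    change |b0| / Ub = _
    rw [abs_of_pos hb0]
  rw [e1, e2, e3, Real.div_rpow ha0.le Uap.le, Real.div_rpow hb0.le Ubp.le, div_mul_div_comm,
    div_le_div_iff₀ Ucp (by positivity)] at key
  have := le_of_mul_le_mul_left (a := a0 ^ (1 - t) * b0 ^ t) (b := Ua ^ (1 - t) * Ub ^ t) (c := Uc)
    (by nlinarith) hgp
  exact this

end Gauge

end Vale.Agent.Lib.P227
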