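import Vale.Agent.Lib.P227.BM1

open MeasureTheory Set
open scoped ENNReal Pointwise

namespace Vale.Agent.Lib.P227

/-- Layer-cake argument: if `h (α u + β v) ≥ min (f u) (g v)` and `f, g` have the same
supremum, then `∫ h ≥ α ∫ f + β ∫ g`. -/
lemma min_pl {f g h : ℝ → ℝ} (hf : Measurable f) (hg : Measurable g) (hh : Measurable h)
    (f0 : ∀ x, 0 ≤ f x) (g0 : ∀ x, 0 ≤ g x) (h0 : ∀ x, 0 ≤ h x)
    {S : ℝ} (hfS : IsLUB (range f) S) (hgS : IsLUB (range g) S)
    {α β : ℝ} (hα : 0 < α) (hβ : 0 < β)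
    (H : ∀ u v, min (f u) (g v) ≤ h (α * u + β * v)) :
    ENNReal.ofReal α * (∫⁻ x, ENNReal.ofReal (f x)) + ENNReal.ofReal β * (∫⁻ x, ENNReal.ofReal (g x))
      ≤ ∫⁻ x, ENNReal.ofReal (h x) := by
  have lc : ∀ {p : ℝ → ℝ}, Measurable p → (∀ x, 0 ≤ p x) →
      ∫⁻ x, ENNReal.ofReal (p x) = ∫⁻ t in Ioi (0:ℝ), volume {a : ℝ | t ≤ p a} := by
    intro p hp p0
    exact lintegral_eq_lintegral_meas_le volume (Filter.Eventually.of_forall p0) hp.aemeasurable
  have anti : ∀ p : ℝ → ℝ, Antitone (fun t : ℝ => volume {a : ℝ | t ≤ p a}) := by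
    intro p s t hst
    exact measure_mono fun a ha => le_trans hst ha
  -- restriction to `Ioo 0 S`
  have restr : ∀ {p : ℝ → ℝ}, IsLUB (range p) S →
      ∫⁻ t in Ioi (0:ℝ), volume {a : ℝ | t ≤ p a} ≤ ∫⁻ t in Ioo (0:ℝ) S, volume {a : ℝ | t ≤ p a} := by
    intro p hp
    have hsub : Ioi (0:ℝ) ⊆ (Ioo (0:ℝ) S ∪ {S}) ∪ Ioi S := by
      intro t ht
      rcases lt_trichotomy t S with h | h | h
      · exact Or.inl (Or.inl ⟨ht, h⟩)
      · exact Or.inl (Or.inr h)
      · exact Or.inr h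
    calc ∫⁻ t in Ioi (0:ℝ), volume {a : ℝ | t ≤ p a}
        ≤ ∫⁻ t in (Ioo (0:ℝ) S ∪ {S}) ∪ Ioi S, volume {a : ℝ | t ≤ p a} := lintegral_mono_set hsub
      _ ≤ (∫⁻ t in Ioo (0:ℝ) S ∪ {S}, volume {a : ℝ | t ≤ p a})
            + (∫⁻ t in Ioi S, volume {a : ℝ | t ≤ p a}) := lintegral_union_le _ _ _
      _ ≤ ((∫⁻ t in Ioo (0:ℝ) S, volume {a : ℝ | t ≤ p a})
            + (∫⁻ t in ({S} : Set ℝ), volume {a : ℝ | t ≤ p a}))
            + (∫⁻ t in Ioi S, volume {a : ℝ | t ≤ p a}) := by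
          gcongr
          exact lintegral_union_le _ _ _
      _ = ∫⁻ t in Ioo (0:ℝ) S, volume {a : ℝ | t ≤ p a} := by
          have h1 : ∫⁻ t in ({S} : Set ℝ), volume {a : ℝ | t ≤ p a} = 0 := by
            apply setLIntegral_measure_zero
            simp
          have h2 : ∫⁻ t in Ioi S, volume {a : ℝ | t ≤ p a} = 0 := by
            apply setLIntegral_eq_zero measurableSet_Ioi
            intro t ht
            have : {a : ℝ | t ≤ p a} = ∅ := by
              ext a
              constructor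
              · intro ha
                exact absurd (lt_of_le_of_lt (hp.1 ⟨a, rfl⟩) ht) (not_lt.2 ha)
              · intro ha
                exact absurd ha (by simp)
            simp [this]
          rw [h1, h2, add_zero, add_zero]
  have hlf := lc hf f0
  have hlg := lc hg g0
  have hlh := lc hh h0
  rw [hlf, hlg, hlh]
  calc ENNReal.ofReal α * (∫⁻ t in Ioi (0:ℝ), volume {a : ℝ | t ≤ f a})
        + ENNReal.ofReal β * (∫⁻ t in Ioi (0:ℝ), volume {a : ℝ | t ≤ g a})
      ≤ ENNReal.ofReal α * (∫⁻ t in Ioo (0:ℝ) S, volume {a : ℝ | t ≤ f a})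
        + ENNReal.ofReal β * (∫⁻ t in Ioo (0:ℝ) S, volume {a : ℝ | t ≤ g a}) := by
        exact add_le_add (mul_le_mul' le_rfl (restr hfS)) (mul_le_mul' le_rfl (restr hgS))
    _ = ∫⁻ t in Ioo (0:ℝ) S, (ENNReal.ofReal α * volume {a : ℝ | t ≤ f a}
          + ENNReal.ofReal β * volume {a : ℝ | t ≤ g a}) := by
        rw [lintegral_add_left ((anti f).measurable.const_mul _),
          lintegral_const_mul _ (anti f).measurable, lintegral_const_mul _ (anti g).measurable]
    _ ≤ ∫⁻ t in Ioo (0:ℝ) S, volume {a : ℝ | t ≤ h a} := by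
        apply setLIntegral_mono' measurableSet_Ioo
        intro t ht
        have hA : ({a : ℝ | t ≤ f a}).Nonempty := by
          obtain ⟨_, ⟨x, rfl⟩, hx⟩ := (lt_isLUB_iff hfS).1 ht.2
          exact ⟨x, hx.le⟩
        have hB : ({a : ℝ | t ≤ g a}).Nonempty := by
          obtain ⟨_, ⟨x, rfl⟩, hx⟩ := (lt_isLUB_iff hgS).1 ht.2
          exact ⟨x, hx.le⟩
        refine bm_measurable (measurableSet_le measurable_const hf)
          (measurableSet_le measurable_const hg) hA hB hα hβ ?_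
        intro u hu v hv
        exact le_trans (le_min hu hv) (H u v)
    _ ≤ ∫⁻ t in Ioi (0:ℝ), volume {a : ℝ | t ≤ h a} := by
        apply lintegral_mono_set
        exact Ioo_subset_Ioi_self

/-- Weighted arithmetic-geometric mean inequality in `ℝ≥0∞`. -/
lemma enn_amgm (x y : ℝ≥0∞) {t : ℝ} (h0 : 0 < t) (h1 : t < 1) :
    x ^ (1 - t) * y ^ t ≤ ENNReal.ofReal (1 - t) * x + ENNReal.ofReal t * y := by
  by_cases hx : x = ⊤
  · have : ENNReal.ofReal (1 - t) ≠ 0 := by simpa using h1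
    simp [hx, ENNReal.mul_top this]
  by_cases hy : y = ⊤
  · have : ENNReal.ofReal t ≠ 0 := by simpa using h0
    simp [hy, ENNReal.mul_top this]
  have key := Real.geom_mean_le_arith_mean2_weighted (w₁ := 1 - t) (w₂ := t)
    (p₁ := x.toReal) (p₂ := y.toReal) (by linarith) h0.le ENNReal.toReal_nonneg
    ENNReal.toReal_nonneg (by ring)
  have hx' : x = ENNReal.ofReal x.toReal := (ENNReal.ofReal_toReal hx).symm
  have hy' : y = ENNReal.ofReal y.toReal := (ENNReal.ofReal_toReal hy).symm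
  have hx0 : 0 ≤ x.toReal := ENNReal.toReal_nonneg
  have hy0 : 0 ≤ y.toReal := ENNReal.toReal_nonneg
  have h1t : 0 ≤ 1 - t := by linarith
  calc x ^ (1 - t) * y ^ t
      = ENNReal.ofReal (x.toReal ^ (1 - t) * y.toReal ^ t) := by
        rw [ENNReal.ofReal_mul (Real.rpow_nonneg hx0 _),
          ← ENNReal.ofReal_rpow_of_nonneg hx0 h1t, ← ENNReal.ofReal_rpow_of_nonneg hy0 h0.le,
          ← hx', ← hy']
    _ ≤ ENNReal.ofReal ((1 - t) * x.toReal + t * y.toReal) := ENNReal.ofReal_le_ofReal key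
    _ = ENNReal.ofReal (1 - t) * x + ENNReal.ofReal t * y := by
        rw [ENNReal.ofReal_add (mul_nonneg h1t hx0) (mul_nonneg h0.le hy0),
          ENNReal.ofReal_mul h1t, ENNReal.ofReal_mul h0.le, ← hx', ← hy']

/-- `min a b ≤ a^(1-t) b^t`. -/
lemma min_le_rpow_mul {a b t : ℝ} (ha : 0 ≤ a) (hb : 0 ≤ b) (t0 : 0 < t) (t1 : t < 1) :
    min a b ≤ a ^ (1 - t) * b ^ t := by
  have hm0 : 0 ≤ min a b := le_min ha hb
  rcases hm0.eq_or_lt with h | h
  · rw [← h]
    positivity
  · have : min a b = (min a b) ^ (1 - t) * (min a b) ^ t := by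
      rw [← Real.rpow_add h]
      simp
    have h1t : 0 ≤ 1 - t := by linarith
    calc min a b = (min a b) ^ (1 - t) * (min a b) ^ t := this
      _ ≤ a ^ (1 - t) * b ^ t :=
        mul_le_mul (Real.rpow_le_rpow hm0 (min_le_left _ _) h1t)
          (Real.rpow_le_rpow hm0 (min_le_right _ _) t0.le) (by positivity) (by positivity)

/-- One-dimensional Prekopa-Leindler for bounded real functions. -/
lemma pl_one_real {f g h : ℝ → ℝ} (hf : Measurable f) (hg : Measurable g) (hh : Measurable h)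
    (f0 : ∀ x, 0 ≤ f x) (g0 : ∀ x, 0 ≤ g x) (h0 : ∀ x, 0 ≤ h x)
    (fb : BddAbove (range f)) (gb : BddAbove (range g))
    {t : ℝ} (t0 : 0 < t) (t1 : t < 1)
    (H : ∀ u v, f u ^ (1 - t) * g v ^ t ≤ h ((1 - t) * u + t * v)) :
    (∫⁻ x, ENNReal.ofReal (f x)) ^ (1 - t) * (∫⁻ x, ENNReal.ofReal (g x)) ^ t
      ≤ ∫⁻ x, ENNReal.ofReal (h x) := by
  have h1t : 0 < 1 - t := by linarith
  set F := sSup (range f) with hF
  set G := sSup (range g) with hG
  have hFl : IsLUB (range f) F := isLUB_csSup (range_nonempty f) fb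
  have hGl : IsLUB (range g) G := isLUB_csSup (range_nonempty g) gb
  have hF0 : 0 ≤ F := le_trans (f0 0) (hFl.1 ⟨0, rfl⟩)
  have hG0 : 0 ≤ G := le_trans (g0 0) (hGl.1 ⟨0, rfl⟩)
  rcases hF0.eq_or_lt with hFz | hFp
  · have : ∀ x, f x = 0 := fun x => le_antisymm (by rw [hFz]; exact hFl.1 ⟨x, rfl⟩) (f0 x)
    simp [this, ENNReal.zero_rpow_of_pos h1t]
  rcases hG0.eq_or_lt with hGz | hGp
  · have : ∀ x, g x = 0 := fun x => le_antisymm (by rw [hGz]; exact hGl.1 ⟨x, rfl⟩) (g0 x)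
    simp [this, ENNReal.zero_rpow_of_pos t0]
  set W := F ^ (1 - t) * G ^ t with hW
  have hWp : 0 < W := by positivity
  have scale : ∀ {p : ℝ → ℝ} {c : ℝ}, 0 < c → Measurable p →
      ∫⁻ x, ENNReal.ofReal (p x / c) = ENNReal.ofReal c⁻¹ * ∫⁻ x, ENNReal.ofReal (p x) := by
    intro p c hc hp
    rw [← lintegral_const_mul _ hp.ennreal_ofReal]
    apply lintegral_congr
    intro x
    rw [← ENNReal.ofReal_mul (inv_nonneg.2 hc.le), div_eq_inv_mul]
  have lubf : IsLUB (range fun x => f x / F) 1 := by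
    constructor
    · rintro _ ⟨x, rfl⟩
      have := hFl.1 ⟨x, rfl⟩
      exact (div_le_one hFp).2 this
    · intro b hb
      by_contra hlt
      push Not at hlt
      have hb' : ∀ x, f x ≤ b * F := fun x => by
        have := hb ⟨x, rfl⟩
        simp only at this
        exact (div_le_iff₀ hFp).1 this
      have := hFl.2 (show b * F ∈ upperBounds (range f) by rintro _ ⟨x, rfl⟩; exact hb' x)
      nlinarith
  have lubg : IsLUB (range fun x => g x / G) 1 := by
    constructor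
    · rintro _ ⟨x, rfl⟩
      have := hGl.1 ⟨x, rfl⟩
      exact (div_le_one hGp).2 this
    · intro b hb
      by_contra hlt
      push Not at hlt
      have hb' : ∀ x, g x ≤ b * G := fun x => by
        have := hb ⟨x, rfl⟩
        simp only at this
        exact (div_le_iff₀ hGp).1 this
      have := hGl.2 (show b * G ∈ upperBounds (range g) by rintro _ ⟨x, rfl⟩; exact hb' x)
      nlinarith
  have key := min_pl (f := fun x => f x / F) (g := fun x => g x / G) (h := fun x => h x / W)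
    (hf.div_const F) (hg.div_const G) (hh.div_const W)
    (fun x => div_nonneg (f0 x) hFp.le) (fun x => div_nonneg (g0 x) hGp.le)
    (fun x => div_nonneg (h0 x) hWp.le) lubf lubg h1t t0 (by
      intro u v
      refine le_trans (min_le_rpow_mul (div_nonneg (f0 u) hFp.le) (div_nonneg (g0 v) hGp.le) t0 t1) ?_
      rw [Real.div_rpow (f0 u) hFp.le, Real.div_rpow (g0 v) hGp.le, div_mul_div_comm]
      exact div_le_div_of_nonneg_right (H u v) hWp.le)
  rw [scale hFp hf, scale hGp hg, scale hWp hh] at key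
  set If := ∫⁻ x, ENNReal.ofReal (f x) with hIf
  set Ig := ∫⁻ x, ENNReal.ofReal (g x) with hIg
  set Ih := ∫⁻ x, ENNReal.ofReal (h x) with hIh
  have am := enn_amgm (ENNReal.ofReal F⁻¹ * If) (ENNReal.ofReal G⁻¹ * Ig) t0 t1
  have hfac : (ENNReal.ofReal F⁻¹ * If) ^ (1 - t) * (ENNReal.ofReal G⁻¹ * Ig) ^ t
      = ENNReal.ofReal W⁻¹ * (If ^ (1 - t) * Ig ^ t) := by
    rw [ENNReal.mul_rpow_of_nonneg _ _ h1t.le, ENNReal.mul_rpow_of_nonneg _ _ t0.le,
      ENNReal.ofReal_rpow_of_pos (by positivity), ENNReal.ofReal_rpow_of_pos (by positivity)]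
    have : W⁻¹ = F⁻¹ ^ (1 - t) * G⁻¹ ^ t := by
      rw [hW, mul_inv, Real.inv_rpow hFp.le, Real.inv_rpow hGp.le]
    rw [this, ENNReal.ofReal_mul (by positivity)]
    ring
  rw [hfac] at am
  have final := le_trans am key
  have hne0 : ENNReal.ofReal W⁻¹ ≠ 0 := by
    simp only [ne_eq, ENNReal.ofReal_eq_zero, not_le]
    positivity
  have hnet : ENNReal.ofReal W⁻¹ ≠ ⊤ := ENNReal.ofReal_ne_top
  exact (ENNReal.mul_le_mul_iff_right hne0 hnet).1 final

/-- One-dimensional Prekopa-Leindler for `ℝ≥0∞`-valued functions. -/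
lemma pl_one {f g h : ℝ → ℝ≥0∞} (hf : Measurable f) (hg : Measurable g) (hh : Measurable h)
    {t : ℝ} (t0 : 0 < t) (t1 : t < 1)
    (H : ∀ u v, f u ^ (1 - t) * g v ^ t ≤ h ((1 - t) * u + t * v)) :
    (∫⁻ x, f x) ^ (1 - t) * (∫⁻ x, g x) ^ t ≤ ∫⁻ x, h x := by
  have h1t : 0 < 1 - t := by linarith
  -- truncations
  let trunc : ℕ → ℝ≥0∞ → ℝ≥0∞ := fun M x => min x (M : ℝ≥0∞)
  have trunc_ne : ∀ M x, trunc M x ≠ ⊤ := fun M x =>
    ne_of_lt (lt_of_le_of_lt (min_le_right _ _) (ENNReal.natCast_lt_top M))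
  have trunc_meas : ∀ (M : ℕ) {p : ℝ → ℝ≥0∞}, Measurable p → Measurable fun x => trunc M (p x) :=
    fun M p hp => hp.min measurable_const
  have lint_trunc : ∀ (M : ℕ) (p : ℝ → ℝ≥0∞),
      ∫⁻ x, ENNReal.ofReal (trunc M (p x)).toReal = ∫⁻ x, trunc M (p x) := by
    intro M p
    apply lintegral_congr
    intro x
    exact ENNReal.ofReal_toReal (trunc_ne M _)
  have step : ∀ M : ℕ, (∫⁻ x, trunc M (f x)) ^ (1 - t) * (∫⁻ x, trunc M (g x)) ^ t
      ≤ ∫⁻ x, h x := by
    intro M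
    have := pl_one_real (f := fun x => (trunc M (f x)).toReal) (g := fun x => (trunc M (g x)).toReal)
      (h := fun x => (trunc M (h x)).toReal)
      (trunc_meas M hf).ennreal_toReal (trunc_meas M hg).ennreal_toReal
      (trunc_meas M hh).ennreal_toReal
      (fun x => ENNReal.toReal_nonneg) (fun x => ENNReal.toReal_nonneg) (fun x => ENNReal.toReal_nonneg)
      ⟨(M : ℝ), by
        rintro _ ⟨x, rfl⟩
        have : (trunc M (f x)) ≤ (M : ℝ≥0∞) := min_le_right _ _
        simpa using ENNReal.toReal_mono (ENNReal.natCast_ne_top M) this⟩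
      ⟨(M : ℝ), by
        rintro _ ⟨x, rfl⟩
        have : (trunc M (g x)) ≤ (M : ℝ≥0∞) := min_le_right _ _
        simpa using ENNReal.toReal_mono (ENNReal.natCast_ne_top M) this⟩
      t0 t1 (by
        intro u v
        rw [ENNReal.toReal_rpow, ENNReal.toReal_rpow, ← ENNReal.toReal_mul]
        apply ENNReal.toReal_mono (trunc_ne M _)
        apply le_min
        · calc trunc M (f u) ^ (1 - t) * trunc M (g v) ^ t
              ≤ f u ^ (1 - t) * g v ^ t := by
                gcongr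
                · exact min_le_left _ _
                · exact min_le_left _ _
            _ ≤ h ((1 - t) * u + t * v) := H u v
        · calc trunc M (f u) ^ (1 - t) * trunc M (g v) ^ t
              ≤ (M : ℝ≥0∞) ^ (1 - t) * (M : ℝ≥0∞) ^ t := by
                gcongr
                · exact min_le_right _ _
                · exact min_le_right _ _
            _ = (M : ℝ≥0∞) := by
                rw [← ENNReal.rpow_add_of_nonneg _ _ h1t.le t0.le]
                simp)
    rw [lint_trunc, lint_trunc, lint_trunc] at this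
    exact le_trans this (lintegral_mono fun x => min_le_left _ _)
  have lim : ∀ {p : ℝ → ℝ≥0∞}, Measurable p → ∫⁻ x, p x = ⨆ M : ℕ, ∫⁻ x, trunc M (p x) := by
    intro p hp
    rw [← lintegral_iSup (fun M => trunc_meas M hp)]
    · apply lintegral_congr
      intro x
      simp only [trunc]
      rw [← inf_iSup_eq]
      simp [ENNReal.iSup_natCast]
    · intro M M' hMM' x
      exact inf_le_inf le_rfl (by exact_mod_cast hMM')
  have mono : ∀ (p : ℝ → ℝ≥0∞), Monotone fun M : ℕ => ∫⁻ x, trunc M (p x) := by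
    intro p M M' hMM'
    exact lintegral_mono fun x => inf_le_inf le_rfl (by exact_mod_cast hMM')
  rw [lim hf, lim hg]
  have e1 : (⨆ M : ℕ, ∫⁻ x, trunc M (f x)) ^ (1 - t) = ⨆ M : ℕ, (∫⁻ x, trunc M (f x)) ^ (1 - t) :=
    (ENNReal.orderIsoRpow (1 - t) h1t).map_iSup (fun M : ℕ => ∫⁻ x, trunc M (f x))
  have e2 : (⨆ M : ℕ, ∫⁻ x, trunc M (g x)) ^ t = ⨆ M : ℕ, (∫⁻ x, trunc M (g x)) ^ t :=
    (ENNReal.orderIsoRpow t t0).map_iSup (fun M : ℕ => ∫⁻ x, trunc M (g x))
  rw [e1, e2, ENNReal.iSup_mul]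
  refine iSup_le fun M => ?_
  rw [ENNReal.mul_iSup]
  refine iSup_le fun M' => ?_
  have hle1 : (∫⁻ x, trunc M (f x)) ^ (1 - t) ≤ (∫⁻ x, trunc (max M M') (f x)) ^ (1 - t) :=
    ENNReal.rpow_le_rpow (mono f (le_max_left _ _)) h1t.le
  have hle2 : (∫⁻ x, trunc M' (g x)) ^ t ≤ (∫⁻ x, trunc (max M M') (g x)) ^ t :=
    ENNReal.rpow_le_rpow (mono g (le_max_right _ _)) t0.le
  exact le_trans (mul_le_mul' hle1 hle2) (step (max M M'))

/-- Prekopa-Leindler on `Fin d → ℝ`. -/
theorem prekopa_leindler (d : ℕ) {f g h : (Fin d → ℝ) → ℝ≥0∞}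
    (hf : Measurable f) (hg : Measurable g) (hh : Measurable h)
    {t : ℝ} (t0 : 0 < t) (t1 : t < 1)
    (H : ∀ x y, f x ^ (1 - t) * g y ^ t ≤ h ((1 - t) • x + t • y)) :
    (∫⁻ x, f x) ^ (1 - t) * (∫⁻ x, g x) ^ t ≤ ∫⁻ x, h x := by
  induction d with
  | zero =>
    have hv : (volume : Measure (Fin 0 → ℝ)) univ = 1 := by
      rw [volume_pi, Measure.pi_univ]
      simp
    have eq : ∀ p : (Fin 0 → ℝ) → ℝ≥0∞, ∫⁻ x, p x = p 0 := by
      intro p
      rw [lintegral_unique, hv, mul_one]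
      exact congrArg p (Subsingleton.elim _ _)
    rw [eq f, eq g, eq h]
    have := H 0 0
    simpa using this
  | succ d ih =>
    have mp := volume_preserving_piFinSuccAbove (fun _ : Fin (d + 1) => ℝ) 0
    have mps := mp.symm
    have red : ∀ {p : (Fin (d + 1) → ℝ) → ℝ≥0∞}, Measurable p →
        ∫⁻ x, p x = ∫⁻ s : ℝ, ∫⁻ x : Fin d → ℝ, p (Fin.insertNth 0 s x) := by
      intro p hp
      have h1 := mps.lintegral_comp hp
      rw [← h1, Measure.volume_eq_prod, lintegral_prod]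
      · rfl
      · exact (hp.comp mps.measurable).aemeasurable
    have meas : ∀ {p : (Fin (d + 1) → ℝ) → ℝ≥0∞}, Measurable p →
        Measurable fun s : ℝ => ∫⁻ x : Fin d → ℝ, p (Fin.insertNth 0 s x) := by
      intro p hp
      exact (hp.comp mps.measurable).lintegral_prod_right'
    have fib : ∀ {p : (Fin (d + 1) → ℝ) → ℝ≥0∞}, Measurable p → ∀ s : ℝ,
        Measurable fun x : Fin d → ℝ => p (Fin.insertNth 0 s x) := by
      intro p hp s
      exact (hp.comp mps.measurable).comp (measurable_const.prodMk measurable_id)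
    rw [red hf, red hg, red hh]
    refine pl_one (meas hf) (meas hg) (meas hh) t0 t1 ?_
    intro u v
    refine ih (fib hf u) (fib hg v) (fib hh _) ?_
    intro x y
    have : (1 - t) • (Fin.insertNth 0 u x : Fin (d + 1) → ℝ) + t • (Fin.insertNth 0 v y : Fin (d + 1) → ℝ)
        = Fin.insertNth 0 ((1 - t) * u + t * v) ((1 - t) • x + t • y) := by
      ext i
      refine Fin.cases ?_ (fun j => ?_) i
      · simp
      · simp
    rw [← this]
    exact H _ _

end Vale.Agent.Lib.P227
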