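import Vale.Agent.Lib.P227.LogMink2

open MeasureTheory Set
open scoped Pointwise ENNReal

namespace Vale.Agent.Lib.P227

noncomputable section

/-- Rotation by a quarter turn. -/
def rot (a : EuclideanSpace ℝ (Fin 2)) : EuclideanSpace ℝ (Fin 2) := !₂[-(a 1), a 0]

@[simp] lemma rot_zero_coord (a : EuclideanSpace ℝ (Fin 2)) : rot a 0 = -(a 1) := by simp [rot]
@[simp] lemma rot_one_coord (a : EuclideanSpace ℝ (Fin 2)) : rot a 1 = a 0 := by simp [rot]

lemma inner_two (x y : EuclideanSpace ℝ (Fin 2)) :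
    inner ℝ x y = x 0 * y 0 + x 1 * y 1 := by
  simp [PiLp.inner_apply, Fin.sum_univ_two]
  ring

lemma ext_two {x y : EuclideanSpace ℝ (Fin 2)} (h0 : x 0 = y 0) (h1 : x 1 = y 1) : x = y := by
  ext i
  fin_cases i
  · exact h0
  · exact h1

lemma inner_self_rot (a : EuclideanSpace ℝ (Fin 2)) : inner ℝ a (rot a) = 0 := by
  rw [inner_two]; simp; ring

lemma rot_rot (a : EuclideanSpace ℝ (Fin 2)) : rot (rot a) = -a := by
  apply ext_two <;> simp

lemma rot_smul (c : ℝ) (a : EuclideanSpace ℝ (Fin 2)) : rot (c • a) = c • rot a := by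
  apply ext_two <;> simp

lemma inner_rot_rot (a b : EuclideanSpace ℝ (Fin 2)) : inner ℝ (rot a) (rot b) = inner ℝ a b := by
  rw [inner_two, inner_two]; simp; ring

lemma inner_rot_comm (a b : EuclideanSpace ℝ (Fin 2)) : inner ℝ a (rot b) = - inner ℝ b (rot a) := by
  rw [inner_two, inner_two]; simp; ring

/-- Fubini along the first coordinate in the plane. -/
lemma vol_plane {X : Set (EuclideanSpace ℝ (Fin 2))} (hX : MeasurableSet X) :
    volume X = ∫⁻ τ : ℝ, volume {s : ℝ | (!₂[s, τ] : EuclideanSpace ℝ (Fin 2)) ∈ X} := by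
  have mp1 := PiLp.volume_preserving_toLp (Fin 2)
  have mp2 := (volume_preserving_finTwoArrow ℝ).symm
  have mp := mp1.comp mp2
  have hpre := mp.measure_preimage hX.nullMeasurableSet
  rw [← hpre, Measure.volume_eq_prod, Measure.prod_apply_symm (mp.measurable hX)]
  apply lintegral_congr
  intro τ
  congr 1

/-- The set `A + [-g, g]`. -/
def thick (A : Set (EuclideanSpace ℝ (Fin 2))) (g : EuclideanSpace ℝ (Fin 2)) :
    Set (EuclideanSpace ℝ (Fin 2)) :=
  {x | ∃ y ∈ A, ∃ r ∈ Icc (-1 : ℝ) 1, x = y + r • g}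

lemma thick_compact {A : Set (EuclideanSpace ℝ (Fin 2))} (hA : IsCompact A)
    (g : EuclideanSpace ℝ (Fin 2)) : IsCompact (thick A g) := by
  have : thick A g = (fun p : EuclideanSpace ℝ (Fin 2) × ℝ => p.1 + p.2 • g) '' (A ×ˢ Icc (-1 : ℝ) 1) := by
    ext x
    constructor
    · rintro ⟨y, hy, r, hr, rfl⟩
      exact ⟨(y, r), ⟨hy, hr⟩, rfl⟩
    · rintro ⟨⟨y, r⟩, ⟨hy, hr⟩, rfl⟩
      exact ⟨y, hy, r, hr, rfl⟩
  rw [this]
  apply (hA.prod isCompact_Icc).image
  fun_prop

lemma thick_convex {A : Set (EuclideanSpace ℝ (Fin 2))} (hA : Convex ℝ A)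
    (g : EuclideanSpace ℝ (Fin 2)) : Convex ℝ (thick A g) := by
  rintro x ⟨y, hy, r, hr, rfl⟩ x' ⟨y', hy', r', hr', rfl⟩ a b ha hb hab
  refine ⟨a • y + b • y', hA hy hy' ha hb hab, a * r + b * r', ?_, ?_⟩
  · exact (convex_Icc (-1 : ℝ) 1) hr hr' ha hb hab
  · simp only [smul_add, add_smul, mul_smul]
    abel

lemma thick_symm {A : Set (EuclideanSpace ℝ (Fin 2))} (hA : ∀ x ∈ A, -x ∈ A)
    (g : EuclideanSpace ℝ (Fin 2)) : ∀ x ∈ thick A g, -x ∈ thick A g := by
  rintro x ⟨y, hy, r, hr, rfl⟩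
  refine ⟨-y, hA y hy, -r, ⟨by linarith [hr.2], by linarith [hr.1]⟩, ?_⟩
  simp only [neg_add, neg_smul]

/-- Volume of a compact convex set in the line after adding an interval. -/
lemma vol_line_thick {S : Set ℝ} (hc : IsCompact S) (hv : Convex ℝ S) (hne : S.Nonempty) :
    volume {s : ℝ | ∃ y ∈ S, ∃ r ∈ Icc (-1 : ℝ) 1, s = y + r} = volume S + 2 := by
  have hconn : IsConnected S := ⟨hne, hv.isPreconnected⟩
  have hS := eq_Icc_of_connected_compact hconn hc
  set p := sInf S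
  set q := sSup S
  have hpq : p ≤ q := by
    rw [hS] at hne
    exact nonempty_Icc.mp hne
  have h1 : {s : ℝ | ∃ y ∈ S, ∃ r ∈ Icc (-1 : ℝ) 1, s = y + r} = Icc (p - 1) (q + 1) := by
    ext s
    rw [hS]
    constructor
    · rintro ⟨y, hy, r, hr, rfl⟩
      exact ⟨by linarith [hy.1, hr.1], by linarith [hy.2, hr.2]⟩
    · rintro ⟨h1, h2⟩
      by_cases hs : s ≤ p
      · exact ⟨p, ⟨le_refl _, hpq⟩, s - p, ⟨by linarith, by linarith⟩, by ring⟩
      · by_cases hs' : q ≤ s
        · exact ⟨q, ⟨hpq, le_refl _⟩, s - q, ⟨by linarith, by linarith⟩, by ring⟩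
        · exact ⟨s, ⟨(not_le.mp hs).le, (not_le.mp hs').le⟩, 0, ⟨by norm_num, by norm_num⟩, by ring⟩
  rw [h1, hS, Real.volume_Icc, Real.volume_Icc]
  rw [show (2 : ℝ≥0∞) = ENNReal.ofReal 2 by norm_num, ← ENNReal.ofReal_add (by linarith) (by norm_num)]
  congr 1
  ring

/-- The first basis vector of the plane. -/
def e0 : EuclideanSpace ℝ (Fin 2) := !₂[1, 0]

/-- The second basis vector of the plane. -/
def e1 : EuclideanSpace ℝ (Fin 2) := !₂[0, 1]

lemma inner_e1 (x : EuclideanSpace ℝ (Fin 2)) : inner ℝ x e1 = x 1 := by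
  rw [inner_two]; simp [e1]

lemma rot_e0 : rot e0 = e1 := by
  apply ext_two <;> simp [e0, e1]

lemma fiber_compact {A : Set (EuclideanSpace ℝ (Fin 2))} (hA : IsCompact A) (τ : ℝ) :
    IsCompact {s : ℝ | (!₂[s, τ] : EuclideanSpace ℝ (Fin 2)) ∈ A} := by
  have hcont : Continuous fun s : ℝ => (!₂[s, τ] : EuclideanSpace ℝ (Fin 2)) := by
    apply (PiLp.continuous_toLp 2 _).comp
    apply continuous_pi
    intro i
    fin_cases i
    · simpa using continuous_id'
    · simpa using continuous_const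
  apply Metric.isCompact_of_isClosed_isBounded
  · exact hA.isClosed.preimage hcont
  · obtain ⟨R, hR⟩ := hA.isBounded.exists_norm_le
    rw [isBounded_iff_forall_norm_le]
    refine ⟨R, fun s hs => ?_⟩
    have h1 := hR _ hs
    have h2 : ‖s‖ ≤ ‖(!₂[s, τ] : EuclideanSpace ℝ (Fin 2))‖ := by
      simpa using PiLp.norm_apply_le (!₂[s, τ] : EuclideanSpace ℝ (Fin 2)) 0
    exact h2.trans h1

lemma fiber_convex {A : Set (EuclideanSpace ℝ (Fin 2))} (hA : Convex ℝ A) (τ : ℝ) :
    Convex ℝ {s : ℝ | (!₂[s, τ] : EuclideanSpace ℝ (Fin 2)) ∈ A} := by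
  intro s hs s' hs' a b ha hb hab
  have := hA hs hs' ha hb hab
  have heq : a • (!₂[s, τ] : EuclideanSpace ℝ (Fin 2)) + b • (!₂[s', τ] : EuclideanSpace ℝ (Fin 2))
      = !₂[a • s + b • s', τ] := by
    apply ext_two
    · simp
    · simp only [PiLp.add_apply, PiLp.smul_apply]
      simp
      rw [← add_mul, hab, one_mul]
  rw [heq] at this
  exact this

lemma fiber_thick (A : Set (EuclideanSpace ℝ (Fin 2))) (τ : ℝ) :
    {s : ℝ | (!₂[s, τ] : EuclideanSpace ℝ (Fin 2)) ∈ thick A e0}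
      = {s : ℝ | ∃ y ∈ {s : ℝ | (!₂[s, τ] : EuclideanSpace ℝ (Fin 2)) ∈ A},
          ∃ r ∈ Icc (-1 : ℝ) 1, s = y + r} := by
  ext s
  constructor
  · rintro ⟨y, hy, r, hr, h⟩
    refine ⟨y 0, ?_, r, hr, ?_⟩
    · have h1 : y 1 = τ := by
        have := congrFun (congrArg WithLp.ofLp h) 1
        simp [e0] at this
        exact this.symm
      have h2 : (!₂[y 0, τ] : EuclideanSpace ℝ (Fin 2)) = y := by
        apply ext_two
        · simp
        · simp [h1]
      change (!₂[y 0, τ] : EuclideanSpace ℝ (Fin 2)) ∈ A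
      rw [h2]
      exact hy
    · have := congrFun (congrArg WithLp.ofLp h) 0
      simp [e0] at this
      linarith
  · rintro ⟨y, hy, r, hr, rfl⟩
    refine ⟨!₂[y, τ], hy, r, hr, ?_⟩
    apply ext_two <;> simp [e0]

lemma fiber_nonempty_iff {A : Set (EuclideanSpace ℝ (Fin 2))} (hc : IsCompact A) (hv : Convex ℝ A)
    (hs : ∀ x ∈ A, -x ∈ A) (hne : A.Nonempty) (τ : ℝ) :
    ({s : ℝ | (!₂[s, τ] : EuclideanSpace ℝ (Fin 2)) ∈ A}).Nonempty
      ↔ τ ∈ Icc (-supportFn A e1) (supportFn A e1) := by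
  obtain ⟨y0, hy0, hmax⟩ := exists_max hc hne e1
  rw [supportFn_eq_of_max hy0 hmax, inner_e1]
  simp only [inner_e1] at hmax
  constructor
  · rintro ⟨s, hs'⟩
    have h1 := hmax _ hs'
    have h2 := hmax _ (hs _ hs')
    simp at h1 h2
    exact ⟨by linarith, h1⟩
  · rintro ⟨h1, h2⟩
    rcases (show 0 ≤ y0 1 by linarith).eq_or_lt with h0 | h0
    · have hτ : τ = y0 1 := by linarith
      refine ⟨y0 0, ?_⟩
      have : (!₂[y0 0, τ] : EuclideanSpace ℝ (Fin 2)) = y0 := by
        apply ext_two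
        · simp
        · simp [hτ]
      change (!₂[y0 0, τ] : EuclideanSpace ℝ (Fin 2)) ∈ A
      rw [this]
      exact hy0
    · set ρ := τ / y0 1 with hρ
      have hρ1 : |ρ| ≤ 1 := by
        rw [hρ, abs_div, abs_of_pos h0, div_le_one h0, abs_le]
        exact ⟨by linarith, h2⟩
      have hmem : ρ • y0 ∈ A := by
        have hρ' := abs_le.mp hρ1
        have h3 := hv hy0 (hs _ hy0) (a := (1 + ρ) / 2) (b := (1 - ρ) / 2)
          (by linarith) (by linarith) (by ring)
        have h4 : ((1 + ρ) / 2) • y0 + ((1 - ρ) / 2) • (-y0) = ρ • y0 := by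
          rw [smul_neg, ← sub_eq_add_neg, ← sub_smul]
          congr 1
          ring
        rwa [h4] at h3
      refine ⟨ρ * y0 0, ?_⟩
      have : (!₂[ρ * y0 0, τ] : EuclideanSpace ℝ (Fin 2)) = ρ • y0 := by
        apply ext_two
        · simp
        · simp [hρ, h0.ne']
      change (!₂[ρ * y0 0, τ] : EuclideanSpace ℝ (Fin 2)) ∈ A
      rw [this]
      exact hmem

/-- Steiner formula for adding a coordinate segment. -/
lemma steiner_base {A : Set (EuclideanSpace ℝ (Fin 2))} (hc : IsCompact A) (hv : Convex ℝ A)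
    (hs : ∀ x ∈ A, -x ∈ A) (hne : A.Nonempty) :
    volume (thick A e0) = volume A + ENNReal.ofReal (4 * supportFn A e1) := by
  have hh : 0 ≤ supportFn A e1 := by
    obtain ⟨y0, hy0, hmax⟩ := exists_max hc hne e1
    rw [supportFn_eq_of_max hy0 hmax]
    have h1 := hmax _ (hs _ hy0)
    rw [inner_neg_left] at h1
    linarith
  rw [vol_plane (thick_compact hc e0).measurableSet, vol_plane hc.measurableSet]
  have key : ∀ τ : ℝ, volume {s : ℝ | (!₂[s, τ] : EuclideanSpace ℝ (Fin 2)) ∈ thick A e0}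
      = volume {s : ℝ | (!₂[s, τ] : EuclideanSpace ℝ (Fin 2)) ∈ A}
        + (Icc (-supportFn A e1) (supportFn A e1)).indicator (fun _ => (2 : ℝ≥0∞)) τ := by
    intro τ
    rw [fiber_thick]
    by_cases hτ : τ ∈ Icc (-supportFn A e1) (supportFn A e1)
    · rw [indicator_of_mem hτ]
      exact vol_line_thick (fiber_compact hc τ) (fiber_convex hv τ)
        ((fiber_nonempty_iff hc hv hs hne τ).mpr hτ)
    · rw [indicator_of_notMem hτ, add_zero]
      have hem : {s : ℝ | (!₂[s, τ] : EuclideanSpace ℝ (Fin 2)) ∈ A} = ∅ := by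
        rw [← not_nonempty_iff_eq_empty]
        exact fun h => hτ ((fiber_nonempty_iff hc hv hs hne τ).mp h)
      have hem2 : {s : ℝ | ∃ y ∈ {s : ℝ | (!₂[s, τ] : EuclideanSpace ℝ (Fin 2)) ∈ A},
          ∃ r ∈ Icc (-1 : ℝ) 1, s = y + r} = ∅ := by
        rw [hem]
        simp
      rw [hem2, hem]
  simp only [key]
  rw [lintegral_add_right _ (measurable_const.indicator measurableSet_Icc),
    lintegral_indicator_const measurableSet_Icc, Real.volume_Icc]
  congr 1
  rw [show (2 : ℝ≥0∞) = ENNReal.ofReal 2 by norm_num, ← ENNReal.ofReal_mul (by norm_num)]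
  congr 1
  ring

end

end Vale.Agent.Lib.P227
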