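import Vale.Agent.Lib.P227.Plane1

open MeasureTheory Set
open scoped Pointwise ENNReal

namespace Vale.Agent.Lib.P227

noncomputable section

set_option linter.deprecated false

/-- The shear sending `e0` to `g` with unit determinant. -/
def shearMat (g : EuclideanSpace ℝ (Fin 2)) : Matrix (Fin 2) (Fin 2) ℝ :=
  !![g 0, -(g 1) / (g 0 ^ 2 + g 1 ^ 2); g 1, g 0 / (g 0 ^ 2 + g 1 ^ 2)]

/-- The linear map with matrix `shearMat g`. -/
def shear (g : EuclideanSpace ℝ (Fin 2)) :
    EuclideanSpace ℝ (Fin 2) →ₗ[ℝ] EuclideanSpace ℝ (Fin 2) :=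
  Matrix.toEuclideanLin (shearMat g)

lemma shear_apply0 (g x : EuclideanSpace ℝ (Fin 2)) :
    shear g x 0 = g 0 * x 0 + -(g 1) / (g 0 ^ 2 + g 1 ^ 2) * x 1 := by
  simp [shear, shearMat, Matrix.toEuclideanLin_apply, dotProduct, Fin.sum_univ_two]

lemma shear_apply1 (g x : EuclideanSpace ℝ (Fin 2)) :
    shear g x 1 = g 1 * x 0 + g 0 / (g 0 ^ 2 + g 1 ^ 2) * x 1 := by
  simp [shear, shearMat, Matrix.toEuclideanLin_apply, dotProduct, Fin.sum_univ_two]

lemma denom_ne {g : EuclideanSpace ℝ (Fin 2)} (hg : g ≠ 0) : g 0 ^ 2 + g 1 ^ 2 ≠ 0 := by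
  intro h
  apply hg
  have h1 : g 0 = 0 := by nlinarith [sq_nonneg (g 0), sq_nonneg (g 1)]
  have h2 : g 1 = 0 := by nlinarith [sq_nonneg (g 0), sq_nonneg (g 1)]
  apply ext_two <;> simp [h1, h2]

lemma shear_det {g : EuclideanSpace ℝ (Fin 2)} (hg : g ≠ 0) : LinearMap.det (shear g) = 1 := by
  have h0 := denom_ne hg
  rw [shear, Matrix.toEuclideanLin_eq_toLin, LinearMap.det_toLin, shearMat, Matrix.det_fin_two_of]
  field_simp
  ring

/-- The inverse of the shear. -/
def shearInv (g x : EuclideanSpace ℝ (Fin 2)) : EuclideanSpace ℝ (Fin 2) :=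
  !₂[(x 0 * g 0 + x 1 * g 1) / (g 0 ^ 2 + g 1 ^ 2), -(x 0 * g 1) + x 1 * g 0]

lemma shear_shearInv {g : EuclideanSpace ℝ (Fin 2)} (hg : g ≠ 0) (x : EuclideanSpace ℝ (Fin 2)) :
    shear g (shearInv g x) = x := by
  have h0 := denom_ne hg
  apply ext_two
  · rw [shear_apply0]
    simp only [shearInv]
    simp
    field_simp
    ring
  · rw [shear_apply1]
    simp only [shearInv]
    simp
    field_simp
    ring

lemma shear_e0 {g : EuclideanSpace ℝ (Fin 2)} : shear g e0 = g := by
  apply ext_two
  · rw [shear_apply0]; simp [e0]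
  · rw [shear_apply1]; simp [e0]

lemma inner_shear_rot {g : EuclideanSpace ℝ (Fin 2)} (hg : g ≠ 0) (y : EuclideanSpace ℝ (Fin 2)) :
    inner ℝ (shear g y) (rot g) = inner ℝ y e1 := by
  have h0 := denom_ne hg
  rw [inner_two, shear_apply0, shear_apply1, inner_e1]
  simp only [rot_zero_coord, rot_one_coord]
  field_simp
  ring

lemma volume_shear_image {g : EuclideanSpace ℝ (Fin 2)} (hg : g ≠ 0)
    (X : Set (EuclideanSpace ℝ (Fin 2))) : volume (shear g '' X) = volume X := by
  rw [Measure.addHaar_image_linearMap, shear_det hg]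
  simp

/-- **Steiner formula**: the area of `A + [-g, g]` for a compact convex symmetric set `A`. -/
lemma steiner {A : Set (EuclideanSpace ℝ (Fin 2))} (hc : IsCompact A) (hv : Convex ℝ A)
    (hs : ∀ x ∈ A, -x ∈ A) (hne : A.Nonempty) (g : EuclideanSpace ℝ (Fin 2)) :
    volume (thick A g) = volume A + ENNReal.ofReal (4 * supportFn A (rot g)) := by
  by_cases hg : g = 0
  · subst hg
    have h1 : thick A 0 = A := by
      ext x
      constructor
      · rintro ⟨y, hy, r, _, rfl⟩
        simpa using hy
      · intro hx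
        exact ⟨x, hx, 0, ⟨by norm_num, by norm_num⟩, by simp⟩
    have h2 : rot (0 : EuclideanSpace ℝ (Fin 2)) = 0 := by
      apply ext_two <;> simp
    obtain ⟨x, hx⟩ := hne
    rw [h1, h2, supportFn_zero hx]
    simp
  have hcont : Continuous (shear g) := LinearMap.continuous_of_finiteDimensional _
  set A0 := shear g ⁻¹' A with hA0
  have himg : shear g '' A0 = A := by
    rw [hA0, image_preimage_eq_iff]
    intro x _
    exact ⟨shearInv g x, shear_shearInv hg x⟩
  have hinj : Function.Injective (shear g) := by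
    have hdet : IsUnit (LinearMap.det (shear g)) := by
      rw [shear_det hg]
      exact isUnit_one
    exact (LinearMap.isUnit_iff_ker_eq_bot _).mp ((LinearMap.isUnit_iff_isUnit_det _).mpr hdet)
      |> LinearMap.ker_eq_bot.mp
  have hc0 : IsCompact A0 := by
    have hclosed : IsClosed A0 := hc.isClosed.preimage hcont
    have hcont2 : Continuous (shearInv g) := by
      unfold shearInv
      apply (PiLp.continuous_toLp 2 _).comp
      apply continuous_pi
      intro i
      fin_cases i
      · simp
        fun_prop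
      · simp
        fun_prop
    have hsub : A0 = shearInv g '' A := by
      ext y
      constructor
      · intro hy
        refine ⟨shear g y, hy, ?_⟩
        apply hinj
        rw [shear_shearInv hg]
      · rintro ⟨x, hx, rfl⟩
        change shear g (shearInv g x) ∈ A
        rw [shear_shearInv hg]
        exact hx
    rw [hsub]
    exact hc.image hcont2
  have hv0 : Convex ℝ A0 := hv.linear_preimage (shear g)
  have hs0 : ∀ x ∈ A0, -x ∈ A0 := by
    intro x hx
    change shear g (-x) ∈ A
    rw [map_neg]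
    exact hs _ hx
  have hne0 : A0.Nonempty := by
    obtain ⟨x, hx⟩ := hne
    refine ⟨shearInv g x, ?_⟩
    change shear g (shearInv g x) ∈ A
    rw [shear_shearInv hg]
    exact hx
  have hthick : thick A g = shear g '' thick A0 e0 := by
    ext x
    constructor
    · rintro ⟨y, hy, r, hr, rfl⟩
      refine ⟨shearInv g y + r • e0, ⟨shearInv g y, ?_, r, hr, rfl⟩, ?_⟩
      · change shear g (shearInv g y) ∈ A
        rw [shear_shearInv hg]
        exact hy
      · rw [map_add, map_smul, shear_e0, shear_shearInv hg]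
    · rintro ⟨_, ⟨y, hy, r, hr, rfl⟩, rfl⟩
      refine ⟨shear g y, hy, r, hr, ?_⟩
      rw [map_add, map_smul, shear_e0]
  have hsup : supportFn A (rot g) = supportFn A0 e1 := by
    unfold supportFn
    congr 1
    ext c
    constructor
    · rintro ⟨x, hx, rfl⟩
      refine ⟨shearInv g x, ?_, ?_⟩
      · change shear g (shearInv g x) ∈ A
        rw [shear_shearInv hg]
        exact hx
      · have := inner_shear_rot hg (shearInv g x)
        rw [shear_shearInv hg] at this
        exact this.symm
    · rintro ⟨y, hy, rfl⟩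
      exact ⟨shear g y, hy, inner_shear_rot hg y⟩
  rw [hthick, volume_shear_image hg, hsup, steiner_base hc0 hv0 hs0 hne0, hA0]
  congr 1
  conv_rhs => rw [← himg]
  rw [volume_shear_image hg]

/-- The support function of `A + [-g, g]`. -/
lemma supportFn_thick {A : Set (EuclideanSpace ℝ (Fin 2))} (hc : IsCompact A) (hne : A.Nonempty)
    (g u : EuclideanSpace ℝ (Fin 2)) :
    supportFn (thick A g) u = supportFn A u + |inner ℝ g u| := by
  obtain ⟨y, hy, hmax⟩ := exists_max hc hne u
  rw [supportFn_eq_of_max hy hmax]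
  set σ : ℝ := if 0 ≤ inner ℝ g u then 1 else -1 with hσ
  have hσ1 : σ ∈ Icc (-1 : ℝ) 1 := by
    simp only [hσ]
    split_ifs <;> constructor <;> norm_num
  have hσ2 : σ * inner ℝ g u = |inner ℝ g u| := by
    simp only [hσ]
    split_ifs with h
    · rw [abs_of_nonneg h, one_mul]
    · rw [abs_of_neg (not_le.mp h)]
      ring
  have : inner ℝ y u + |inner ℝ g u| = inner ℝ (y + σ • g) u := by
    rw [inner_add_left, real_inner_smul_left, hσ2]
  rw [this]
  refine supportFn_eq_of_max (show y + σ • g ∈ thick A g from ⟨y, hy, σ, hσ1, rfl⟩) ?_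
  rintro _ ⟨y', hy', r, hr, rfl⟩
  rw [inner_add_left, real_inner_smul_left, inner_add_left, real_inner_smul_left, hσ2]
  have h1 := hmax y' hy'
  have h2 : r * inner ℝ g u ≤ |inner ℝ g u| := by
    calc r * inner ℝ g u ≤ |r * inner ℝ g u| := le_abs_self _
      _ = |r| * |inner ℝ g u| := abs_mul _ _
      _ ≤ 1 * |inner ℝ g u| := by
          gcongr
          exact abs_le.mpr hr
      _ = _ := one_mul _
  linarith

end

end Vale.Agent.Lib.P227
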