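import Vale.Agent.Lib.P227.Plane2

open MeasureTheory Set
open scoped Pointwise ENNReal

namespace Vale.Agent.Lib.P227

noncomputable section

set_option linter.unusedSectionVars false

variable {ι : Type*} [Fintype ι] [DecidableEq ι]

/-- The Minkowski sum of `L` with the segments `[-g i, g i]`, `i ∈ T`. -/
def sumZ (L : Set (EuclideanSpace ℝ (Fin 2))) (g : ι → EuclideanSpace ℝ (Fin 2)) (T : Finset ι) :
    Set (EuclideanSpace ℝ (Fin 2)) :=
  {x | ∃ y ∈ L, ∃ r : ι → ℝ, (∀ i, |r i| ≤ 1) ∧ x = y + ∑ i ∈ T, r i • g i}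

lemma sumZ_empty (L : Set (EuclideanSpace ℝ (Fin 2))) (g : ι → EuclideanSpace ℝ (Fin 2)) :
    sumZ L g ∅ = L := by
  ext x
  constructor
  · rintro ⟨y, hy, r, _, rfl⟩
    simpa using hy
  · intro hx
    exact ⟨x, hx, fun _ => 0, fun _ => by simp, by simp⟩

lemma sumZ_insert (L : Set (EuclideanSpace ℝ (Fin 2))) (g : ι → EuclideanSpace ℝ (Fin 2))
    {T : Finset ι} {j : ι} (hj : j ∉ T) :
    sumZ L g (insert j T) = thick (sumZ L g T) (g j) := by
  ext x
  constructor
  · rintro ⟨y, hy, r, hr, rfl⟩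
    refine ⟨y + ∑ i ∈ T, r i • g i, ⟨y, hy, r, hr, rfl⟩, r j, abs_le.mp (hr j), ?_⟩
    rw [Finset.sum_insert hj]
    abel
  · rintro ⟨_, ⟨y, hy, r, hr, rfl⟩, ρ, hρ, rfl⟩
    refine ⟨y, hy, Function.update r j ρ, ?_, ?_⟩
    · intro i
      by_cases h : i = j
      · subst h
        simpa using abs_le.mpr hρ
      · simpa [Function.update_of_ne h] using hr i
    · rw [Finset.sum_insert hj, Function.update_self]
      have : ∑ i ∈ T, Function.update r j ρ i • g i = ∑ i ∈ T, r i • g i := by
        apply Finset.sum_congr rfl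
        intro i hi
        have : i ≠ j := fun h => hj (h ▸ hi)
        rw [Function.update_of_ne this]
      rw [this]
      abel

/-- A bundle of the properties preserved by adding segments. -/
structure GoodSet (A : Set (EuclideanSpace ℝ (Fin 2))) : Prop where
  compact : IsCompact A
  convex : Convex ℝ A
  symm : ∀ x ∈ A, -x ∈ A
  nonempty : A.Nonempty

lemma GoodSet.thick {A : Set (EuclideanSpace ℝ (Fin 2))} (hA : GoodSet A)
    (g : EuclideanSpace ℝ (Fin 2)) : GoodSet (thick A g) where
  compact := thick_compact hA.compact g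
  convex := thick_convex hA.convex g
  symm := thick_symm hA.symm g
  nonempty := by
    obtain ⟨x, hx⟩ := hA.nonempty
    exact ⟨x, x, hx, 0, ⟨by norm_num, by norm_num⟩, by simp⟩

lemma GoodSet.sumZ {L : Set (EuclideanSpace ℝ (Fin 2))} (hL : GoodSet L)
    (g : ι → EuclideanSpace ℝ (Fin 2)) (T : Finset ι) : GoodSet (sumZ L g T) := by
  induction T using Finset.induction_on with
  | empty => rwa [sumZ_empty]
  | insert j T hj ih =>
    rw [sumZ_insert L g hj]
    exact ih.thick _

lemma supportFn_sumZ {L : Set (EuclideanSpace ℝ (Fin 2))} (hL : GoodSet L)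
    (g : ι → EuclideanSpace ℝ (Fin 2)) (T : Finset ι) (u : EuclideanSpace ℝ (Fin 2)) :
    supportFn (sumZ L g T) u = supportFn L u + ∑ i ∈ T, |inner ℝ (g i) u| := by
  induction T using Finset.induction_on with
  | empty => simp [sumZ_empty]
  | insert j T hj ih =>
    have hg := hL.sumZ g T
    rw [sumZ_insert L g hj, supportFn_thick hg.compact hg.nonempty, ih, Finset.sum_insert hj]
    ring

lemma GoodSet.support_nonneg {A : Set (EuclideanSpace ℝ (Fin 2))} (hA : GoodSet A)
    (u : EuclideanSpace ℝ (Fin 2)) : 0 ≤ supportFn A u := by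
  obtain ⟨y0, hy0, hmax⟩ := exists_max hA.compact hA.nonempty u
  rw [supportFn_eq_of_max hy0 hmax]
  have h1 := hmax _ (hA.symm _ hy0)
  rw [inner_neg_left] at h1
  linarith

/-- The quadratic pair sum of generators. -/
def pairSum (g : ι → EuclideanSpace ℝ (Fin 2)) (T : Finset ι) : ℝ :=
  ∑ i ∈ T, ∑ k ∈ T, |inner ℝ (g i) (rot (g k))|

lemma pairSum_nonneg (g : ι → EuclideanSpace ℝ (Fin 2)) (T : Finset ι) : 0 ≤ pairSum g T :=
  Finset.sum_nonneg fun _ _ => Finset.sum_nonneg fun _ _ => abs_nonneg _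

lemma pairSum_insert (g : ι → EuclideanSpace ℝ (Fin 2)) {T : Finset ι} {j : ι} (hj : j ∉ T) :
    pairSum g (insert j T) = pairSum g T + 2 * ∑ i ∈ T, |inner ℝ (g i) (rot (g j))| := by
  unfold pairSum
  rw [Finset.sum_insert hj, Finset.sum_insert hj, inner_self_rot, abs_zero, zero_add]
  have h1 : ∀ i ∈ T, ∑ k ∈ insert j T, |inner ℝ (g i) (rot (g k))|
      = |inner ℝ (g i) (rot (g j))| + ∑ k ∈ T, |inner ℝ (g i) (rot (g k))| := by
    intro i _
    rw [Finset.sum_insert hj]
  rw [Finset.sum_congr rfl h1, Finset.sum_add_distrib]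
  have h2 : ∑ k ∈ T, |inner ℝ (g j) (rot (g k))| = ∑ i ∈ T, |inner ℝ (g i) (rot (g j))| := by
    apply Finset.sum_congr rfl
    intro i _
    rw [inner_rot_comm, abs_neg]
  rw [h2]
  ring

/-- **Volume of a Minkowski sum with segments**. -/
lemma volume_sumZ {L : Set (EuclideanSpace ℝ (Fin 2))} (hL : GoodSet L)
    (g : ι → EuclideanSpace ℝ (Fin 2)) (T : Finset ι) :
    volume (sumZ L g T) = volume L + ENNReal.ofReal
      (4 * ∑ i ∈ T, supportFn L (rot (g i)) + 2 * pairSum g T) := by
  induction T using Finset.induction_on with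
  | empty => simp [sumZ_empty, pairSum]
  | insert j T hj ih =>
    have hg := hL.sumZ g T
    rw [sumZ_insert L g hj, steiner hg.compact hg.convex hg.symm hg.nonempty, ih,
      supportFn_sumZ hL, add_assoc, ← ENNReal.ofReal_add, pairSum_insert g hj,
      Finset.sum_insert hj]
    · congr 2
      ring
    · have h1 := Finset.sum_nonneg (s := T)
        (fun i _ => hL.support_nonneg (rot (g i)))
      have h2 := pairSum_nonneg g T
      positivity
    · have h1 := hL.support_nonneg (rot (g j))
      have h2 := Finset.sum_nonneg (s := T) (fun i _ => abs_nonneg (inner ℝ (g i) (rot (g j))))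
      positivity

lemma goodSet_zero : GoodSet ({0} : Set (EuclideanSpace ℝ (Fin 2))) where
  compact := isCompact_singleton
  convex := convex_singleton 0
  symm := by simp
  nonempty := singleton_nonempty 0

/-- The area of a zonogon. -/
lemma volume_zon (g : ι → EuclideanSpace ℝ (Fin 2)) (T : Finset ι) :
    volume (sumZ {0} g T) = ENNReal.ofReal (2 * pairSum g T) := by
  have h0 : volume ({0} : Set (EuclideanSpace ℝ (Fin 2))) = 0 := by
    have hb : (0 : EuclideanSpace ℝ (Fin 2)) ∈ ({0} : Set (EuclideanSpace ℝ (Fin 2))) := rfl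
    exact measure_singleton 0
  rw [volume_sumZ goodSet_zero, h0, zero_add]
  congr 2
  have : ∀ i ∈ T, supportFn ({0} : Set (EuclideanSpace ℝ (Fin 2))) (rot (g i)) = 0 := by
    intro i _
    rw [supportFn_eq_of_max (mem_singleton 0)]
    · simp
    · intro y hy
      rw [mem_singleton_iff.mp hy]
  rw [Finset.sum_congr rfl this]
  simp

/-- Prékopa-Leindler for sets in Euclidean space. -/
lemma pl_sets {n : ℕ} {A B C : Set (EuclideanSpace ℝ (Fin n))} (hA : MeasurableSet A)
    (hB : MeasurableSet B) (hC : MeasurableSet C) {t : ℝ} (t0 : 0 < t) (t1 : t < 1)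
    (H : ∀ x ∈ A, ∀ y ∈ B, (1 - t) • x + t • y ∈ C) :
    volume A ^ (1 - t) * volume B ^ t ≤ volume C := by
  have mp := PiLp.volume_preserving_toLp (Fin n)
  have hA' := mp.measurable hA
  have hB' := mp.measurable hB
  have hC' := mp.measurable hC
  rw [← mp.measure_preimage hA.nullMeasurableSet, ← mp.measure_preimage hB.nullMeasurableSet,
    ← mp.measure_preimage hC.nullMeasurableSet,
    ← lintegral_indicator_one hA', ← lintegral_indicator_one hB', ← lintegral_indicator_one hC']
  apply prekopa_leindler n (measurable_one.indicator hA') (measurable_one.indicator hB')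
    (measurable_one.indicator hC') t0 t1
  intro x y
  have h1t : 0 < 1 - t := by linarith
  by_cases hx : x ∈ WithLp.toLp 2 ⁻¹' A
  · by_cases hy : y ∈ WithLp.toLp 2 ⁻¹' B
    · have hz : (1 - t) • x + t • y ∈ WithLp.toLp 2 ⁻¹' C := by
        have := H _ hx _ hy
        simpa using this
      rw [indicator_of_mem hx, indicator_of_mem hy, indicator_of_mem hz]
      simp
    · rw [indicator_of_notMem hy]
      simp [t0]
  · rw [indicator_of_notMem hx]
    simp [h1t]

/-- Scaling in the plane. -/
lemma volume_smul_plane (c : ℝ) (X : Set (EuclideanSpace ℝ (Fin 2))) :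
    volume (c • X) = ENNReal.ofReal (c ^ 2) * volume X := by
  rw [Measure.addHaar_smul, finrank_euclideanSpace_fin, abs_of_nonneg (sq_nonneg c)]

/-- **Minkowski's inequality in the plane** for a symmetric convex set and a zonogon. -/
lemma minkowski_plane {L : Set (EuclideanSpace ℝ (Fin 2))} (hL : GoodSet L)
    (g : ι → EuclideanSpace ℝ (Fin 2)) (T : Finset ι) :
    (volume L).toReal * (2 * pairSum g T) ≤ (2 * ∑ i ∈ T, supportFn L (rot (g i))) ^ 2 := by
  set α := (volume L).toReal with hα
  set β := 2 * pairSum g T with hβ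
  set Sg := ∑ i ∈ T, supportFn L (rot (g i)) with hSg
  have hα0 : 0 ≤ α := ENNReal.toReal_nonneg
  have hβ0 : 0 ≤ β := by
    have := pairSum_nonneg g T
    positivity
  have hSg0 : 0 ≤ Sg := Finset.sum_nonneg fun i _ => hL.support_nonneg _
  rcases hα0.eq_or_lt with hα1 | hα1
  · rw [← hα1, zero_mul]
    positivity
  rcases hβ0.eq_or_lt with hβ1 | hβ1
  · rw [← hβ1, mul_zero]
    positivity
  have hfin : volume L ≠ ⊤ := hL.compact.measure_lt_top.ne
  -- the scaling factor
  set c := Real.sqrt (α / β) with hc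
  have hc0 : 0 < c := Real.sqrt_pos.mpr (div_pos hα1 hβ1)
  have hc2 : c ^ 2 = α / β := Real.sq_sqrt (div_pos hα1 hβ1).le
  set g' : ι → EuclideanSpace ℝ (Fin 2) := fun i => c • g i with hg'
  have hpair : pairSum g' T = c ^ 2 * pairSum g T := by
    unfold pairSum
    rw [Finset.mul_sum]
    apply Finset.sum_congr rfl
    intro i _
    rw [Finset.mul_sum]
    apply Finset.sum_congr rfl
    intro k _
    simp only [hg']
    rw [rot_smul, real_inner_smul_left, real_inner_smul_right, abs_mul, abs_mul, abs_of_pos hc0]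
    ring
  have hsupp : ∑ i ∈ T, supportFn L (rot (g' i)) = c * Sg := by
    rw [hSg, Finset.mul_sum]
    apply Finset.sum_congr rfl
    intro i _
    simp only [hg']
    rw [rot_smul, supportFn_smul hL.compact hL.nonempty hL.symm, abs_of_pos hc0]
  have hkey : 2 * (c ^ 2 * pairSum g T) = α := by
    calc 2 * (c ^ 2 * pairSum g T) = α / β * (2 * pairSum g T) := by rw [hc2]; ring
      _ = α / β * β := rfl
      _ = α := div_mul_cancel₀ _ hβ1.ne'
  have hz : volume (sumZ {0} g' T) = ENNReal.ofReal α := by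
    rw [volume_zon, hpair, hkey]
  have hS : volume (sumZ L g' T) = ENNReal.ofReal (2 * α + 4 * (c * Sg)) := by
    rw [volume_sumZ hL, hsupp, hpair, ← ENNReal.ofReal_toReal hfin]
    rw [← ENNReal.ofReal_add ENNReal.toReal_nonneg]
    · congr 1
      change α + (4 * (c * Sg) + 2 * (c ^ 2 * pairSum g T)) = _
      linarith
    · have := pairSum_nonneg g T
      positivity
  -- Prékopa-Leindler at the midpoint
  have hzZ := goodSet_zero.sumZ g' T
  have hzS := hL.sumZ g' T
  have hPL := pl_sets (t := 1 / 2) (A := L) (B := sumZ {0} g' T)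
    (C := (1 / 2 : ℝ) • sumZ L g' T) hL.compact.measurableSet hzZ.compact.measurableSet
    (hzS.compact.smul _).measurableSet (by norm_num) (by norm_num) (by
      rintro x hx _ ⟨y, hy, r, hr, rfl⟩
      rw [mem_singleton_iff.mp hy]
      refine ⟨x + (0 + ∑ i ∈ T, r i • g' i), ⟨x, hx, r, hr, by simp⟩, ?_⟩
      simp only [smul_add, zero_add]
      norm_num)
  rw [volume_smul_plane, hz, hS] at hPL
  have hL' : volume L = ENNReal.ofReal α := (ENNReal.ofReal_toReal hfin).symm
  rw [hL', ← ENNReal.rpow_add_of_nonneg _ _ (by norm_num) (by norm_num)] at hPL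
  norm_num at hPL
  rw [← ENNReal.ofReal_mul (by norm_num), ENNReal.ofReal_le_ofReal_iff (by positivity)] at hPL
  -- conclude
  have h1 : α ≤ (1 / 4) * (2 * α + 4 * (c * Sg)) := by
    linarith
  have h2 : α ≤ 2 * (c * Sg) := by linarith
  have h3 : α ^ 2 ≤ (2 * (c * Sg)) ^ 2 := by
    apply pow_le_pow_left₀ hα0 h2
  have h4 : (2 * (c * Sg)) ^ 2 = (α / β) * (2 * Sg) ^ 2 := by
    rw [← hc2]
    ring
  rw [h4] at h3
  have h5 : α ^ 2 * β ≤ α * (2 * Sg) ^ 2 := by
    calc α ^ 2 * β ≤ (α / β) * (2 * Sg) ^ 2 * β := by gcongr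
      _ = α * (2 * Sg) ^ 2 := by
          field_simp
  have h6 : α * (α * β) ≤ α * (2 * Sg) ^ 2 := by
    calc α * (α * β) = α ^ 2 * β := by ring
      _ ≤ _ := h5
  exact le_of_mul_le_mul_left h6 hα1

end

end Vale.Agent.Lib.P227
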