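import Vale.Agent.Lib.P227.Plane3

open MeasureTheory Set
open scoped Pointwise ENNReal

namespace Vale.Agent.Lib.P227

noncomputable section

set_option linter.unusedSectionVars false

variable {ι : Type*} [Fintype ι] [DecidableEq ι]

/-- The cross product kernel. -/
def crossK (a : ι → EuclideanSpace ℝ (Fin 2)) (i j : ι) : ℝ := |inner ℝ (a i) (rot (a j))|

lemma crossK_nonneg (a : ι → EuclideanSpace ℝ (Fin 2)) (i j : ι) : 0 ≤ crossK a i j := abs_nonneg _

lemma crossK_symm (a : ι → EuclideanSpace ℝ (Fin 2)) (i j : ι) : crossK a i j = crossK a j i := by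
  unfold crossK
  rw [inner_rot_comm, abs_neg]

lemma crossK_self (a : ι → EuclideanSpace ℝ (Fin 2)) (i : ι) : crossK a i i = 0 := by
  unfold crossK
  rw [inner_self_rot, abs_zero]

/-- The quadratic form whose maximum over the simplex is the reciprocal of the polygon area. -/
def psi (a : ι → EuclideanSpace ℝ (Fin 2)) (y μ : ι → ℝ) : ℝ :=
  (1 / 2) * ∑ i, ∑ j, μ i * μ j * crossK a i j * (y i * y j)⁻¹

/-- The generators of the test zonogon. -/
def gen (a : ι → EuclideanSpace ℝ (Fin 2)) (y μ : ι → ℝ) (i : ι) : EuclideanSpace ℝ (Fin 2) :=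
  (μ i / (2 * y i)) • rot (a i)

lemma pairSum_gen (a : ι → EuclideanSpace ℝ (Fin 2)) {y μ : ι → ℝ} (hy : ∀ i, 0 < y i)
    (hμ : ∀ i, 0 ≤ μ i) : 2 * pairSum (gen a y μ) Finset.univ = psi a y μ := by
  unfold pairSum psi
  rw [Finset.mul_sum, Finset.mul_sum]
  apply Finset.sum_congr rfl
  intro i _
  rw [Finset.mul_sum, Finset.mul_sum]
  apply Finset.sum_congr rfl
  intro j _
  have hi := hy i
  have hj := hy j
  have h1 : |inner ℝ (gen a y μ i) (rot (gen a y μ j))|
      = (μ i / (2 * y i)) * (μ j / (2 * y j)) * crossK a i j := by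
    unfold gen crossK
    rw [rot_smul, real_inner_smul_left, real_inner_smul_right, inner_rot_rot, abs_mul, abs_mul,
      abs_of_nonneg (div_nonneg (hμ i) (by positivity)),
      abs_of_nonneg (div_nonneg (hμ j) (by positivity))]
    ring
  rw [h1]
  field_simp

/-- The polytope is a good set. -/
lemma slab_good {a : ι → EuclideanSpace ℝ (Fin 2)} (hspan : Submodule.span ℝ (range a) = ⊤)
    {z : ι → ℝ} (hz : ∀ i, 0 < z i) : GoodSet (slabPolytope a z) where
  compact := slab_compact hspan hz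
  convex := by
    intro x hx y hy s t hs ht hst i
    have h1 := hx i
    have h2 := hy i
    rw [inner_add_right, real_inner_smul_right, real_inner_smul_right]
    calc |s * inner ℝ (a i) x + t * inner ℝ (a i) y|
        ≤ |s * inner ℝ (a i) x| + |t * inner ℝ (a i) y| := abs_add_le _ _
      _ = s * |inner ℝ (a i) x| + t * |inner ℝ (a i) y| := by
          rw [abs_mul, abs_mul, abs_of_nonneg hs, abs_of_nonneg ht]
      _ ≤ s * z i + t * z i := by gcongr
      _ = z i := by rw [← add_mul, hst, one_mul]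
  symm := fun _ hx => slab_neg_mem hx
  nonempty := ⟨0, slab_zero_mem a hz⟩

/-- Upper bound for the area of a polygon by Minkowski's inequality. -/
lemma area_mul_psi_le {a : ι → EuclideanSpace ℝ (Fin 2)} (hspan : Submodule.span ℝ (range a) = ⊤)
    {z μ : ι → ℝ} (hz : ∀ i, 0 < z i) (hμ : ∀ i, 0 ≤ μ i) (hμ1 : ∑ i, μ i = 1) :
    (volume (slabPolytope a z)).toReal * psi a z μ ≤ 1 := by
  have hL := slab_good hspan hz
  have hM := minkowski_plane hL (gen a z μ) Finset.univ
  rw [pairSum_gen a hz hμ] at hM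
  refine hM.trans ?_
  have hs : ∑ i, supportFn (slabPolytope a z) (rot (gen a z μ i)) ≤ 1 / 2 := by
    have hterm : ∀ i, supportFn (slabPolytope a z) (rot (gen a z μ i)) ≤ μ i / 2 := by
      intro i
      have hzi := hz i
      have h1 : rot (gen a z μ i) = (-(μ i / (2 * z i))) • a i := by
        unfold gen
        rw [rot_smul, rot_rot, smul_neg, neg_smul]
      rw [h1, supportFn_smul hL.compact hL.nonempty hL.symm, abs_neg,
        abs_of_nonneg (div_nonneg (hμ i) (by positivity))]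
      have h2 : supportFn (slabPolytope a z) (a i) ≤ z i := by
        obtain ⟨x0, hx0, hmax⟩ := exists_max hL.compact hL.nonempty (a i)
        rw [supportFn_eq_of_max hx0 hmax, real_inner_comm]
        exact (le_abs_self _).trans (hx0 i)
      calc μ i / (2 * z i) * supportFn (slabPolytope a z) (a i)
          ≤ μ i / (2 * z i) * z i := by
            apply mul_le_mul_of_nonneg_left h2
            exact div_nonneg (hμ i) (by positivity)
        _ = μ i / 2 := by
            field_simp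
    calc ∑ i, supportFn (slabPolytope a z) (rot (gen a z μ i)) ≤ ∑ i, μ i / 2 :=
          Finset.sum_le_sum fun i _ => hterm i
      _ = 1 / 2 := by rw [← Finset.sum_div, hμ1]
  have hs0 : 0 ≤ ∑ i, supportFn (slabPolytope a z) (rot (gen a z μ i)) :=
    Finset.sum_nonneg fun i _ => hL.support_nonneg _
  have : 2 * ∑ i, supportFn (slabPolytope a z) (rot (gen a z μ i)) ≤ 1 := by linarith
  calc (2 * ∑ i, supportFn (slabPolytope a z) (rot (gen a z μ i))) ^ 2 ≤ 1 ^ 2 := by
        apply pow_le_pow_left₀ (by positivity) this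
    _ = 1 := one_pow 2

lemma pairSum_smul (c : ℝ) (g : ι → EuclideanSpace ℝ (Fin 2)) (T : Finset ι) :
    pairSum (fun i => c • g i) T = c ^ 2 * pairSum g T := by
  unfold pairSum
  rw [Finset.mul_sum]
  apply Finset.sum_congr rfl
  intro i _
  rw [Finset.mul_sum]
  apply Finset.sum_congr rfl
  intro k _
  rw [rot_smul, real_inner_smul_left, real_inner_smul_right, abs_mul, abs_mul, ← mul_assoc,
    ← abs_mul, ← pow_two, abs_of_nonneg (sq_nonneg c)]

/-- Lower bound: a scaled zonogon inside the polygon. -/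
lemma area_ge_of_kkt {a : ι → EuclideanSpace ℝ (Fin 2)} (hspan : Submodule.span ℝ (range a) = ⊤)
    {y μ : ι → ℝ} (hy : ∀ i, 0 < y i)
    (hμ : ∀ i, 0 ≤ μ i) (hψ : 0 < psi a y μ)
    (hkkt : ∀ i, (∑ j, μ j * crossK a i j * (y i * y j)⁻¹) ≤ 2 * psi a y μ) :
    (psi a y μ)⁻¹ ≤ (volume (slabPolytope a y)).toReal := by
  set ψ := psi a y μ with hψdef
  set c := ψ⁻¹ with hc
  have hc0 : 0 < c := inv_pos.mpr hψ
  set g' : ι → EuclideanSpace ℝ (Fin 2) := fun i => c • gen a y μ i with hg'
  have hsub : sumZ {0} g' Finset.univ ⊆ slabPolytope a y := by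
    rintro x ⟨x0, hx0, r, hr, rfl⟩
    rw [mem_singleton_iff.mp hx0, zero_add]
    intro i
    have hyi := hy i
    rw [inner_sum]
    have hterm : ∀ j, |inner ℝ (a i) (r j • g' j)|
        ≤ c * (y i / 2 * (μ j * crossK a i j * (y i * y j)⁻¹)) := by
      intro j
      have hyj := hy j
      simp only [hg', gen]
      rw [real_inner_smul_right, real_inner_smul_right, real_inner_smul_right, abs_mul, abs_mul,
        abs_mul, abs_of_pos hc0, abs_of_nonneg (div_nonneg (hμ j) (by positivity))]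
      have h1 : |r j| * (c * (μ j / (2 * y j) * |inner ℝ (a i) (rot (a j))|))
          ≤ 1 * (c * (μ j / (2 * y j) * |inner ℝ (a i) (rot (a j))|)) := by
        apply mul_le_mul_of_nonneg_right (hr j)
        have := hμ j
        positivity
      refine h1.trans (le_of_eq ?_)
      unfold crossK
      field_simp
    calc |∑ j, inner ℝ (a i) (r j • g' j)| ≤ ∑ j, |inner ℝ (a i) (r j • g' j)| :=
          Finset.abs_sum_le_sum_abs _ _
      _ ≤ ∑ j, c * (y i / 2 * (μ j * crossK a i j * (y i * y j)⁻¹)) :=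
          Finset.sum_le_sum fun j _ => hterm j
      _ = c * (y i / 2 * ∑ j, μ j * crossK a i j * (y i * y j)⁻¹) := by
          rw [Finset.mul_sum, Finset.mul_sum]
      _ ≤ c * (y i / 2 * (2 * ψ)) := by
          have := hkkt i
          gcongr
      _ = y i := by
          rw [hc]
          field_simp
  have hvol : volume (sumZ {0} g' Finset.univ) = ENNReal.ofReal c := by
    rw [volume_zon, hg', pairSum_smul]
    congr 1
    have h2 := pairSum_gen a hy hμ
    rw [hc, ← hψdef] at *
    have : 2 * ((ψ⁻¹) ^ 2 * pairSum (gen a y μ) Finset.univ)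
        = (ψ⁻¹) ^ 2 * (2 * pairSum (gen a y μ) Finset.univ) := by ring
    rw [this, h2]
    field_simp
  have hmono := measure_mono (μ := volume) hsub
  rw [hvol] at hmono
  have := ENNReal.toReal_mono (slab_finite_volume hspan hy).ne hmono
  rwa [ENNReal.toReal_ofReal hc0.le] at this

/-- Expansion of the quadratic form along a segment towards a vertex of the simplex. -/
lemma psi_mix (a : ι → EuclideanSpace ℝ (Fin 2)) (y μ : ι → ℝ) (i0 : ι) (ε : ℝ) :
    psi a y (fun i => (1 - ε) * μ i + ε * (if i = i0 then 1 else 0))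
      = (1 - ε) ^ 2 * psi a y μ
        + ε * (1 - ε) * ∑ j, μ j * crossK a i0 j * (y i0 * y j)⁻¹ := by
  set K : ι → ι → ℝ := fun i j => crossK a i j * (y i * y j)⁻¹ with hK
  have hKs : ∀ i j, K i j = K j i := by
    intro i j
    simp only [hK]
    rw [crossK_symm, mul_comm (y i)]
  have hK0 : K i0 i0 = 0 := by
    simp only [hK]
    rw [crossK_self, zero_mul]
  have h1 : ∀ ν : ι → ℝ, psi a y ν = (1 / 2) * ∑ i, ∑ j, ν i * ν j * K i j := by
    intro ν
    unfold psi
    congr 1
    apply Finset.sum_congr rfl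
    intro i _
    apply Finset.sum_congr rfl
    intro j _
    simp only [hK]
    ring
  have h2 : ∑ j, μ j * crossK a i0 j * (y i0 * y j)⁻¹ = ∑ j, μ j * K i0 j := by
    apply Finset.sum_congr rfl
    intro j _
    simp only [hK]
    ring
  rw [h1, h1, h2]
  have h3 : ∀ i j, ((1 - ε) * μ i + ε * (if i = i0 then 1 else 0))
        * ((1 - ε) * μ j + ε * (if j = i0 then 1 else 0)) * K i j
      = (1 - ε) ^ 2 * (μ i * μ j * K i j)
        + ε * (1 - ε) * ((if i = i0 then 1 else 0) * (μ j * K i j))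
        + ε * (1 - ε) * ((if j = i0 then 1 else 0) * (μ i * K i j))
        + ε ^ 2 * ((if i = i0 then 1 else 0) * ((if j = i0 then 1 else 0) * K i j)) := by
    intro i j
    ring
  have h4 : ∑ i, ∑ j, (if i = i0 then (1 : ℝ) else 0) * (μ j * K i j) = ∑ j, μ j * K i0 j := by
    simp
  have h5 : ∑ i, ∑ j, (if j = i0 then (1 : ℝ) else 0) * (μ i * K i j) = ∑ j, μ j * K i0 j := by
    simp [hKs i0]
  have h6 : ∑ i, ∑ j, (if i = i0 then (1 : ℝ) else 0) * ((if j = i0 then (1 : ℝ) else 0) * K i j)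
      = 0 := by
    simp [hK0]
  have h7 : ∑ i, ∑ j, ((1 - ε) * μ i + ε * (if i = i0 then 1 else 0))
        * ((1 - ε) * μ j + ε * (if j = i0 then 1 else 0)) * K i j
      = (1 - ε) ^ 2 * ∑ i, ∑ j, μ i * μ j * K i j
        + ε * (1 - ε) * ∑ i, ∑ j, (if i = i0 then (1 : ℝ) else 0) * (μ j * K i j)
        + ε * (1 - ε) * ∑ i, ∑ j, (if j = i0 then (1 : ℝ) else 0) * (μ i * K i j)
        + ε ^ 2 * ∑ i, ∑ j, (if i = i0 then (1 : ℝ) else 0)
            * ((if j = i0 then (1 : ℝ) else 0) * K i j) := by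
    simp only [h3, Finset.sum_add_distrib, Finset.mul_sum]
  rw [h7, h4, h5, h6]
  ring

/-- Existence of a maximiser with the first-order conditions. -/
lemma exists_kkt [Nonempty ι] (a : ι → EuclideanSpace ℝ (Fin 2)) {y : ι → ℝ} (hy : ∀ i, 0 < y i) :
    ∃ μ : ι → ℝ, (∀ i, 0 ≤ μ i) ∧ ∑ i, μ i = 1 ∧
      (∀ ν : ι → ℝ, (∀ i, 0 ≤ ν i) → ∑ i, ν i = 1 → psi a y ν ≤ psi a y μ) ∧
      ∀ i, (∑ j, μ j * crossK a i j * (y i * y j)⁻¹) ≤ 2 * psi a y μ := by
  have hcomp : IsCompact (stdSimplex ℝ ι) := isCompact_stdSimplex ℝ ι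
  obtain ⟨i1⟩ := ‹Nonempty ι›
  have hne : (stdSimplex ℝ ι).Nonempty := ⟨_, single_mem_stdSimplex ℝ i1⟩
  have hcont : Continuous (psi a y) := by
    unfold psi
    fun_prop
  obtain ⟨μ, hμ, hmax⟩ := hcomp.exists_isMaxOn hne hcont.continuousOn
  have hmax' : ∀ ν : ι → ℝ, (∀ i, 0 ≤ ν i) → ∑ i, ν i = 1 → psi a y ν ≤ psi a y μ :=
    fun ν h1 h2 => hmax ⟨h1, h2⟩
  refine ⟨μ, hμ.1, hμ.2, hmax', ?_⟩
  intro i0
  set B := ∑ j, μ j * crossK a i0 j * (y i0 * y j)⁻¹ with hB
  set ψ := psi a y μ with hψ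
  by_contra hcon
  have hlt : 2 * ψ < B := not_le.mp hcon
  have hψ0 : 0 ≤ ψ := by
    rw [hψ]
    unfold psi
    have hyy : ∀ i j, 0 ≤ μ i * μ j * crossK a i j * (y i * y j)⁻¹ := by
      intro i j
      have h1 := hμ.1 i
      have h2 := hμ.1 j
      have h3 := crossK_nonneg a i j
      have h4 := hy i
      have h5 := hy j
      positivity
    have : 0 ≤ ∑ i, ∑ j, μ i * μ j * crossK a i j * (y i * y j)⁻¹ :=
      Finset.sum_nonneg fun i _ => Finset.sum_nonneg fun j _ => hyy i j
    positivity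
  have hBψ : 0 < B - ψ := by linarith
  set ε := (B - 2 * ψ) / (2 * (B - ψ)) with hε
  have hε0 : 0 < ε := div_pos (by linarith) (by linarith)
  have hε1 : ε < 1 := by
    rw [hε, div_lt_one (by linarith)]
    linarith
  set ν : ι → ℝ := fun i => (1 - ε) * μ i + ε * (if i = i0 then 1 else 0) with hν
  have hν0 : ∀ i, 0 ≤ ν i := by
    intro i
    have h1 := hμ.1 i
    have h2 : (0 : ℝ) ≤ if i = i0 then 1 else 0 := by split_ifs <;> norm_num
    simp only [hν]
    have : 0 ≤ 1 - ε := by linarith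
    positivity
  have hν1 : ∑ i, ν i = 1 := by
    simp only [hν, Finset.sum_add_distrib, ← Finset.mul_sum, hμ.2]
    simp
  have hle := hmax' ν hν0 hν1
  rw [hν, psi_mix, ← hψ, ← hB] at hle
  have h5 : ε * (B - ψ) = (B - 2 * ψ) / 2 := by
    rw [hε]
    field_simp
  nlinarith

end

end Vale.Agent.Lib.P227
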