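import Vale.Agent.Lib.P227.Plane4

open MeasureTheory Set Filter Topology
open scoped Pointwise ENNReal

namespace Vale.Agent.Lib.P227

noncomputable section

set_option linter.unusedSectionVars false

variable {ι : Type*} [Fintype ι] [DecidableEq ι]

lemma exists_crossK_pos {a : ι → EuclideanSpace ℝ (Fin 2)}
    (hspan : Submodule.span ℝ (range a) = ⊤) : ∃ i j, 0 < crossK a i j := by
  by_contra hcon
  have h0 : ∀ i j, inner ℝ (a i) (rot (a j)) = (0 : ℝ) := by
    intro i j
    have h1 : ¬ 0 < crossK a i j := fun h => hcon ⟨i, j, h⟩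
    have h2 := le_antisymm (not_lt.mp h1) (crossK_nonneg a i j)
    exact abs_eq_zero.mp h2
  have h1 : ∀ j, a j = 0 := by
    intro j
    have h2 : rot (a j) = 0 := eq_zero_of_span hspan fun i => h0 i j
    have h3 : rot (rot (a j)) = 0 := by
      rw [h2]
      apply ext_two <;> simp
    rw [rot_rot] at h3
    exact neg_eq_zero.mp h3
  have h2 : e0 = 0 := by
    apply eq_zero_of_span hspan
    intro i
    rw [h1 i, inner_zero_left]
  have h3 := congrArg (fun v : EuclideanSpace ℝ (Fin 2) => v 0) h2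
  simp [e0] at h3

lemma psi_max_pos {a : ι → EuclideanSpace ℝ (Fin 2)} (hspan : Submodule.span ℝ (range a) = ⊤)
    {y μ : ι → ℝ} (hy : ∀ i, 0 < y i)
    (hmax : ∀ ν : ι → ℝ, (∀ i, 0 ≤ ν i) → ∑ i, ν i = 1 → psi a y ν ≤ psi a y μ) :
    0 < psi a y μ := by
  obtain ⟨i, j, hij⟩ := exists_crossK_pos hspan
  have hδ : psi a y (fun k => if k = i then (1 : ℝ) else 0) = 0 := by
    unfold psi
    simp [crossK_self]
  set ν : ι → ℝ := fun k => (1 - (1 / 2 : ℝ)) * (if k = i then 1 else 0)
    + (1 / 2 : ℝ) * (if k = j then 1 else 0) with hν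
  have hν0 : ∀ k, 0 ≤ ν k := by
    intro k
    simp only [hν]
    split_ifs <;> norm_num
  have hν1 : ∑ k, ν k = 1 := by
    simp only [hν, Finset.sum_add_distrib, ← Finset.mul_sum]
    simp
  have h1 := hmax ν hν0 hν1
  have h2 := psi_mix a y (fun k => if k = i then (1 : ℝ) else 0) j (1 / 2)
  rw [hδ] at h2
  have h3 : ∑ k, (if k = i then (1 : ℝ) else 0) * crossK a j k * (y j * y k)⁻¹
      = crossK a j i * (y j * y i)⁻¹ := by
    simp
  rw [h3] at h2
  have h4 : 0 < crossK a j i * (y j * y i)⁻¹ := by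
    rw [crossK_symm]
    have := hy i
    have := hy j
    positivity
  have h5 : psi a y ν = (1 / 4) * (crossK a j i * (y j * y i)⁻¹) := by
    rw [hν, h2]
    ring
  rw [h5] at h1
  linarith

/-- Positivity of the quadratic form does not depend on the weights `y`. -/
lemma psi_pos_of_pos {a : ι → EuclideanSpace ℝ (Fin 2)} {y z μ : ι → ℝ} (hy : ∀ i, 0 < y i)
    (hz : ∀ i, 0 < z i) (hμ : ∀ i, 0 ≤ μ i) (h : 0 < psi a y μ) : 0 < psi a z μ := by
  have hterm : ∀ (x : ι → ℝ), (∀ i, 0 < x i) → ∀ i j, 0 ≤ μ i * μ j * crossK a i j * (x i * x j)⁻¹ := by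
    intro x hx i j
    have h1 := hμ i
    have h2 := hμ j
    have h3 := crossK_nonneg a i j
    have h4 := hx i
    have h5 := hx j
    positivity
  by_contra hcon
  have hz0 : ∑ i, ∑ j, μ i * μ j * crossK a i j * (z i * z j)⁻¹ = 0 := by
    have h1 : 0 ≤ ∑ i, ∑ j, μ i * μ j * crossK a i j * (z i * z j)⁻¹ :=
      Finset.sum_nonneg fun i _ => Finset.sum_nonneg fun j _ => hterm z hz i j
    unfold psi at hcon
    linarith
  have hz1 : ∀ i j, μ i * μ j * crossK a i j * (z i * z j)⁻¹ = 0 := by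
    intro i j
    have h1 := (Finset.sum_eq_zero_iff_of_nonneg
      (fun i _ => Finset.sum_nonneg fun j _ => hterm z hz i j)).mp hz0 i (Finset.mem_univ i)
    exact (Finset.sum_eq_zero_iff_of_nonneg (fun j _ => hterm z hz i j)).mp h1 j (Finset.mem_univ j)
  have hy0 : psi a y μ = 0 := by
    unfold psi
    have : ∀ i j, μ i * μ j * crossK a i j * (y i * y j)⁻¹ = 0 := by
      intro i j
      have h1 := hz1 i j
      have h2 : μ i * μ j * crossK a i j = 0 := by
        have h3 : (z i * z j)⁻¹ ≠ 0 := by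
          have := hz i
          have := hz j
          positivity
        exact (mul_eq_zero.mp h1).resolve_right h3
      rw [h2, zero_mul]
    simp only [this, Finset.sum_const_zero, mul_zero]
  linarith

/-- Hölder's inequality for the quadratic form. -/
lemma psi_holder {a : ι → EuclideanSpace ℝ (Fin 2)} {z w μ : ι → ℝ} (hz : ∀ i, 0 < z i)
    (hw : ∀ i, 0 < w i) (hμ : ∀ i, 0 ≤ μ i) {t : ℝ} (t0 : 0 ≤ t) (t1 : t ≤ 1)
    (hpz : 0 < psi a z μ) (hpw : 0 < psi a w μ) :
    psi a (fun i => z i ^ (1 - t) * w i ^ t) μ ≤ psi a z μ ^ (1 - t) * psi a w μ ^ t := by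
  have hsum : ∀ x : ι → ℝ, psi a x μ
      = ∑ p : ι × ι, (1 / 2 * (μ p.1 * μ p.2 * crossK a p.1 p.2)) * (x p.1 * x p.2)⁻¹ := by
    intro x
    unfold psi
    rw [Fintype.sum_prod_type, Finset.mul_sum]
    apply Finset.sum_congr rfl
    intro i _
    rw [Finset.mul_sum]
    apply Finset.sum_congr rfl
    intro j _
    ring
  have hz1 : ∀ p : ι × ι, 0 < (z p.1 * z p.2)⁻¹ := fun p => by
    have := hz p.1
    have := hz p.2
    positivity
  have hw1 : ∀ p : ι × ι, 0 < (w p.1 * w p.2)⁻¹ := fun p => by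
    have := hw p.1
    have := hw p.2
    positivity
  have hc : ∀ p : ι × ι, 0 ≤ 1 / 2 * (μ p.1 * μ p.2 * crossK a p.1 p.2) := fun p => by
    have := hμ p.1
    have := hμ p.2
    have := crossK_nonneg a p.1 p.2
    positivity
  have key := weighted_holder hc hz1 hw1 t0 t1
    (by rw [← hsum z]; exact hpz) (by rw [← hsum w]; exact hpw)
  rw [← hsum z, ← hsum w] at key
  refine le_trans (le_of_eq ?_) key
  rw [hsum]
  apply Finset.sum_congr rfl
  intro p _
  congr 1
  have hzp1 := hz p.1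
  have hzp2 := hz p.2
  have hwp1 := hw p.1
  have hwp2 := hw p.2
  rw [Real.inv_rpow (by positivity), Real.inv_rpow (by positivity), ← mul_inv,
    Real.mul_rpow hzp1.le hzp2.le, Real.mul_rpow hwp1.le hwp2.le]
  congr 1
  ring

/-- **The discrete planar logarithmic Brunn-Minkowski inequality**, real form. -/
theorem plane_log_bm_real [Nonempty ι] {a : ι → EuclideanSpace ℝ (Fin 2)}
    (hspan : Submodule.span ℝ (range a) = ⊤) {z w : ι → ℝ} (hz : ∀ i, 0 < z i) (hw : ∀ i, 0 < w i)
    {t : ℝ} (t0 : 0 ≤ t) (t1 : t ≤ 1) :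
    (volume (slabPolytope a z)).toReal ^ (1 - t) * (volume (slabPolytope a w)).toReal ^ t
      ≤ (volume (slabPolytope a fun i => z i ^ (1 - t) * w i ^ t)).toReal := by
  set y : ι → ℝ := fun i => z i ^ (1 - t) * w i ^ t with hy
  have hy0 : ∀ i, 0 < y i := fun i => by
    have := hz i
    have := hw i
    simp only [hy]
    positivity
  obtain ⟨μ, hμ, hμ1, hmax, hkkt⟩ := exists_kkt a hy0
  have hψ := psi_max_pos hspan hy0 hmax
  have hpz := psi_pos_of_pos hy0 hz hμ hψ
  have hpw := psi_pos_of_pos hy0 hw hμ hψ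
  have h1 := area_ge_of_kkt hspan hy0 hμ hψ hkkt
  have h2 := psi_holder hz hw hμ t0 t1 hpz hpw
  have h3 := area_mul_psi_le hspan hz hμ hμ1
  have h4 := area_mul_psi_le hspan hw hμ hμ1
  have h1t : 0 ≤ 1 - t := by linarith
  have h5 : (volume (slabPolytope a z)).toReal ≤ (psi a z μ)⁻¹ := by
    rw [inv_eq_one_div]
    exact (le_div_iff₀ hpz).mpr h3
  have h6 : (volume (slabPolytope a w)).toReal ≤ (psi a w μ)⁻¹ := by
    rw [inv_eq_one_div]
    exact (le_div_iff₀ hpw).mpr h4
  calc (volume (slabPolytope a z)).toReal ^ (1 - t) * (volume (slabPolytope a w)).toReal ^ t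
      ≤ ((psi a z μ)⁻¹) ^ (1 - t) * ((psi a w μ)⁻¹) ^ t := by
        apply mul_le_mul
        · exact Real.rpow_le_rpow ENNReal.toReal_nonneg h5 h1t
        · exact Real.rpow_le_rpow ENNReal.toReal_nonneg h6 t0
        · exact Real.rpow_nonneg ENNReal.toReal_nonneg _
        · have : 0 ≤ (psi a z μ)⁻¹ := (inv_pos.mpr hpz).le
          exact Real.rpow_nonneg this _
    _ = (psi a z μ ^ (1 - t) * psi a w μ ^ t)⁻¹ := by
        rw [Real.inv_rpow hpz.le, Real.inv_rpow hpw.le, mul_inv]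
    _ ≤ (psi a y μ)⁻¹ := inv_anti₀ hψ h2
    _ ≤ _ := h1

/-- **The discrete planar logarithmic Brunn-Minkowski inequality**. -/
theorem plane_log_bm [Nonempty ι] {a : ι → EuclideanSpace ℝ (Fin 2)}
    (hspan : Submodule.span ℝ (range a) = ⊤) {z w : ι → ℝ} (hz : ∀ i, 0 < z i) (hw : ∀ i, 0 < w i)
    {t : ℝ} (t0 : 0 ≤ t) (t1 : t ≤ 1) :
    volume (slabPolytope a z) ^ (1 - t) * volume (slabPolytope a w) ^ t
      ≤ volume (slabPolytope a fun i => z i ^ (1 - t) * w i ^ t) := by
  have key := plane_log_bm_real hspan hz hw t0 t1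
  have h1t : 0 ≤ 1 - t := by linarith
  have hy0 : ∀ i, 0 < z i ^ (1 - t) * w i ^ t := fun i => by
    have := hz i
    have := hw i
    positivity
  have hfz := (slab_finite_volume hspan hz).ne
  have hfw := (slab_finite_volume hspan hw).ne
  have hfy := (slab_finite_volume hspan hy0).ne
  rw [← ENNReal.toReal_le_toReal ?_ hfy]
  · rw [ENNReal.toReal_mul, ← ENNReal.toReal_rpow, ← ENNReal.toReal_rpow]
    exact key
  · exact ENNReal.mul_ne_top (ENNReal.rpow_ne_top_of_nonneg h1t hfz)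
      (ENNReal.rpow_ne_top_of_nonneg t0 hfw)

/-- Directional version for symmetric compact sets. -/
theorem plane_directional [Nonempty ι] {a : ι → EuclideanSpace ℝ (Fin 2)}
    (hspan : Submodule.span ℝ (range a) = ⊤) (ha0 : ∀ i, a i ≠ 0)
    {K L : Set (EuclideanSpace ℝ (Fin 2))} (hK : IsSymBody K) (hL : IsSymBody L)
    {t : ℝ} (t0 : 0 ≤ t) (t1 : t ≤ 1) :
    volume K ^ (1 - t) * volume L ^ t
      ≤ volume (slabPolytope a fun i => supportFn K (a i) ^ (1 - t) * supportFn L (a i) ^ t) := by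
  have key := plane_log_bm hspan
    (z := fun i => supportFn K (a i)) (w := fun i => supportFn L (a i))
    (fun i => supportFn_pos_of_volume hK.1 hK.2.1 hK.2.2 (ha0 i))
    (fun i => supportFn_pos_of_volume hL.1 hL.2.1 hL.2.2 (ha0 i)) t0 t1
  refine le_trans ?_ key
  have h1t : 0 ≤ 1 - t := by linarith
  have h1 := measure_mono (μ := volume) (subset_slab_support hK.1 hK.2.1 a)
  have h2 := measure_mono (μ := volume) (subset_slab_support hL.1 hL.2.1 a)
  gcongr

end

end Vale.Agent.Lib.P227
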