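import Vale.Agent.Lib.P227.Plane5

open MeasureTheory Set Filter Topology TopologicalSpace
open scoped Pointwise ENNReal

namespace Vale.Agent.Lib.P227

noncomputable section

set_option linter.unusedSectionVars false

variable {n : ℕ}

/-- Continuity of the support function of a compact set. -/
lemma supportFn_continuous {K : Set (EuclideanSpace ℝ (Fin n))} (hK : IsCompact K)
    (hne : K.Nonempty) : Continuous (supportFn K) := by
  obtain ⟨R, hR⟩ := hK.isBounded.exists_norm_le
  have hR0 : 0 ≤ R := by
    obtain ⟨x, hx⟩ := hne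
    exact (norm_nonneg x).trans (hR x hx)
  have hlip : LipschitzWith (Real.toNNReal R) (supportFn K) := by
    apply LipschitzWith.of_le_add_mul
    intro u v
    obtain ⟨x, hx, hmax⟩ := exists_max hK hne u
    rw [supportFn_eq_of_max hx hmax, Real.coe_toNNReal R hR0]
    have h1 := le_supportFn hK hx v
    have h2 : inner ℝ x u = inner ℝ x v + inner ℝ x (u - v) := by
      rw [inner_sub_right]
      ring
    have h3 : inner ℝ x (u - v) ≤ R * dist u v := by
      rw [dist_eq_norm]
      calc inner ℝ x (u - v) ≤ ‖x‖ * ‖u - v‖ := real_inner_le_norm _ _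
        _ ≤ R * ‖u - v‖ := by
            gcongr
            exact hR x hx
    linarith
  exact hlip.continuous

lemma IsSymBody.nonempty {K : Set (EuclideanSpace ℝ (Fin n))} (hK : IsSymBody K) : K.Nonempty :=
  nonempty_of_measure_ne_zero hK.2.2.ne'

lemma e0_ne : e0 ≠ 0 := by
  intro h
  have h3 := congrArg (fun v : EuclideanSpace ℝ (Fin 2) => v 0) h
  simp [e0] at h3

lemma e1_ne : e1 ≠ 0 := by
  intro h
  have h3 := congrArg (fun v : EuclideanSpace ℝ (Fin 2) => v 1) h
  simp [e1] at h3

lemma span_top_of_e {ι : Type*} {a : ι → EuclideanSpace ℝ (Fin 2)} (h0 : e0 ∈ range a)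
    (h1 : e1 ∈ range a) : Submodule.span ℝ (range a) = ⊤ := by
  rw [eq_top_iff]
  intro x _
  have hx : x = x 0 • e0 + x 1 • e1 := by
    apply ext_two <;> simp [e0, e1]
  rw [hx]
  exact Submodule.add_mem _ (Submodule.smul_mem _ _ (Submodule.subset_span h0))
    (Submodule.smul_mem _ _ (Submodule.subset_span h1))

/-- **The logarithmic Brunn-Minkowski inequality in the plane**. -/
theorem plane_Q1 {K L : Set (EuclideanSpace ℝ (Fin 2))} (hK : IsSymBody K) (hL : IsSymBody L)
    {t : ℝ} (t0 : 0 ≤ t) (t1 : t ≤ 1) :
    volume K ^ (1 - t) * volume L ^ t ≤ volume (logCombination K L t) := by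
  classical
  let S := Metric.sphere (0 : EuclideanSpace ℝ (Fin 2)) 1
  haveI : Nonempty S := ⟨⟨e0, by simp [S, e0, EuclideanSpace.norm_eq]⟩⟩
  let d : ℕ → S := denseSeq S
  have hd : DenseRange d := denseRange_denseSeq S
  -- the direction sets
  let a : (N : ℕ) → (Fin 2 ⊕ Fin N) → EuclideanSpace ℝ (Fin 2) := fun N =>
    Sum.elim ![e0, e1] (fun k => (d k : EuclideanSpace ℝ (Fin 2)))
  let f : EuclideanSpace ℝ (Fin 2) → ℝ := fun u => supportFn K u ^ (1 - t) * supportFn L u ^ t
  let P : ℕ → Set (EuclideanSpace ℝ (Fin 2)) := fun N => slabPolytope (a N) fun i => f (a N i)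
  have hspan : ∀ N, Submodule.span ℝ (range (a N)) = ⊤ := by
    intro N
    apply span_top_of_e
    · exact ⟨Sum.inl 0, rfl⟩
    · exact ⟨Sum.inl 1, rfl⟩
  have hne0 : ∀ N i, a N i ≠ 0 := by
    intro N i
    rcases i with i | k
    · fin_cases i
      · exact e0_ne
      · exact e1_ne
    · have : ((d k : EuclideanSpace ℝ (Fin 2))) ∈ S := (d k).2
      intro h
      change (d k : EuclideanSpace ℝ (Fin 2)) = 0 at h
      rw [h] at this
      simp [S] at this
  have hbound : ∀ N, volume K ^ (1 - t) * volume L ^ t ≤ volume (P N) := fun N =>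
    plane_directional (hspan N) (hne0 N) hK hL t0 t1
  have hfpos : ∀ N i, 0 < f (a N i) := fun N i => by
    have h1 := supportFn_pos_of_volume hK.1 hK.2.1 hK.2.2 (hne0 N i)
    have h2 := supportFn_pos_of_volume hL.1 hL.2.1 hL.2.2 (hne0 N i)
    simp only [f]
    positivity
  have hanti : Antitone P := by
    intro N M hNM x hx i
    rcases i with i | k
    · exact hx (Sum.inl i)
    · exact hx (Sum.inr (Fin.castLE hNM k))
  have hmeas : ∀ N, NullMeasurableSet (P N) volume := fun N =>
    (slab_closed _ _).measurableSet.nullMeasurableSet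
  have hfin : ∃ N, volume (P N) ≠ ⊤ := ⟨0, (slab_finite_volume (hspan 0) (hfpos 0)).ne⟩
  have hinter : volume (⋂ N, P N) = ⨅ N, volume (P N) := hanti.measure_iInter hmeas hfin
  have hsub : (⋂ N, P N) ⊆ logCombination K L t := by
    intro x hx
    simp only [logCombination, wulff, mem_iInter]
    intro u hu
    have hcont : Continuous fun v : S => f v - inner ℝ x (v : EuclideanSpace ℝ (Fin 2)) := by
      have h1 := (supportFn_continuous hK.1 hK.nonempty).comp
        (continuous_subtype_val (p := fun v => v ∈ S))
      have h2 := (supportFn_continuous hL.1 hL.nonempty).comp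
        (continuous_subtype_val (p := fun v => v ∈ S))
      have h3 : Continuous fun v : S => f v := by
        apply Continuous.mul
        · exact h1.rpow_const fun _ => Or.inr (by linarith)
        · exact h2.rpow_const fun _ => Or.inr t0
      exact h3.sub (continuous_const.inner continuous_subtype_val)
    have hclosed : IsClosed {v : S | 0 ≤ f v - inner ℝ x (v : EuclideanSpace ℝ (Fin 2))} :=
      isClosed_le continuous_const hcont
    have key := hd.induction_on (p := fun v : S =>
      0 ≤ f v - inner ℝ x (v : EuclideanSpace ℝ (Fin 2))) ⟨u, hu⟩ hclosed (by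
        intro k
        have h1 := mem_iInter.mp hx (k + 1) (Sum.inr (Fin.last k))
        simp only [a, Sum.elim_inr, Fin.val_last] at h1
        rw [real_inner_comm]
        have h2 := (le_abs_self _).trans h1
        linarith)
    simp only at key
    change inner ℝ x u ≤ f u
    linarith
  calc volume K ^ (1 - t) * volume L ^ t ≤ ⨅ N, volume (P N) := le_iInf hbound
    _ = volume (⋂ N, P N) := hinter.symm
    _ ≤ _ := measure_mono hsub

end

end Vale.Agent.Lib.P227
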