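import Vale.Agent.Lib.P227.Norm
import Vale.Agent.Lib.P227.Defs

open MeasureTheory Set
open scoped ENNReal Pointwise

namespace Vale.Agent.Lib.P227

/-- The cube in `ℝ × ℝⁿ`. -/
def cubeQ (n : ℕ) : Set (ℝ × (Fin n → ℝ)) := {p | |p.1| ≤ 1 ∧ ∀ i, |p.2 i| ≤ 1}

lemma abs_comb_le {x y s t : ℝ} (hx : |x| ≤ 1) (hy : |y| ≤ 1) (hs : 0 ≤ s) (ht : 0 ≤ t)
    (hst : s + t = 1) : |s * x + t * y| ≤ 1 := by
  calc |s * x + t * y| ≤ |s * x| + |t * y| := abs_add_le _ _
    _ = s * |x| + t * |y| := by rw [abs_mul, abs_mul, abs_of_nonneg hs, abs_of_nonneg ht]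
    _ ≤ s * 1 + t * 1 := by gcongr
    _ = 1 := by rw [mul_one, mul_one, hst]

lemma cubeQ_body (n : ℕ) : Body (cubeQ n) where
  convex := by
    intro p hp q hq s t hs ht hst
    refine ⟨?_, fun i => ?_⟩
    · simpa using abs_comb_le hp.1 hq.1 hs ht hst
    · simpa using abs_comb_le (hp.2 i) (hq.2 i) hs ht hst
  meas := by
    have h1 : MeasurableSet {p : ℝ × (Fin n → ℝ) | |p.1| ≤ 1} :=
      measurableSet_le (measurable_fst.abs) measurable_const
    have h2 : MeasurableSet {p : ℝ × (Fin n → ℝ) | ∀ i, |p.2 i| ≤ 1} := by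
      have : {p : ℝ × (Fin n → ℝ) | ∀ i, |p.2 i| ≤ 1} = ⋂ i, {p | |p.2 i| ≤ 1} := by
        ext p
        simp
      rw [this]
      exact MeasurableSet.iInter fun i =>
        measurableSet_le (((measurable_pi_apply i).comp measurable_snd).abs) measurable_const
    exact h1.inter h2
  bdd := ⟨1, one_pos, fun p hp => hp⟩
  nhd := ⟨1, one_pos, fun p h1 h2 => ⟨h1, h2⟩⟩
  neg := by
    intro p hp
    refine ⟨?_, fun i => ?_⟩
    · simpa using hp.1
    · simpa using hp.2 i
  flip0 := by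
    intro p hp
    exact ⟨by simpa using hp.1, hp.2⟩
  flipi := by
    intro i p hp
    refine ⟨hp.1, fun k => ?_⟩
    by_cases hk : k = i
    · subst hk
      simpa using hp.2 k
    · simpa [Function.update_of_ne hk] using hp.2 k

/-- The polytope in standard form. -/
def stdPoly {n : ℕ} (κ : Fin n → ℝ) (z0 : ℝ) (z : Fin n → ℝ) : Set (Fin n → ℝ) :=
  {y | (∀ j, |y j| ≤ z j) ∧ |∑ j, κ j * y j| ≤ z0}

lemma stdPoly_meas {n : ℕ} (κ : Fin n → ℝ) (z0 : ℝ) (z : Fin n → ℝ) :
    MeasurableSet (stdPoly κ z0 z) := by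
  have h1 : MeasurableSet {y : Fin n → ℝ | ∀ j, |y j| ≤ z j} := by
    have : {y : Fin n → ℝ | ∀ j, |y j| ≤ z j} = ⋂ j, {y | |y j| ≤ z j} := by
      ext y
      simp
    rw [this]
    exact MeasurableSet.iInter fun j =>
      measurableSet_le ((measurable_pi_apply j).abs) measurable_const
  have h2 : MeasurableSet {y : Fin n → ℝ | |∑ j, κ j * y j| ≤ z0} := by
    refine measurableSet_le ?_ measurable_const
    fun_prop
  exact h1.inter h2

lemma stdPoly_volume {n : ℕ} (κ : Fin n → ℝ) {z0 : ℝ} (hz0 : 0 < z0) {z : Fin n → ℝ}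
    (hz : ∀ j, 0 < z j) :
    volume (stdPoly κ z0 z)
      = ENNReal.ofReal (∏ j, z j) * volume (sec (cubeQ n) z0 (fun j => κ j * z j)) := by
  have hdet : (Matrix.diagonal z).det ≠ 0 := by
    rw [Matrix.det_diagonal]
    exact (Finset.prod_pos fun j _ => hz j).ne'
  have hprod : 0 < ∏ j, z j := Finset.prod_pos fun j _ => hz j
  have hmap := Real.map_matrix_volume_pi_eq_smul_volume_pi hdet
  have hD : Measurable (Matrix.toLin' (Matrix.diagonal z)) :=
    (LinearMap.continuous_on_pi _).measurable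
  have hpre : Matrix.toLin' (Matrix.diagonal z) ⁻¹' stdPoly κ z0 z
      = sec (cubeQ n) z0 (fun j => κ j * z j) := by
    ext y
    have e0 : ∀ j, (Matrix.toLin' (Matrix.diagonal z) y) j = z j * y j := by
      intro j
      simp [Matrix.toLin'_apply, Matrix.mulVec_diagonal]
    have e1 : ∑ j, κ j * (Matrix.toLin' (Matrix.diagonal z) y) j = ∑ j, κ j * z j * y j := by
      apply Finset.sum_congr rfl
      intro j _
      rw [e0]
      ring
    change ((∀ j, |(Matrix.toLin' (Matrix.diagonal z) y) j| ≤ z j) ∧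
        |∑ j, κ j * (Matrix.toLin' (Matrix.diagonal z) y) j| ≤ z0) ↔
      (|(-(∑ j, κ j * z j * y j) / z0)| ≤ 1 ∧ ∀ i, |y i| ≤ 1)
    rw [e1, abs_div, abs_neg, abs_of_pos hz0, div_le_one hz0, and_comm]
    refine and_congr_right fun _ => forall_congr' fun j => ?_
    rw [e0, abs_mul, abs_of_pos (hz j)]
    constructor
    · intro h
      exact (mul_le_iff_le_one_right (hz j)).1 h
    · intro h
      exact (mul_le_iff_le_one_right (hz j)).2 h
  have h3 : volume (sec (cubeQ n) z0 (fun j => κ j * z j))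
      = ENNReal.ofReal |(Matrix.diagonal z).det⁻¹| * volume (stdPoly κ z0 z) := by
    rw [← hpre, ← Measure.map_apply hD (stdPoly_meas κ z0 z), hmap]
    rfl
  rw [h3, ← mul_assoc, ← ENNReal.ofReal_mul hprod.le, Matrix.det_diagonal, abs_inv, abs_of_pos hprod,
    mul_inv_cancel₀ hprod.ne']
  simp

/-- Log-concavity for polytopes in standard form. -/
theorem std_log_concave {n : ℕ} (κ : Fin n → ℝ) {z0 w0 : ℝ} (hz0 : 0 < z0) (hw0 : 0 < w0)
    {z w : Fin n → ℝ} (hz : ∀ j, 0 < z j) (hw : ∀ j, 0 < w j) {t : ℝ} (t0 : 0 < t) (t1 : t < 1) :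
    volume (stdPoly κ z0 z) ^ (1 - t) * volume (stdPoly κ w0 w) ^ t
      ≤ volume (stdPoly κ (z0 ^ (1 - t) * w0 ^ t) (fun j => z j ^ (1 - t) * w j ^ t)) := by
  have h1t : 0 < 1 - t := by linarith
  have hB := cubeQ_body n
  have hgz : ∀ j, 0 < z j ^ (1 - t) * w j ^ t := fun j =>
    mul_pos (Real.rpow_pos_of_pos (hz j) _) (Real.rpow_pos_of_pos (hw j) _)
  have hg0 : 0 < z0 ^ (1 - t) * w0 ^ t := by positivity
  have key := sec_log_concave hB hz0 hw0 (a := fun j => κ j * z j) (b := fun j => κ j * w j)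
    (c := fun j => κ j * (z j ^ (1 - t) * w j ^ t)) t0 t1
    (fun i => by
      have hzi := hz i
      have hwi := hw i
      have e : κ i * z i * (κ i * w i) = (κ i) ^ 2 * (z i * w i) := by ring
      simp only [e]
      positivity)
    (fun i => by
      have e1 : |κ i * (z i ^ (1 - t) * w i ^ t)| = |κ i| * (z i ^ (1 - t) * w i ^ t) := by
        rw [abs_mul, abs_of_pos (hgz i)]
      have e2 : |κ i * z i| = |κ i| * z i := by rw [abs_mul, abs_of_pos (hz i)]
      have e3 : |κ i * w i| = |κ i| * w i := by rw [abs_mul, abs_of_pos (hw i)]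
      rw [e1, e2, e3, Real.mul_rpow (abs_nonneg _) (hz i).le,
        Real.mul_rpow (abs_nonneg _) (hw i).le]
      rcases (abs_nonneg (κ i)).eq_or_lt with h | h
      · rw [← h]
        simp [Real.zero_rpow h1t.ne', Real.zero_rpow t0.ne']
      · apply le_of_eq
        have : |κ i| ^ (1 - t) * |κ i| ^ t = |κ i| := by
          rw [← Real.rpow_add h]
          simp
        calc |κ i| * (z i ^ (1 - t) * w i ^ t)
            = (|κ i| ^ (1 - t) * |κ i| ^ t) * (z i ^ (1 - t) * w i ^ t) := by rw [this]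
          _ = |κ i| ^ (1 - t) * z i ^ (1 - t) * (|κ i| ^ t * w i ^ t) := by ring)
  rw [stdPoly_volume κ hz0 hz, stdPoly_volume κ hw0 hw, stdPoly_volume κ hg0 hgz]
  rw [ENNReal.mul_rpow_of_nonneg _ _ h1t.le, ENNReal.mul_rpow_of_nonneg _ _ t0.le]
  set A := volume (sec (cubeQ n) z0 (fun j => κ j * z j)) with hA
  set B := volume (sec (cubeQ n) w0 (fun j => κ j * w j)) with hB'
  set C := volume (sec (cubeQ n) (z0 ^ (1 - t) * w0 ^ t) (fun j => κ j * (z j ^ (1 - t) * w j ^ t)))
    with hC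
  have hAf : A ≠ ⊤ := sec_fin hB _ _
  have hBf : B ≠ ⊤ := sec_fin hB _ _
  have hCf : C ≠ ⊤ := sec_fin hB _ _
  have key' : A ^ (1 - t) * B ^ t ≤ C := by
    have h1 : A ^ (1 - t) * B ^ t = ENNReal.ofReal (A.toReal ^ (1 - t) * B.toReal ^ t) := by
      rw [ENNReal.ofReal_mul (Real.rpow_nonneg ENNReal.toReal_nonneg _),
        ← ENNReal.ofReal_rpow_of_nonneg ENNReal.toReal_nonneg h1t.le,
        ← ENNReal.ofReal_rpow_of_nonneg ENNReal.toReal_nonneg t0.le,
        ENNReal.ofReal_toReal hAf, ENNReal.ofReal_toReal hBf]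
    rw [h1, ← ENNReal.ofReal_toReal hCf]
    exact ENNReal.ofReal_le_ofReal key
  have hprod : ENNReal.ofReal (∏ j, z j) ^ (1 - t) * ENNReal.ofReal (∏ j, w j) ^ t
      = ENNReal.ofReal (∏ j, (z j ^ (1 - t) * w j ^ t)) := by
    have hzp : 0 < ∏ j, z j := Finset.prod_pos fun j _ => hz j
    have hwp : 0 < ∏ j, w j := Finset.prod_pos fun j _ => hw j
    rw [ENNReal.ofReal_rpow_of_pos hzp, ENNReal.ofReal_rpow_of_pos hwp,
      ← ENNReal.ofReal_mul (by positivity), Finset.prod_mul_distrib,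
      Real.finsetProd_rpow _ _ (fun j _ => (hz j).le), Real.finsetProd_rpow _ _ (fun j _ => (hw j).le)]
  calc ENNReal.ofReal (∏ j, z j) ^ (1 - t) * A ^ (1 - t) * (ENNReal.ofReal (∏ j, w j) ^ t * B ^ t)
      = (ENNReal.ofReal (∏ j, z j) ^ (1 - t) * ENNReal.ofReal (∏ j, w j) ^ t)
          * (A ^ (1 - t) * B ^ t) := by ring
    _ ≤ ENNReal.ofReal (∏ j, (z j ^ (1 - t) * w j ^ t)) * C := by
        rw [hprod]
        gcongr

/-- Reduction of `n + 1` spanning normals to the standard form. -/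
theorem exists_std_form {n : ℕ} (a : Fin (n + 1) → EuclideanSpace ℝ (Fin n))
    (ha : Submodule.span ℝ (range a) = ⊤) :
    ∃ (i0 : Fin (n + 1)) (κ : Fin n → ℝ) (c : ℝ≥0∞), c ≠ ⊤ ∧ c ≠ 0 ∧
      ∀ z : Fin (n + 1) → ℝ, volume (slabPolytope a z)
        = c * volume (stdPoly κ (z i0) (fun j => z (i0.succAbove j))) := by
  classical
  have hfr : Module.finrank ℝ (EuclideanSpace ℝ (Fin n)) = n := by simp
  have hnot : ¬ LinearIndependent ℝ a := by
    intro h
    have := h.fintype_card_le_finrank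
    simp at this
  obtain ⟨g, hg, i0, hi0⟩ := Fintype.not_linearIndependent_iff.1 hnot
  rw [Fin.sum_univ_succAbove _ i0] at hg
  set b : Fin n → EuclideanSpace ℝ (Fin n) := fun j => a (i0.succAbove j) with hb
  set κ : Fin n → ℝ := fun j => -g (i0.succAbove j) / g i0 with hκ
  have hai : a i0 = ∑ j, κ j • b j := by
    have h1 : g i0 • a i0 = -∑ j, g (i0.succAbove j) • b j := eq_neg_of_add_eq_zero_left hg
    have h2 : a i0 = (g i0)⁻¹ • (g i0 • a i0) := by
      rw [smul_smul, inv_mul_cancel₀ hi0, one_smul]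
    rw [h2, h1, smul_neg, Finset.smul_sum, ← Finset.sum_neg_distrib]
    apply Finset.sum_congr rfl
    intro j _
    rw [smul_smul, ← neg_smul]
    congr 1
    simp only [hκ]
    field_simp
  have hspan : Submodule.span ℝ (range b) = ⊤ := by
    rw [eq_top_iff, ← ha, Submodule.span_le]
    rintro _ ⟨i, rfl⟩
    refine Fin.succAboveCases i0 ?_ (fun j => ?_) i
    · rw [hai]
      exact Submodule.sum_mem _ fun j _ =>
        Submodule.smul_mem _ _ (Submodule.subset_span ⟨j, rfl⟩)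
    · exact Submodule.subset_span ⟨j, rfl⟩
  let L : EuclideanSpace ℝ (Fin n) →ₗ[ℝ] (Fin n → ℝ) :=
    LinearMap.pi fun j => innerₗ (EuclideanSpace ℝ (Fin n)) (b j)
  have hL : ∀ x j, L x j = inner ℝ (b j) x := fun x j => rfl
  have hLinj : Function.Injective L := by
    rw [← LinearMap.ker_eq_bot, LinearMap.ker_eq_bot']
    intro x hx
    have h0 : ∀ j, inner ℝ (b j) x = (0:ℝ) := fun j => by
      rw [← hL, hx]
      rfl
    have hall : ∀ y ∈ Submodule.span ℝ (range b), inner ℝ y x = (0:ℝ) := by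
      intro y hy
      induction hy using Submodule.span_induction with
      | mem y hy =>
        obtain ⟨j, rfl⟩ := hy
        exact h0 j
      | zero => simp
      | add u v _ _ hu hv => rw [inner_add_left, hu, hv, add_zero]
      | smul r u _ hu => rw [inner_smul_left, hu, mul_zero]
    have hxx := hall x (by rw [hspan]; trivial)
    exact inner_self_eq_zero.1 hxx
  have hdim : Module.finrank ℝ (EuclideanSpace ℝ (Fin n)) = Module.finrank ℝ (Fin n → ℝ) := by
    simp
  let Le := L.linearEquivOfInjective hLinj hdim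
  let Lc := Le.toContinuousLinearEquiv
  have hLc : ∀ x, Lc x = L x := fun x => rfl
  have hHaar : (Measure.map Lc (volume : Measure (EuclideanSpace ℝ (Fin n)))).IsAddHaarMeasure :=
    Lc.isAddHaarMeasure_map _
  have hsm := Measure.isAddLeftInvariant_eq_smul
    (Measure.map Lc (volume : Measure (EuclideanSpace ℝ (Fin n)))) (volume : Measure (Fin n → ℝ))
  set c0 := Measure.addHaarScalarFactor
    (Measure.map Lc (volume : Measure (EuclideanSpace ℝ (Fin n)))) (volume : Measure (Fin n → ℝ)) with hc0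
  have hc00 : c0 ≠ 0 := by
    intro h
    rw [h, zero_smul] at hsm
    have h1 : Measure.map Lc (volume : Measure (EuclideanSpace ℝ (Fin n))) univ = 0 := by
      rw [hsm]
      rfl
    rw [Measure.map_apply Lc.continuous.measurable MeasurableSet.univ, preimage_univ] at h1
    exact (IsOpen.measure_pos volume isOpen_univ univ_nonempty).ne' h1
  refine ⟨i0, κ, (c0 : ℝ≥0∞), ENNReal.coe_ne_top, by exact_mod_cast hc00, ?_⟩
  intro z
  have hset : slabPolytope a z = Lc ⁻¹' stdPoly κ (z i0) (fun j => z (i0.succAbove j)) := by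
    ext x
    have e1 : inner ℝ (a i0) x = ∑ j, κ j * (Lc x) j := by
      rw [hai, sum_inner]
      apply Finset.sum_congr rfl
      intro j _
      rw [inner_smul_left, hLc, hL]
      rfl
    change (∀ i, |inner ℝ (a i) x| ≤ z i) ↔
      ((∀ j, |(Lc x) j| ≤ z (i0.succAbove j)) ∧ |∑ j, κ j * (Lc x) j| ≤ z i0)
    rw [Fin.forall_iff_succAbove i0, ← e1, and_comm]
    rfl
  rw [hset, ← Measure.map_apply Lc.continuous.measurable (stdPoly_meas _ _ _), hsm]
  rfl

/-- The logarithmic Brunn-Minkowski inequality for `n + 1` slabs with common normals. -/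
theorem slab_log_bm {n : ℕ} (a : Fin (n + 1) → EuclideanSpace ℝ (Fin n))
    (ha : Submodule.span ℝ (range a) = ⊤) {z w : Fin (n + 1) → ℝ} (hz : ∀ i, 0 < z i)
    (hw : ∀ i, 0 < w i) {t : ℝ} (t0 : 0 ≤ t) (t1 : t ≤ 1) :
    volume (slabPolytope a z) ^ (1 - t) * volume (slabPolytope a w) ^ t
      ≤ volume (slabPolytope a fun i => z i ^ (1 - t) * w i ^ t) := by
  rcases t0.eq_or_lt with rfl | t0
  · simp
  rcases t1.eq_or_lt with rfl | t1
  · simp
  obtain ⟨i0, κ, c, hct, hc0, hc⟩ := exists_std_form a ha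
  have h1t : 0 < 1 - t := by linarith
  rw [hc, hc, hc]
  have key := std_log_concave κ (hz i0) (hw i0) (z := fun j => z (i0.succAbove j))
    (w := fun j => w (i0.succAbove j)) (fun j => hz _) (fun j => hw _) t0 t1
  rw [ENNReal.mul_rpow_of_nonneg _ _ h1t.le, ENNReal.mul_rpow_of_nonneg _ _ t0.le]
  have hcc : c ^ (1 - t) * c ^ t = c := by
    rw [← ENNReal.rpow_add_of_nonneg _ _ h1t.le t0.le]
    simp
  calc c ^ (1 - t) * volume (stdPoly κ (z i0) fun j => z (i0.succAbove j)) ^ (1 - t)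
        * (c ^ t * volume (stdPoly κ (w i0) fun j => w (i0.succAbove j)) ^ t)
      = (c ^ (1 - t) * c ^ t) * (volume (stdPoly κ (z i0) fun j => z (i0.succAbove j)) ^ (1 - t)
        * volume (stdPoly κ (w i0) fun j => w (i0.succAbove j)) ^ t) := by ring
    _ ≤ c * _ := by
        rw [hcc]
        gcongr

end Vale.Agent.Lib.P227
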