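import Vale.Agent.Lib.P227.Busemann

open MeasureTheory Set
open scoped ENNReal Pointwise

namespace Vale.Agent.Lib.P227

/-- Hypotheses on an unconditional convex body in `ℝ × ℝⁿ`. -/
structure Body {n : ℕ} (Q : Set (ℝ × (Fin n → ℝ))) : Prop where
  convex : Convex ℝ Q
  meas : MeasurableSet Q
  bdd : ∃ R : ℝ, 0 < R ∧ ∀ p ∈ Q, |p.1| ≤ R ∧ ∀ i, |p.2 i| ≤ R
  nhd : ∃ r : ℝ, 0 < r ∧ ∀ p : ℝ × (Fin n → ℝ), |p.1| ≤ r → (∀ i, |p.2 i| ≤ r) → p ∈ Q
  neg : ∀ p ∈ Q, -p ∈ Q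
  flip0 : ∀ p ∈ Q, (-p.1, p.2) ∈ Q
  flipi : ∀ (i : Fin n), ∀ p ∈ Q, (p.1, Function.update p.2 i (-p.2 i)) ∈ Q

/-- The section `{y | (-(a·y)/a0, y) ∈ Q}`. -/
def sec {n : ℕ} (Q : Set (ℝ × (Fin n → ℝ))) (a0 : ℝ) (a : Fin n → ℝ) : Set (Fin n → ℝ) :=
  {y | (-(∑ i, a i * y i) / a0, y) ∈ Q}

lemma sec_meas {n : ℕ} {Q : Set (ℝ × (Fin n → ℝ))} (hB : Body Q) (a0 : ℝ) (a : Fin n → ℝ) :
    MeasurableSet (sec Q a0 a) := by
  have : Measurable fun y : Fin n → ℝ => ((-(∑ i, a i * y i) / a0, y) : ℝ × (Fin n → ℝ)) := by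
    refine Measurable.prodMk ?_ measurable_id
    fun_prop
  exact this hB.meas

/-- the affine slice map -/
def slc {m : ℕ} (j : Fin (m + 1)) (ρ0 ρj : (Fin m → ℝ) →ₗ[ℝ] ℝ) (x : ℝ × ℝ) (w : Fin m → ℝ) :
    ℝ × (Fin (m + 1) → ℝ) :=
  (x.1 - ρ0 w, Fin.insertNth j (x.2 - ρj w) w)

lemma slc_meas {m : ℕ} (j : Fin (m + 1)) (ρ0 ρj : (Fin m → ℝ) →ₗ[ℝ] ℝ) :
    Measurable (fun p : (ℝ × ℝ) × (Fin m → ℝ) => slc j ρ0 ρj p.1 p.2) := by
  have h0 : Measurable ρ0 := (LinearMap.continuous_of_finiteDimensional ρ0).measurable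
  have hj : Measurable ρj := (LinearMap.continuous_of_finiteDimensional ρj).measurable
  refine Measurable.prodMk ?_ ?_
  · exact (measurable_fst.comp measurable_fst).sub (h0.comp measurable_snd)
  · have e := (MeasurableEquiv.piFinSuccAbove (fun _ : Fin (m + 1) => ℝ) j).symm.measurable
    have : Measurable fun p : (ℝ × ℝ) × (Fin m → ℝ) => (p.1.2 - ρj p.2, p.2) :=
      ((measurable_snd.comp measurable_fst).sub (hj.comp measurable_snd)).prodMk measurable_snd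
    exact e.comp this

lemma slc_comb {m : ℕ} (j : Fin (m + 1)) (ρ0 ρj : (Fin m → ℝ) →ₗ[ℝ] ℝ) (x x' : ℝ × ℝ)
    (w w' : Fin m → ℝ) (s t : ℝ) :
    slc j ρ0 ρj (s • x + t • x') (s • w + t • w') = s • slc j ρ0 ρj x w + t • slc j ρ0 ρj x' w' := by
  refine Prod.ext ?_ ?_
  · simp only [slc, Prod.fst_add, Prod.smul_fst, smul_eq_mul, map_add, map_smul]
    ring
  · funext i
    simp only [slc, Prod.snd_add, Prod.smul_snd, smul_eq_mul, map_add, map_smul, Pi.add_apply,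
      Pi.smul_apply]
    refine Fin.succAboveCases j ?_ (fun k => ?_) i
    · simp
      ring
    · simp

/-- The volume of the fibre of `Q` over a point of the plane. -/
noncomputable def Eenn {m : ℕ} (Q : Set (ℝ × (Fin (m + 1) → ℝ))) (j : Fin (m + 1))
    (ρ0 ρj : (Fin m → ℝ) →ₗ[ℝ] ℝ) (x : ℝ × ℝ) : ℝ≥0∞ :=
  volume {w | slc j ρ0 ρj x w ∈ Q}

section Fibre

variable {m : ℕ} {Q : Set (ℝ × (Fin (m + 1) → ℝ))} (hB : Body Q) (j : Fin (m + 1))
  (ρ0 ρj : (Fin m → ℝ) →ₗ[ℝ] ℝ)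

include hB

lemma Eenn_eq_lint (x : ℝ × ℝ) :
    Eenn Q j ρ0 ρj x = ∫⁻ w, Q.indicator 1 (slc j ρ0 ρj x w) := by
  have hm : MeasurableSet {w | slc j ρ0 ρj x w ∈ Q} := by
    have : Measurable fun w : Fin m → ℝ => slc j ρ0 ρj x w :=
      (slc_meas j ρ0 ρj).comp (measurable_const.prodMk measurable_id)
    exact this hB.meas
  rw [Eenn, ← lintegral_indicator_one hm]
  apply lintegral_congr
  intro w
  by_cases h : slc j ρ0 ρj x w ∈ Q
  · simp [h, indicator]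
  · simp [h, indicator]

lemma joint_meas :
    Measurable fun p : (ℝ × ℝ) × (Fin m → ℝ) => Q.indicator (1 : ℝ × (Fin (m + 1) → ℝ) → ℝ≥0∞) (slc j ρ0 ρj p.1 p.2) :=
  (measurable_one.indicator hB.meas).comp (slc_meas j ρ0 ρj)

lemma Eenn_meas : Measurable (Eenn Q j ρ0 ρj) := by
  have := (joint_meas hB j ρ0 ρj).lintegral_prod_right' (ν := volume)
  have e : Eenn Q j ρ0 ρj = fun x => ∫⁻ w, Q.indicator (1 : ℝ × (Fin (m + 1) → ℝ) → ℝ≥0∞) (slc j ρ0 ρj x w) := by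
    funext x
    exact Eenn_eq_lint hB j ρ0 ρj x
  rw [e]
  exact this

lemma Eenn_bound : ∃ M : ℝ≥0∞, M ≠ ⊤ ∧ ∀ x, Eenn Q j ρ0 ρj x ≤ M := by
  obtain ⟨R, hR, hQ⟩ := hB.bdd
  refine ⟨volume (Icc (fun _ : Fin m => -R) (fun _ => R)), ?_, ?_⟩
  · rw [Real.volume_Icc_pi]
    exact ENNReal.prod_ne_top fun _ _ => ENNReal.ofReal_ne_top
  · intro x
    apply measure_mono
    intro w hw
    have h := (hQ _ hw).2
    constructor
    · intro k
      have := h (j.succAbove k)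
      simp only [slc, Fin.insertNth_apply_succAbove] at this
      exact (abs_le.1 this).1
    · intro k
      have := h (j.succAbove k)
      simp only [slc, Fin.insertNth_apply_succAbove] at this
      exact (abs_le.1 this).2

lemma Eenn_logc (x x' : ℝ × ℝ) {μ : ℝ} (μ0 : 0 < μ) (μ1 : μ < 1) :
    Eenn Q j ρ0 ρj x ^ (1 - μ) * Eenn Q j ρ0 ρj x' ^ μ
      ≤ Eenn Q j ρ0 ρj ((1 - μ) • x + μ • x') := by
  rw [Eenn_eq_lint hB, Eenn_eq_lint hB, Eenn_eq_lint hB]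
  have mf : ∀ y : ℝ × ℝ, Measurable fun w : Fin m → ℝ => Q.indicator (1 : ℝ × (Fin (m + 1) → ℝ) → ℝ≥0∞) (slc j ρ0 ρj y w) :=
    fun y => (joint_meas hB j ρ0 ρj).comp (measurable_const.prodMk measurable_id)
  refine prekopa_leindler m (mf x) (mf x') (mf _) μ0 μ1 ?_
  intro w w'
  have h1μ : 0 < 1 - μ := by linarith
  by_cases hw : slc j ρ0 ρj x w ∈ Q
  · by_cases hw' : slc j ρ0 ρj x' w' ∈ Q
    · have hc : slc j ρ0 ρj ((1 - μ) • x + μ • x') ((1 - μ) • w + μ • w') ∈ Q := by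
        rw [slc_comb j ρ0 ρj x x' w w' (1 - μ) μ]
        exact hB.convex hw hw' h1μ.le μ0.le (by ring)
      simp [hw, hw', hc, indicator]
    · simp [hw', indicator, ENNReal.zero_rpow_of_pos μ0]
  · simp [hw, indicator, ENNReal.zero_rpow_of_pos h1μ]

lemma Eenn_neg (x : ℝ × ℝ) : Eenn Q j ρ0 ρj (-x) = Eenn Q j ρ0 ρj x := by
  rw [Eenn_eq_lint hB, Eenn_eq_lint hB]
  rw [← lintegral_neg_eq_self (fun w => Q.indicator (1 : ℝ × (Fin (m + 1) → ℝ) → ℝ≥0∞) (slc j ρ0 ρj x w))]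
  apply lintegral_congr
  intro w
  have e : slc j ρ0 ρj (-x) w = -slc j ρ0 ρj x (-w) := by
    refine Prod.ext ?_ ?_
    · simp [slc]
      ring
    · funext i
      simp only [slc, Prod.snd_neg, Pi.neg_apply, Prod.fst_neg, map_neg]
      refine Fin.succAboveCases j ?_ (fun k => ?_) i
      · simp
        ring
      · simp
  have hiff : slc j ρ0 ρj (-x) w ∈ Q ↔ slc j ρ0 ρj x (-w) ∈ Q := by
    rw [e]
    constructor
    · intro h
      simpa using hB.neg _ h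
    · intro h
      exact hB.neg _ h
  by_cases h : slc j ρ0 ρj x (-w) ∈ Q
  · simp [h, hiff.2 h, indicator]
  · have : slc j ρ0 ρj (-x) w ∉ Q := fun h' => h (hiff.1 h')
    simp [h, this, indicator]

/-- support bound for the second coordinate -/
lemma Eenn_support : ∃ R' : ℝ, 0 < R' ∧ ∀ x, Eenn Q j ρ0 ρj x ≠ 0 → |x.2| ≤ R' := by
  obtain ⟨R, hR, hQ⟩ := hB.bdd
  let ρ' : (Fin m → ℝ) →L[ℝ] ℝ := LinearMap.toContinuousLinearMap ρj
  refine ⟨R + ‖ρ'‖ * R + 1, by positivity, ?_⟩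
  intro x hx
  have hne : ({w | slc j ρ0 ρj x w ∈ Q} : Set (Fin m → ℝ)).Nonempty := by
    by_contra h
    rw [not_nonempty_iff_eq_empty] at h
    exact hx (by rw [Eenn, h, measure_empty])
  obtain ⟨w, hw⟩ := hne
  have h := (hQ _ hw).2
  have h1 : |x.2 - ρj w| ≤ R := by
    have := h j
    simpa [slc] using this
  have h2 : ‖w‖ ≤ R := by
    rw [pi_norm_le_iff_of_nonneg hR.le]
    intro k
    have := h (j.succAbove k)
    simpa [slc, Real.norm_eq_abs] using this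
  have h3 : |ρj w| ≤ ‖ρ'‖ * R := by
    have : ‖ρ' w‖ ≤ ‖ρ'‖ * ‖w‖ := ρ'.le_opNorm w
    have h4 : ρ' w = ρj w := rfl
    rw [h4, Real.norm_eq_abs] at this
    exact le_trans this (by gcongr)
  have h5 : |x.2| ≤ |x.2 - ρj w| + |ρj w| := by
    have := abs_add_le (x.2 - ρj w) (ρj w)
    simpa using this
  linarith

end Fibre

/-- Affine change of variables on the line. -/
lemma lint_comp_affine {G : ℝ → ℝ≥0∞} (hG : Measurable G) {c : ℝ} (hc : c ≠ 0) (d : ℝ) :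
    ∫⁻ ρ, G (c * ρ - d) = ENNReal.ofReal |c⁻¹| * ∫⁻ y, G y := by
  have h1 : ∫⁻ y, G (y - d) = ∫⁻ y, G y := lintegral_sub_right_eq_self G d
  have hH : Measurable fun y => G (y - d) := hG.comp (measurable_id.sub_const d)
  have h2 : ∫⁻ y, (fun y => G (y - d)) y ∂(Measure.map (c * ·) volume)
      = ∫⁻ ρ, (fun y => G (y - d)) (c * ρ) := lintegral_map hH (measurable_const_mul c)
  rw [Real.map_volume_mul_left hc, lintegral_smul_measure] at h2
  rw [← h1]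
  simpa using h2.symm

/-- Fubini along a coordinate. -/
lemma lint_insertNth {m : ℕ} (j : Fin (m + 1)) {p : (Fin (m + 1) → ℝ) → ℝ≥0∞} (hp : Measurable p) :
    ∫⁻ x, p x = ∫⁻ s : ℝ, ∫⁻ x : Fin m → ℝ, p (Fin.insertNth j s x) := by
  have mp := volume_preserving_piFinSuccAbove (fun _ : Fin (m + 1) => ℝ) j
  have mps := mp.symm
  have h1 := mps.lintegral_comp hp
  rw [← h1, Measure.volume_eq_prod, lintegral_prod]
  · rfl
  · exact (hp.comp mps.measurable).aemeasurable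

lemma sec_fin {n : ℕ} {Q : Set (ℝ × (Fin n → ℝ))} (hB : Body Q) (a0 : ℝ) (a : Fin n → ℝ) :
    volume (sec Q a0 a) ≠ ⊤ := by
  obtain ⟨R, hR, hQ⟩ := hB.bdd
  have : sec Q a0 a ⊆ Icc (fun _ : Fin n => -R) (fun _ => R) := by
    intro y hy
    have h := (hQ _ hy).2
    exact ⟨fun i => (abs_le.1 (h i)).1, fun i => (abs_le.1 (h i)).2⟩
  refine ne_of_lt (lt_of_le_of_lt (measure_mono this) ?_)
  rw [Real.volume_Icc_pi]
  exact ENNReal.prod_lt_top fun _ _ => ENNReal.ofReal_lt_top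

lemma sec_pos {n : ℕ} {Q : Set (ℝ × (Fin n → ℝ))} (hB : Body Q) {a0 : ℝ} (ha0 : a0 ≠ 0)
    (a : Fin n → ℝ) : 0 < volume (sec Q a0 a) := by
  obtain ⟨r, hr, hQ⟩ := hB.nhd
  have ha : 0 < |a0| := abs_pos.2 ha0
  set S := ∑ i, |a i| with hS
  have hS0 : 0 ≤ S := Finset.sum_nonneg fun i _ => abs_nonneg _
  set δ := min r (r * |a0| / (1 + S)) with hδ
  have hδp : 0 < δ := lt_min hr (by positivity)
  have hsub : Icc (fun _ : Fin n => -δ) (fun _ => δ) ⊆ sec Q a0 a := by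
    intro y hy
    have hyi : ∀ i, |y i| ≤ δ := fun i => abs_le.2 ⟨hy.1 i, hy.2 i⟩
    apply hQ
    · have h1 : |∑ i, a i * y i| ≤ S * δ := by
        calc |∑ i, a i * y i| ≤ ∑ i, |a i * y i| := Finset.abs_sum_le_sum_abs _ _
          _ ≤ ∑ i, |a i| * δ := by
              apply Finset.sum_le_sum
              intro i _
              rw [abs_mul]
              exact mul_le_mul_of_nonneg_left (hyi i) (abs_nonneg _)
          _ = S * δ := by rw [Finset.sum_mul]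
      have h2 : δ * (1 + S) ≤ r * |a0| := by
        have : δ ≤ r * |a0| / (1 + S) := min_le_right _ _
        exact (le_div_iff₀ (by positivity)).1 this
      simp only [abs_div, abs_neg]
      rw [div_le_iff₀ ha]
      nlinarith
    · intro i
      exact le_trans (hyi i) (min_le_left _ _)
  refine lt_of_lt_of_le ?_ (measure_mono hsub)
  rw [Real.volume_Icc_pi]
  rw [pos_iff_ne_zero, Finset.prod_ne_zero_iff]
  intro i _
  simp only [ne_eq, ENNReal.ofReal_eq_zero, not_le]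
  linarith

/-- The integral of the fibre volume along a line through the origin. -/
lemma line_integral {m : ℕ} {Q : Set (ℝ × (Fin (m + 1) → ℝ))} (hB : Body Q) (j : Fin (m + 1))
    (ρ0 ρj : (Fin m → ℝ) →ₗ[ℝ] ℝ) {c0 : ℝ} (hc0 : c0 ≠ 0) (c : Fin (m + 1) → ℝ)
    (hC : ∀ w, c0 * ρ0 w + c j * ρj w = ∑ k, c (j.succAbove k) * w k) :
    ∫⁻ ρ : ℝ, Eenn Q j ρ0 ρj (ρ • ((-c j, c0) : ℝ × ℝ))
      = ENNReal.ofReal |c0⁻¹| * volume (sec Q c0 c) := by
  have hlm : Measurable fun p : ℝ × (Fin m → ℝ) =>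
      Q.indicator (1 : ℝ × (Fin (m + 1) → ℝ) → ℝ≥0∞) (slc j ρ0 ρj (p.1 • ((-c j, c0) : ℝ × ℝ)) p.2) := by
    have : Measurable fun p : ℝ × (Fin m → ℝ) => ((p.1 • ((-c j, c0) : ℝ × ℝ), p.2) : (ℝ × ℝ) × (Fin m → ℝ)) :=
      (measurable_fst.smul_const _).prodMk measurable_snd
    exact (joint_meas hB j ρ0 ρj).comp this
  have e1 : ∫⁻ ρ : ℝ, Eenn Q j ρ0 ρj (ρ • ((-c j, c0) : ℝ × ℝ))
      = ∫⁻ ρ : ℝ, ∫⁻ w, Q.indicator (1 : ℝ × (Fin (m + 1) → ℝ) → ℝ≥0∞)
          (slc j ρ0 ρj (ρ • ((-c j, c0) : ℝ × ℝ)) w) := by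
    apply lintegral_congr
    intro ρ
    exact Eenn_eq_lint hB j ρ0 ρj _
  rw [e1, lintegral_lintegral_swap hlm.aemeasurable]
  set G : (Fin m → ℝ) → ℝ → ℝ≥0∞ := fun w y =>
    Q.indicator (1 : ℝ × (Fin (m + 1) → ℝ) → ℝ≥0∞)
      (-(c j * y + ∑ k, c (j.succAbove k) * w k) / c0, Fin.insertNth j y w) with hG
  have mpi := (MeasurableEquiv.piFinSuccAbove (fun _ : Fin (m + 1) => ℝ) j).symm.measurable
  have hGm2 : Measurable fun p : ℝ × (Fin m → ℝ) => G p.2 p.1 := by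
    refine (measurable_one.indicator hB.meas).comp ?_
    refine Measurable.prodMk ?_ ?_
    · refine Measurable.div_const ?_ _
      refine Measurable.neg ?_
      refine Measurable.add ?_ ?_
      · exact measurable_const.mul measurable_fst
      · exact Finset.measurable_sum _ fun k _ =>
          measurable_const.mul ((measurable_pi_apply k).comp measurable_snd)
    · exact mpi
  have hGm : ∀ w, Measurable (G w) := fun w =>
    hGm2.comp (measurable_id.prodMk measurable_const)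
  have e2 : ∀ w : Fin m → ℝ, ∫⁻ ρ : ℝ, Q.indicator (1 : ℝ × (Fin (m + 1) → ℝ) → ℝ≥0∞)
        (slc j ρ0 ρj (ρ • ((-c j, c0) : ℝ × ℝ)) w)
      = ENNReal.ofReal |c0⁻¹| * ∫⁻ y, G w y := by
    intro w
    rw [← lint_comp_affine (hGm w) hc0 (ρj w)]
    apply lintegral_congr
    intro ρ
    have : slc j ρ0 ρj (ρ • ((-c j, c0) : ℝ × ℝ)) w
        = (-(c j * (c0 * ρ - ρj w) + ∑ k, c (j.succAbove k) * w k) / c0,
            Fin.insertNth j (c0 * ρ - ρj w) w) := by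
      refine Prod.ext ?_ ?_
      · simp only [slc, Prod.smul_mk, smul_eq_mul, ← hC w]
        field_simp
        ring
      · simp only [slc, Prod.smul_mk, smul_eq_mul, mul_comm ρ c0]
    rw [this]
  simp_rw [e2]
  rw [lintegral_const_mul' _ _ ENNReal.ofReal_ne_top]
  congr 1
  rw [lintegral_lintegral_swap (hGm2.comp measurable_swap).aemeasurable]
  have hsm : MeasurableSet (sec Q c0 c) := sec_meas hB c0 c
  rw [← lintegral_indicator_one hsm, lint_insertNth j ((measurable_one.indicator hsm))]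
  apply lintegral_congr
  intro y
  apply lintegral_congr
  intro w
  have hsum : ∑ i, c i * (Fin.insertNth j y w : Fin (m + 1) → ℝ) i
      = c j * y + ∑ k, c (j.succAbove k) * w k := by
    rw [Fin.sum_univ_succAbove _ j]
    simp
  have : (Fin.insertNth j y w : Fin (m + 1) → ℝ) ∈ sec Q c0 c ↔
      ((-(c j * y + ∑ k, c (j.succAbove k) * w k) / c0, Fin.insertNth j y w) :
        ℝ × (Fin (m + 1) → ℝ)) ∈ Q := by
    change ((-(∑ i, c i * (Fin.insertNth j y w : Fin (m + 1) → ℝ) i) / c0, Fin.insertNth j y w) :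
      ℝ × (Fin (m + 1) → ℝ)) ∈ Q ↔ _
    rw [hsum]
  by_cases h : ((-(c j * y + ∑ k, c (j.succAbove k) * w k) / c0, Fin.insertNth j y w) :
        ℝ × (Fin (m + 1) → ℝ)) ∈ Q
  · have h2 := this.2 h
    rw [hG]
    simp only
    rw [Set.indicator_of_mem h, Set.indicator_of_mem h2]
    rfl
  · have h' : (Fin.insertNth j y w : Fin (m + 1) → ℝ) ∉ sec Q c0 c := fun h'' => h (this.1 h'')
    rw [hG]
    simp only
    rw [Set.indicator_of_notMem h, Set.indicator_of_notMem h']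

end Vale.Agent.Lib.P227
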