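import Vale.Agent.Lib.P227.Polytope
import Vale.Agent.Lib.P227.Dual

open MeasureTheory Set

namespace Vale.Agent.Lib.P227

set_option linter.unusedSectionVars false

variable {n : ℕ} {ι : Type*} [Fintype ι]

lemma slab_bounded {a : ι → EuclideanSpace ℝ (Fin n)}
    (hspan : Submodule.span ℝ (range a) = ⊤) {z : ι → ℝ} (hz : ∀ i, 0 < z i) :
    Bornology.IsBounded (slabPolytope a z) := by
  have hker : LinearMap.ker (slabMap a z) = ⊥ := by
    rw [LinearMap.ker_eq_bot']
    intro x hx
    apply eq_zero_of_span hspan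
    intro i
    have := congrFun hx i
    rw [slabMap_apply] at this
    simp only [Pi.zero_apply, mul_eq_zero, inv_eq_zero] at this
    rcases this with h | h
    · exact absurd h (hz i).ne'
    · exact h
  obtain ⟨K, _, hK⟩ := LinearMap.exists_antilipschitzWith (slabMap a z) hker
  rw [isBounded_iff_forall_norm_le]
  refine ⟨K, ?_⟩
  intro x hx
  have h1 : ‖slabMap a z x‖ ≤ 1 := by
    rw [pi_norm_le_iff_of_nonneg zero_le_one]
    intro i
    rw [slabMap_apply, Real.norm_eq_abs, abs_mul, abs_inv, abs_of_pos (hz i), inv_mul_le_iff₀ (hz i)]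
    have := hx i
    linarith
  have h2 := hK.le_mul_dist x 0
  rw [dist_zero_right, map_zero, dist_zero_right] at h2
  calc ‖x‖ ≤ K * ‖slabMap a z x‖ := h2
    _ ≤ K * 1 := by gcongr
    _ = K := mul_one _

lemma slab_closed (a : ι → EuclideanSpace ℝ (Fin n)) (z : ι → ℝ) :
    IsClosed (slabPolytope a z) := by
  have : slabPolytope a z = ⋂ i, {x | |inner ℝ (a i) x| ≤ z i} := by
    ext x
    simp [slabPolytope]
  rw [this]
  apply isClosed_iInter
  intro i
  apply isClosed_le _ continuous_const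
  fun_prop

lemma slab_compact {a : ι → EuclideanSpace ℝ (Fin n)}
    (hspan : Submodule.span ℝ (range a) = ⊤) {z : ι → ℝ} (hz : ∀ i, 0 < z i) :
    IsCompact (slabPolytope a z) :=
  Metric.isCompact_of_isClosed_isBounded (slab_closed a z) (slab_bounded hspan hz)

lemma slab_zero_mem (a : ι → EuclideanSpace ℝ (Fin n)) {z : ι → ℝ} (hz : ∀ i, 0 < z i) :
    (0 : EuclideanSpace ℝ (Fin n)) ∈ slabPolytope a z := by
  intro i
  simpa using (hz i).le

lemma slab_neg_mem {a : ι → EuclideanSpace ℝ (Fin n)} {z : ι → ℝ}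
    {x : EuclideanSpace ℝ (Fin n)} (hx : x ∈ slabPolytope a z) : -x ∈ slabPolytope a z := by
  intro i
  rw [inner_neg_right, abs_neg]
  exact hx i

lemma exists_pos_smul_mem (a : ι → EuclideanSpace ℝ (Fin n)) {z : ι → ℝ} (hz : ∀ i, 0 < z i)
    (b : EuclideanSpace ℝ (Fin n)) : ∃ r : ℝ, 0 < r ∧ r • b ∈ slabPolytope a z := by
  set M : ℝ := ∑ j, |inner ℝ (a j) b| / z j + 1 with hM
  have hM0 : 0 < M := by
    have : 0 ≤ ∑ j, |inner ℝ (a j) b| / z j :=
      Finset.sum_nonneg fun j _ => div_nonneg (abs_nonneg _) (hz j).le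
    linarith
  refine ⟨M⁻¹, inv_pos.mpr hM0, ?_⟩
  intro j
  rw [inner_smul_right, abs_mul, abs_of_pos (inv_pos.mpr hM0), inv_mul_le_iff₀ hM0]
  have h1 : |inner ℝ (a j) b| / z j ≤ ∑ j, |inner ℝ (a j) b| / z j :=
    Finset.single_le_sum (f := fun j => |inner ℝ (a j) b| / z j)
      (fun j _ => div_nonneg (abs_nonneg _) (hz j).le) (Finset.mem_univ j)
  have h2 : |inner ℝ (a j) b| / z j ≤ M := by linarith
  rw [div_le_iff₀ (hz j)] at h2
  linarith

lemma supportFn_eq_of_max {K : Set (EuclideanSpace ℝ (Fin n))} {u x : EuclideanSpace ℝ (Fin n)}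
    (hx : x ∈ K) (hmax : ∀ y ∈ K, inner ℝ y u ≤ inner ℝ x u) :
    supportFn K u = inner ℝ x u := by
  apply IsGreatest.csSup_eq
  refine ⟨mem_image_of_mem _ hx, ?_⟩
  rintro _ ⟨y, hy, rfl⟩
  exact hmax y hy

lemma exists_max {K : Set (EuclideanSpace ℝ (Fin n))} (hK : IsCompact K) (hne : K.Nonempty)
    (u : EuclideanSpace ℝ (Fin n)) : ∃ x ∈ K, ∀ y ∈ K, inner ℝ y u ≤ inner ℝ x u := by
  obtain ⟨x, hx, hmax⟩ := hK.exists_isMaxOn hne
    (f := fun y => inner ℝ y u) (by fun_prop)
  exact ⟨x, hx, fun y hy => hmax hy⟩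

lemma le_supportFn {K : Set (EuclideanSpace ℝ (Fin n))} (hK : IsCompact K) {x : EuclideanSpace ℝ (Fin n)}
    (hx : x ∈ K) (u : EuclideanSpace ℝ (Fin n)) : inner ℝ x u ≤ supportFn K u := by
  obtain ⟨x0, hx0, hmax⟩ := exists_max hK ⟨x, hx⟩ u
  rw [supportFn_eq_of_max hx0 hmax]
  exact hmax x hx

/-- Homogeneity of the support function of a compact symmetric set. -/
lemma supportFn_smul {K : Set (EuclideanSpace ℝ (Fin n))} (hK : IsCompact K) (hne : K.Nonempty)
    (hsym : ∀ x ∈ K, -x ∈ K) (c : ℝ) (u : EuclideanSpace ℝ (Fin n)) :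
    supportFn K (c • u) = |c| * supportFn K u := by
  obtain ⟨x0, hx0, hmax⟩ := exists_max hK hne u
  rw [supportFn_eq_of_max hx0 hmax]
  rcases le_total 0 c with hc | hc
  · rw [abs_of_nonneg hc, ← real_inner_smul_right]
    apply supportFn_eq_of_max hx0
    intro y hy
    rw [real_inner_smul_right, real_inner_smul_right]
    exact mul_le_mul_of_nonneg_left (hmax y hy) hc
  · rw [abs_of_nonpos hc]
    have : -c * inner ℝ x0 u = inner ℝ (-x0) (c • u) := by
      rw [inner_neg_left, real_inner_smul_right]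
      ring
    rw [this]
    apply supportFn_eq_of_max (hsym _ hx0)
    intro y hy
    rw [inner_neg_left, real_inner_smul_right, real_inner_smul_right]
    nlinarith [hmax y hy, hmax (-y) (hsym _ hy), inner_neg_left (𝕜 := ℝ) y u]

lemma supportFn_zero {K : Set (EuclideanSpace ℝ (Fin n))} {x : EuclideanSpace ℝ (Fin n)}
    (hx : x ∈ K) : supportFn K 0 = 0 := by
  rw [supportFn_eq_of_max hx]
  · simp
  · simp

lemma supportFn_slab_pos {a : ι → EuclideanSpace ℝ (Fin n)}
    (hspan : Submodule.span ℝ (range a) = ⊤) {z : ι → ℝ} (hz : ∀ i, 0 < z i)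
    {b : EuclideanSpace ℝ (Fin n)} (hb : b ≠ 0) : 0 < supportFn (slabPolytope a z) b := by
  obtain ⟨r, hr, hmem⟩ := exists_pos_smul_mem a hz b
  have h1 := le_supportFn (slab_compact hspan hz) hmem b
  rw [real_inner_smul_left, real_inner_self_eq_norm_sq] at h1
  have : 0 < ‖b‖ := norm_pos_iff.mpr hb
  have h3 : 0 < r * ‖b‖ ^ 2 := by positivity
  linarith

/-- Weighted Hölder inequality in geometric mean form. -/
lemma weighted_holder {c z w : ι → ℝ} (hc : ∀ i, 0 ≤ c i) (hz : ∀ i, 0 < z i) (hw : ∀ i, 0 < w i)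
    {t : ℝ} (t0 : 0 ≤ t) (t1 : t ≤ 1) (hA : 0 < ∑ i, c i * z i) (hB : 0 < ∑ i, c i * w i) :
    ∑ i, c i * (z i ^ (1 - t) * w i ^ t)
      ≤ (∑ i, c i * z i) ^ (1 - t) * (∑ i, c i * w i) ^ t := by
  set A := ∑ i, c i * z i with hAdef
  set B := ∑ i, c i * w i with hBdef
  have h1t : 0 ≤ 1 - t := by linarith
  have hterm : ∀ i, c i * (z i ^ (1 - t) * w i ^ t)
      ≤ A ^ (1 - t) * B ^ t * ((1 - t) * (c i * z i) / A + t * (c i * w i) / B) := by
    intro i
    have hz' : 0 ≤ z i / A := (div_pos (hz i) hA).le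
    have hw' : 0 ≤ w i / B := (div_pos (hw i) hB).le
    have amgm := Real.geom_mean_le_arith_mean2_weighted h1t t0 hz' hw' (by ring)
    have hz2 : z i ^ (1 - t) = A ^ (1 - t) * (z i / A) ^ (1 - t) := by
      rw [← Real.mul_rpow hA.le hz', mul_div_cancel₀ _ hA.ne']
    have hw2 : w i ^ t = B ^ t * (w i / B) ^ t := by
      rw [← Real.mul_rpow hB.le hw', mul_div_cancel₀ _ hB.ne']
    have hAB : 0 ≤ A ^ (1 - t) * B ^ t := by positivity
    calc c i * (z i ^ (1 - t) * w i ^ t)
        = c i * (A ^ (1 - t) * B ^ t) * ((z i / A) ^ (1 - t) * (w i / B) ^ t) := by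
          rw [hz2, hw2]; ring
      _ ≤ c i * (A ^ (1 - t) * B ^ t) * ((1 - t) * (z i / A) + t * (w i / B)) := by
          apply mul_le_mul_of_nonneg_left amgm
          exact mul_nonneg (hc i) hAB
      _ = _ := by ring
  calc ∑ i, c i * (z i ^ (1 - t) * w i ^ t)
      ≤ ∑ i, A ^ (1 - t) * B ^ t * ((1 - t) * (c i * z i) / A + t * (c i * w i) / B) :=
        Finset.sum_le_sum fun i _ => hterm i
    _ = A ^ (1 - t) * B ^ t * ((1 - t) * A / A + t * B / B) := by
        rw [← Finset.mul_sum, Finset.sum_add_distrib]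
        congr 2
        · rw [hAdef, ← Finset.sum_div, ← Finset.mul_sum]
        · rw [hBdef, ← Finset.sum_div, ← Finset.mul_sum]
    _ = A ^ (1 - t) * B ^ t := by
        rw [mul_div_assoc, mul_div_assoc, div_self hA.ne', div_self hB.ne']
        ring

/-- Tight constraints: a slab polytope equals the one cut by the values of its support function. -/
lemma slab_eq_support {a : ι → EuclideanSpace ℝ (Fin n)}
    (hspan : Submodule.span ℝ (range a) = ⊤) {z : ι → ℝ} (hz : ∀ i, 0 < z i) :
    slabPolytope a (fun i => supportFn (slabPolytope a z) (a i)) = slabPolytope a z := by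
  have hcomp := slab_compact hspan hz
  have h0 := slab_zero_mem a hz
  ext x
  constructor
  · intro hx i
    refine (hx i).trans ?_
    obtain ⟨x0, hx0, hmax⟩ := exists_max hcomp ⟨0, h0⟩ (a i)
    change supportFn (slabPolytope a z) (a i) ≤ z i
    rw [supportFn_eq_of_max hx0 hmax, real_inner_comm]
    exact (le_abs_self _).trans (hx0 i)
  · intro hx i
    have h1 := le_supportFn hcomp hx (a i)
    have h2 := le_supportFn hcomp (slab_neg_mem hx) (a i)
    rw [inner_neg_left] at h2
    rw [real_inner_comm] at h1 h2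
    rw [abs_le]
    constructor <;> linarith

/-- The log-combination contains the polytope cut by the geometric means of the slab widths, as
soon as the normal fan of `K` refines that of `L`. -/
lemma slab_subset_logCombination {a : ι → EuclideanSpace ℝ (Fin n)}
    (hspan : Submodule.span ℝ (range a) = ⊤) (ha0 : ∀ i, a i ≠ 0) {z w : ι → ℝ}
    (hz : ∀ i, 0 < z i) (hw : ∀ i, 0 < w i)
    (hfan : NormalFanRefines (slabPolytope a z) (slabPolytope a w))
    {t : ℝ} (t0 : 0 ≤ t) (t1 : t ≤ 1) :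
    slabPolytope a (fun i => supportFn (slabPolytope a z) (a i) ^ (1 - t)
        * supportFn (slabPolytope a w) (a i) ^ t)
      ⊆ logCombination (slabPolytope a z) (slabPolytope a w) t := by
  classical
  intro x hx
  simp only [logCombination, wulff, mem_iInter]
  intro u hu
  have hu0 : u ≠ 0 := by
    intro h
    rw [h, mem_sphere_iff_norm, sub_zero, norm_zero] at hu
    exact zero_ne_one hu
  set K := slabPolytope a z with hK
  set L := slabPolytope a w with hL
  have hKc : IsCompact K := slab_compact hspan hz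
  have hLc : IsCompact L := slab_compact hspan hw
  have hK0 : (0 : EuclideanSpace ℝ (Fin n)) ∈ K := slab_zero_mem a hz
  have hL0 : (0 : EuclideanSpace ℝ (Fin n)) ∈ L := slab_zero_mem a hw
  set z' : ι → ℝ := fun i => supportFn K (a i) with hz'
  set w' : ι → ℝ := fun i => supportFn L (a i) with hw'
  have hz'0 : ∀ i, 0 < z' i := fun i => supportFn_slab_pos hspan hz (ha0 i)
  have hw'0 : ∀ i, 0 < w' i := fun i => supportFn_slab_pos hspan hw (ha0 i)
  have hKeq : slabPolytope a z' = K := slab_eq_support hspan hz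
  obtain ⟨x0, hx0, hmax⟩ := exists_max hKc ⟨0, hK0⟩ u
  have hKu : supportFn K u = inner ℝ x0 u := supportFn_eq_of_max hx0 hmax
  obtain ⟨c, hcu, hcH⟩ := dual_cert hspan hz'0 u (H := inner ℝ x0 u) (by
    rw [hKeq]
    exact hmax)
  -- complementary slackness
  have hterm : ∀ i, c i * inner ℝ x0 (a i) ≤ |c i| * z' i := by
    intro i
    have h1 : |inner ℝ x0 (a i)| ≤ z' i := by
      have h2 : x0 ∈ slabPolytope a z' := by rw [hKeq]; exact hx0
      have := h2 i
      rwa [real_inner_comm] at this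
    calc c i * inner ℝ x0 (a i) ≤ |c i * inner ℝ x0 (a i)| := le_abs_self _
      _ = |c i| * |inner ℝ x0 (a i)| := abs_mul _ _
      _ ≤ |c i| * z' i := by gcongr
  have hsum : inner ℝ x0 u = ∑ i, c i * inner ℝ x0 (a i) := by
    conv_lhs => rw [hcu]
    rw [inner_sum]
    simp only [real_inner_smul_right]
  have hsum2 : ∑ i, c i * inner ℝ x0 (a i) = ∑ i, |c i| * z' i := by
    apply le_antisymm (Finset.sum_le_sum fun i _ => hterm i)
    rw [← hsum]
    exact hcH
  have hslack : ∀ i, c i * inner ℝ x0 (a i) = |c i| * z' i := by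
    have := (Finset.sum_eq_sum_iff_of_le (fun i _ => hterm i)).mp hsum2
    exact fun i => this i (Finset.mem_univ i)
  have hmaxi : ∀ i, ∀ y ∈ K, inner ℝ y (c i • a i) ≤ inner ℝ x0 (c i • a i) := by
    intro i y hy
    rw [real_inner_smul_right, real_inner_smul_right, hslack i]
    have h2 : y ∈ slabPolytope a z' := by rw [hKeq]; exact hy
    have h3 := h2 i
    rw [real_inner_comm] at h3
    calc c i * inner ℝ y (a i) ≤ |c i * inner ℝ y (a i)| := le_abs_self _
      _ = |c i| * |inner ℝ y (a i)| := abs_mul _ _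
      _ ≤ |c i| * z' i := by gcongr
  -- additivity of `h_L`
  have hadd : ∀ S : Finset ι, supportFn L (∑ i ∈ S, c i • a i) = ∑ i ∈ S, |c i| * w' i := by
    intro S
    have hmaxS : ∀ S : Finset ι, ∀ y ∈ K,
        inner ℝ y (∑ i ∈ S, c i • a i) ≤ inner ℝ x0 (∑ i ∈ S, c i • a i) := by
      intro S y hy
      rw [inner_sum, inner_sum]
      exact Finset.sum_le_sum fun i _ => hmaxi i y hy
    induction S using Finset.induction_on with
    | empty => simp [supportFn_zero hL0]
    | insert j S hj ih =>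
      rw [Finset.sum_insert hj, Finset.sum_insert hj, add_comm (c j • a j),
        hfan _ _ ⟨x0, hx0, hmaxS S, hmaxi j⟩, ih,
        supportFn_smul hLc ⟨0, hL0⟩ (fun _ h => slab_neg_mem h), add_comm]
  have hLu : supportFn L u = ∑ i, |c i| * w' i := by
    have := hadd Finset.univ
    rwa [← hcu] at this
  have hKu' : supportFn K u = ∑ i, |c i| * z' i := by rw [hKu, hsum, hsum2]
  -- positivity
  have hcne : ∃ i, c i ≠ 0 := by
    by_contra hcon
    simp only [not_exists, not_not] at hcon
    apply hu0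
    rw [hcu]
    simp [hcon]
  obtain ⟨i0, hi0⟩ := hcne
  have hpos : ∀ v : ι → ℝ, (∀ i, 0 < v i) → 0 < ∑ i, |c i| * v i := by
    intro v hv
    apply Finset.sum_pos' (fun i _ => mul_nonneg (abs_nonneg _) (hv i).le)
    exact ⟨i0, Finset.mem_univ _, mul_pos (abs_pos.mpr hi0) (hv i0)⟩
  -- the main estimate
  have hxu : inner ℝ x u = ∑ i, c i * inner ℝ x (a i) := by
    conv_lhs => rw [hcu]
    rw [inner_sum]
    simp only [real_inner_smul_right]
  change inner ℝ x u ≤ supportFn K u ^ (1 - t) * supportFn L u ^ t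
  rw [hKu', hLu, hxu]
  refine le_trans ?_ (weighted_holder (fun i => abs_nonneg (c i)) hz'0 hw'0 t0 t1
    (hpos _ hz'0) (hpos _ hw'0))
  apply Finset.sum_le_sum
  intro i _
  have h3 := hx i
  rw [real_inner_comm] at h3
  calc c i * inner ℝ x (a i) ≤ |c i * inner ℝ x (a i)| := le_abs_self _
    _ = |c i| * |inner ℝ x (a i)| := abs_mul _ _
    _ ≤ _ := by gcongr

/-- **The logarithmic Brunn-Minkowski inequality** for a pair of polytopes with the same `n + 1`
pairs of facet normals, when the normal fan of `K` refines that of `L`. -/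
theorem wulff_log_bm {a : Fin (n + 1) → EuclideanSpace ℝ (Fin n)}
    (hspan : Submodule.span ℝ (range a) = ⊤) (ha0 : ∀ i, a i ≠ 0) {z w : Fin (n + 1) → ℝ}
    (hz : ∀ i, 0 < z i) (hw : ∀ i, 0 < w i)
    (hfan : NormalFanRefines (slabPolytope a z) (slabPolytope a w))
    {t : ℝ} (t0 : 0 ≤ t) (t1 : t ≤ 1) :
    volume (slabPolytope a z) ^ (1 - t) * volume (slabPolytope a w) ^ t
      ≤ volume (logCombination (slabPolytope a z) (slabPolytope a w) t) := by
  have hsub := slab_subset_logCombination hspan ha0 hz hw hfan t0 t1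
  refine le_trans ?_ (measure_mono hsub)
  have key := slab_log_bm a hspan
    (z := fun i => supportFn (slabPolytope a z) (a i))
    (w := fun i => supportFn (slabPolytope a w) (a i))
    (fun i => supportFn_slab_pos hspan hz (ha0 i))
    (fun i => supportFn_slab_pos hspan hw (ha0 i)) t0 t1
  rwa [slab_eq_support hspan hz, slab_eq_support hspan hw] at key

end Vale.Agent.Lib.P227
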